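import Mathlib

namespace Vale.Agent.Lib.P200.N

universe u v

variable {K : Type u} [Field K] {A : Type v} [CommRing A] [Algebra K A]

/-- The subspace together with the first powers. -/
noncomputable def Dr (C : Submodule K A) (z : A) : ℕ → Submodule K A
  | 0 => C
  | r + 1 => Dr C z r ⊔ Submodule.span K {z ^ r}

lemma mem_Dr_succ {C : Submodule K A} {z a : A} {r : ℕ} :
    a ∈ Dr C z (r + 1) ↔ ∃ b ∈ Dr C z r, ∃ t : K, a = b + t • z ^ r := by
  simp only [Dr, Submodule.mem_sup, Submodule.mem_span_singleton]
  constructor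
  · rintro ⟨b, hb, _, ⟨t, rfl⟩, rfl⟩
    exact ⟨b, hb, t, rfl⟩
  · rintro ⟨b, hb, t, rfl⟩
    exact ⟨b, hb, _, ⟨t, rfl⟩, rfl⟩

lemma Dr_mono (C : Submodule K A) (z : A) : Monotone (Dr C z) :=
  monotone_nat_of_le_succ fun _ => le_sup_left

lemma pow_mem_Dr (C : Submodule K A) (z : A) {i r : ℕ} (h : i < r) : z ^ i ∈ Dr C z r := by
  have h1 : z ^ i ∈ Dr C z (i + 1) := mem_Dr_succ.mpr ⟨0, Submodule.zero_mem _, 1, by simp⟩
  exact Dr_mono C z h h1

lemma mul_Dr {C : Submodule K A} {z : A} (hz : ∀ u ∈ C, ∃ t : K, z * u - t • (1 : A) ∈ C) :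
    ∀ (r : ℕ), ∀ a ∈ Dr C z r, z * a ∈ Dr C z (r + 1) := by
  intro r
  induction r with
  | zero =>
    intro a ha
    obtain ⟨t, ht⟩ := hz a ha
    refine mem_Dr_succ.mpr ⟨_, ht, t, ?_⟩
    simp
  | succ r ih =>
    intro a ha
    obtain ⟨b, hb, t, rfl⟩ := mem_Dr_succ.mp ha
    refine mem_Dr_succ.mpr ⟨z * b, ih b hb, t, ?_⟩
    rw [mul_add, mul_smul_comm, pow_succ' z r]

/-- A relation between the powers of `z` modulo the subspace. -/
lemma exists_rel [FiniteDimensional K A] (C : Submodule K A) (z : A) : ∃ k, z ^ k ∈ Dr C z k := by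
  obtain ⟨N, hN⟩ := monotone_stabilizes_iff_noetherian.mpr (inferInstance : IsNoetherian K A)
    ⟨Dr C z, Dr_mono C z⟩
  refine ⟨N, ?_⟩
  have h1 : z ^ N ∈ Dr C z (N + 1) := pow_mem_Dr C z (Nat.lt_succ_self N)
  have h2 := hN (N + 1) (Nat.le_succ N)
  change Dr C z N = Dr C z (N + 1) at h2
  rw [h2]
  exact h1

/-- The main computation with the powers of `z`. -/
theorem y_pow_mem [FiniteDimensional K A] {C : Submodule K A} {y z : A} (h1 : (1 : A) ∉ C) (hy : y ∈ C)
    (hyC : ∀ u ∈ C, y * u ∈ C) (hz : ∀ u ∈ C, ∃ t : K, z * u - t • (1 : A) ∈ C) :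
    ∀ m, y * z ^ m ∈ C := by
  classical
  have hfin := exists_rel C z
  set k := Nat.find hfin with hkdef
  have hk : z ^ k ∈ Dr C z k := Nat.find_spec hfin
  have hmin : ∀ i, i < k → z ^ i ∉ Dr C z i := fun i hi => Nat.find_min hfin hi
  have hk0 : k ≠ 0 := by
    intro h0
    rw [h0] at hk
    simp only [pow_zero, Dr] at hk
    exact h1 hk
  have hstab : ∀ i, z ^ i ∈ Dr C z k := by
    intro i
    induction i with
    | zero => exact pow_mem_Dr C z (Nat.pos_of_ne_zero hk0)
    | succ i ih =>
      have h2 := mul_Dr hz k _ ih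
      obtain ⟨b, hb, t, hbt⟩ := mem_Dr_succ.mp h2
      rw [pow_succ', hbt]
      exact Submodule.add_mem _ hb (Submodule.smul_mem _ _ hk)
  intro m
  induction m using Nat.strong_induction_on with
  | _ m IH =>
    cases m with
    | zero => simpa using hy
    | succ m =>
      obtain ⟨α, hα⟩ := hz _ (IH m (Nat.lt_succ_self m))
      have hyz : y * z ^ (m + 1) = z * (y * z ^ m) := by ring
      rw [← hyz] at hα
      have claim1 : ∀ r, ∃ b ∈ Dr C z r, y * z ^ (m + 1 + r) = α • z ^ r + b := by
        intro r
        induction r with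
        | zero =>
          refine ⟨_, hα, ?_⟩
          simp
        | succ r ih =>
          obtain ⟨b, hb, hbe⟩ := ih
          refine ⟨z * b, mul_Dr hz r b hb, ?_⟩
          have : y * z ^ (m + 1 + (r + 1)) = z * (y * z ^ (m + 1 + r)) := by ring
          rw [this, hbe, mul_add, mul_smul_comm, pow_succ' z r]
      have claim2 : ∀ s, ∀ a ∈ Dr C z s, y * a ∈ Dr C z (s - (m + 1)) := by
        intro s
        induction s with
        | zero =>
          intro a ha
          rw [Nat.zero_sub]
          exact hyC a ha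
        | succ s ih =>
          intro a ha
          obtain ⟨b, hb, t, rfl⟩ := mem_Dr_succ.mp ha
          rw [mul_add, mul_smul_comm]
          refine Submodule.add_mem _ (Dr_mono C z (by omega) (ih b hb)) (Submodule.smul_mem _ _ ?_)
          by_cases hs : s < m + 1
          · have h3 := IH s hs
            have h4 : C ≤ Dr C z (s + 1 - (m + 1)) := Dr_mono C z (Nat.zero_le _)
            exact h4 h3
          · obtain ⟨r, rfl⟩ : ∃ r, s = m + 1 + r := ⟨s - (m + 1), by omega⟩
            obtain ⟨b', hb', hbe⟩ := claim1 r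
            rw [hbe]
            have h5 : m + 1 + r + 1 - (m + 1) = r + 1 := by omega
            rw [h5]
            refine Submodule.add_mem _ (Submodule.smul_mem _ _ (pow_mem_Dr C z (Nat.lt_succ_self r))) ?_
            exact Dr_mono C z (Nat.le_succ r) hb'
      by_cases hkm : m + 1 ≤ k
      · by_cases hα0 : α = 0
        · subst hα0
          simpa using hα
        · exfalso
          obtain ⟨r, hr⟩ : ∃ r, k = m + 1 + r := ⟨k - (m + 1), by omega⟩
          obtain ⟨b, hb, hbe⟩ := claim1 r
          have h6 := claim2 k _ hk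
          rw [hr, hbe, Nat.add_sub_cancel_left] at h6
          have h7 : α • z ^ r ∈ Dr C z r := by
            have := Submodule.sub_mem _ h6 hb
            simpa using this
          have h8 : z ^ r ∈ Dr C z r := by
            have := Submodule.smul_mem _ α⁻¹ h7
            rwa [smul_smul, inv_mul_cancel₀ hα0, one_smul] at this
          exact hmin r (by omega) h8
      · have h9 := claim2 k _ (hstab (m + 1))
        have h10 : k - (m + 1) = 0 := by omega
        rw [h10] at h9
        exact h9

/-- The abstract statement on subspaces of an algebra which are almost stable under multiplication by the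
degree one part. -/
theorem alg_main [FiniteDimensional K A] (A₁ : Submodule K A) (h1A : (1 : A) ∈ A₁)
    (hgen : ∀ D : Submodule K A, (1 : A) ∈ D → (∀ x ∈ A₁, ∀ a ∈ D, x * a ∈ D) → D = ⊤)
    (hdim : ∀ φ ψ : A →ₗ[K] K, ∃ y ∈ A₁, y ≠ 0 ∧ φ y = 0 ∧ ψ y = 0)
    (C : Submodule K A) (h1C : (1 : A) ∉ C) (hstab : ∀ x ∈ A₁, ∀ u ∈ C, ∃ t : K, x * u - t • (1 : A) ∈ C) :
    C = ⊥ ∨ C ⊔ Submodule.span K {(1 : A)} = ⊤ ∨ ∃ a : A, a ≠ 0 ∧ ∀ b, a * b ∈ C := by
  obtain ⟨l, hl1, hl2⟩ := Submodule.exists_dual_map_eq_bot_of_notMem h1C inferInstance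
  set θ : A →ₗ[K] K := (l 1)⁻¹ • l with hθ
  have hθ1 : θ 1 = 1 := by
    simp [hθ, inv_mul_cancel₀ hl1]
  have hθC : ∀ u ∈ C, θ u = 0 := by
    intro u hu
    have : l u = 0 := by
      have h2 : l u ∈ C.map l := Submodule.mem_map_of_mem hu
      rw [hl2] at h2
      simpa using h2
    simp [hθ, this]
  have hE : ∀ x ∈ A₁, ∀ u ∈ C, x * u - θ (x * u) • (1 : A) ∈ C := by
    intro x hx u hu
    obtain ⟨t, ht⟩ := hstab x hx u hu
    have h2 := hθC _ ht
    rw [map_sub, map_smul, hθ1, smul_eq_mul, mul_one, sub_eq_zero] at h2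
    rw [h2]
    exact ht
  have hcomm : ∀ x ∈ A₁, ∀ y ∈ A₁, θ x = 0 → θ y = 0 → ∀ u ∈ C, θ (x * u) • y - θ (y * u) • x ∈ C := by
    intro x hx y hy hθx hθy u hu
    have hux := hE x hx u hu
    have huy := hE y hy u hu
    have h1 := hE x hx _ huy
    have h2 := hE y hy _ hux
    have h3 := Submodule.sub_mem _ h1 h2
    have e1 : θ (x * (y * u - θ (y * u) • (1 : A))) = θ (x * y * u) := by
      rw [mul_sub, map_sub, mul_smul_comm, mul_one, map_smul, hθx, smul_zero, sub_zero, mul_assoc]
    have e2 : θ (y * (x * u - θ (x * u) • (1 : A))) = θ (x * y * u) := by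
      rw [mul_sub, map_sub, mul_smul_comm, mul_one, map_smul, hθy, smul_zero, sub_zero, ← mul_assoc,
        mul_comm y x]
    rw [e1, e2] at h3
    have e3 : x * (y * u - θ (y * u) • (1 : A)) - θ (x * y * u) • (1 : A) -
        (y * (x * u - θ (x * u) • (1 : A)) - θ (x * y * u) • (1 : A)) = θ (x * u) • y - θ (y * u) • x := by
      simp only [Algebra.smul_def]
      ring
    rwa [e3] at h3
  by_cases hB : ∀ x ∈ A₁, ∀ u ∈ C, θ (x * u) = 0
  · -- the subspace is an ideal
    by_cases hC0 : C = ⊥
    · exact Or.inl hC0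
    · right; right
      obtain ⟨a, ha, ha0⟩ := Submodule.exists_mem_ne_zero_of_ne_bot hC0
      refine ⟨a, ha0, ?_⟩
      let D : Submodule K A :=
        { carrier := {b | ∀ u ∈ C, b * u ∈ C}
          add_mem' := fun {p q} hp hq u hu => by
            rw [add_mul]
            exact Submodule.add_mem _ (hp u hu) (hq u hu)
          zero_mem' := fun u _ => by simp
          smul_mem' := fun t p hp u hu => by
            rw [smul_mul_assoc]
            exact Submodule.smul_mem _ _ (hp u hu) }
      have hD : D = ⊤ := by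
        refine hgen D (fun u hu => by simpa using hu) fun x hx b hb u hu => ?_
        have h2 := hE x hx u hu
        rw [hB x hx u hu, zero_smul, sub_zero] at h2
        have h3 := hb _ h2
        rwa [show b * (x * u) = x * b * u by ring] at h3
      intro b
      have hb : b ∈ D := by
        rw [hD]
        trivial
      rw [mul_comm]
      exact hb a ha
  · push Not at hB
    obtain ⟨x₀, hx₀, u₁, hu₁, hne⟩ := hB
    -- normalised elements
    set z : A := x₀ - θ x₀ • (1 : A) with hzdef
    have hzA : z ∈ A₁ := Submodule.sub_mem _ hx₀ (Submodule.smul_mem _ _ h1A)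
    have hθz : θ z = 0 := by
      rw [hzdef, map_sub, map_smul, hθ1, smul_eq_mul, mul_one, sub_self]
    have hzu : θ (z * u₁) ≠ 0 := by
      have : z * u₁ = x₀ * u₁ - θ x₀ • u₁ := by
        rw [hzdef, sub_mul, smul_mul_assoc, one_mul]
      rw [this, map_sub, map_smul, hθC _ hu₁, smul_zero, sub_zero]
      exact hne
    -- elements of the kernel lie in the subspace
    have hker : ∀ y ∈ A₁, θ y = 0 → θ (y * u₁) = 0 → y ∈ C := by
      intro y hy hθy hyu
      have h2 := hcomm z hzA y hy hθz hθy u₁ hu₁
      rw [hyu, zero_smul, sub_zero] at h2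
      have h3 := Submodule.smul_mem _ (θ (z * u₁))⁻¹ h2
      rwa [smul_smul, inv_mul_cancel₀ hzu, one_smul] at h3
    -- decomposition of the elements of the degree one part
    have hdec : ∀ x ∈ A₁, ∃ (p q : K) (y : A), y ∈ A₁ ∧ θ y = 0 ∧ θ (y * u₁) = 0 ∧
        x = p • (1 : A) + q • z + y := by
      intro x hx
      refine ⟨θ x, θ (x * u₁) * (θ (z * u₁))⁻¹, x - θ x • (1 : A) - (θ (x * u₁) * (θ (z * u₁))⁻¹) • z,
        Submodule.sub_mem _ (Submodule.sub_mem _ hx (Submodule.smul_mem _ _ h1A)) (Submodule.smul_mem _ _ hzA),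
        ?_, ?_, by abel⟩
      · simp only [map_sub, map_smul, hθ1, hθz, smul_eq_mul, mul_one, mul_zero, sub_self, sub_zero]
      · have e : (x - θ x • (1 : A) - (θ (x * u₁) * (θ (z * u₁))⁻¹) • z) * u₁
            = x * u₁ - θ x • u₁ - (θ (x * u₁) * (θ (z * u₁))⁻¹) • (z * u₁) := by
          simp only [Algebra.smul_def]
          ring
        rw [e]
        simp only [map_sub, map_smul, hθC _ hu₁, smul_eq_mul, mul_zero, sub_zero]
        rw [mul_assoc, inv_mul_cancel₀ hzu, mul_one, sub_self]
    obtain ⟨y₀, hy₀, hy₀0, hy₀1, hy₀2⟩ := hdim θ (θ.comp (LinearMap.mulRight K u₁))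
    have hy₀2' : θ (y₀ * u₁) = 0 := hy₀2
    by_cases hzC : z ∈ C
    · -- the subspace has codimension one
      right; left
      refine hgen _ (Submodule.mem_sup_right (Submodule.mem_span_singleton_self _)) fun x hx a ha => ?_
      obtain ⟨c, hc, s, hs, rfl⟩ := Submodule.mem_sup.mp ha
      obtain ⟨t, rfl⟩ := Submodule.mem_span_singleton.mp hs
      rw [mul_add]
      refine Submodule.add_mem _ ?_ ?_
      · have h2 := hE x hx c hc
        have : x * c = (x * c - θ (x * c) • (1 : A)) + θ (x * c) • (1 : A) := by abel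
        rw [this]
        exact Submodule.add_mem_sup h2 (Submodule.smul_mem _ _ (Submodule.mem_span_singleton_self _))
      · obtain ⟨p, q, y, hy, hy1, hy2, rfl⟩ := hdec x hx
        have hyC := hker y hy hy1 hy2
        have : (p • (1 : A) + q • z + y) * t • (1 : A) = t • (q • z + y) + (t * p) • (1 : A) := by
          simp only [Algebra.smul_def, map_mul]
          ring
        rw [this]
        refine Submodule.add_mem_sup (Submodule.smul_mem _ _ (Submodule.add_mem _ (Submodule.smul_mem _ _ hzC) hyC)) ?_
        exact Submodule.smul_mem _ _ (Submodule.mem_span_singleton_self _)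
    · -- the remaining case
      right; right
      have hy₀C := hker y₀ hy₀ hy₀1 hy₀2'
      have hkill : ∀ y ∈ A₁, θ y = 0 → θ (y * u₁) = 0 → ∀ u ∈ C, y * u ∈ C := by
        intro y hy hy1 hy2 u hu
        have hyC := hker y hy hy1 hy2
        have h2 := hcomm z hzA y hy hθz hy1 u hu
        have h3 : θ (y * u) • z ∈ C := by
          have h4 := Submodule.sub_mem _ (Submodule.smul_mem _ (θ (z * u)) hyC) h2
          simpa using h4
        have h5 : θ (y * u) = 0 := by
          by_contra hne0
          apply hzC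
          have h6 := Submodule.smul_mem _ (θ (y * u))⁻¹ h3
          rwa [smul_smul, inv_mul_cancel₀ hne0, one_smul] at h6
        have h7 := hE y hy u hu
        rwa [h5, zero_smul, sub_zero] at h7
      have hzs : ∀ u ∈ C, ∃ t : K, z * u - t • (1 : A) ∈ C := fun u hu => hstab z hzA u hu
      have hpow : ∀ y ∈ A₁, θ y = 0 → θ (y * u₁) = 0 → ∀ m, y * z ^ m ∈ C := by
        intro y hy hy1 hy2 m
        exact y_pow_mem h1C (hker y hy hy1 hy2) (hkill y hy hy1 hy2) hzs m
      -- the span of the subspace and of the powers of `z` is everything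
      let D : Submodule K A := C ⊔ Submodule.span K (Set.range fun i : ℕ => z ^ i)
      have hpD : ∀ i, z ^ i ∈ D := fun i =>
        Submodule.mem_sup_right (Submodule.subset_span ⟨i, rfl⟩)
      have hDtop : D = ⊤ := by
        refine hgen D (by simpa using hpD 0) fun x hx a ha => ?_
        obtain ⟨p, q, y, hy, hy1, hy2, rfl⟩ := hdec x hx
        obtain ⟨c, hc, s, hs, rfl⟩ := Submodule.mem_sup.mp ha
        clear ha
        rw [mul_add]
        refine Submodule.add_mem _ ?_ ?_
        · have h2 := hE _ hx c hc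
          have : (p • (1 : A) + q • z + y) * c = ((p • (1 : A) + q • z + y) * c -
              θ ((p • (1 : A) + q • z + y) * c) • (1 : A)) + θ ((p • (1 : A) + q • z + y) * c) • (1 : A) := by abel
          rw [this]
          refine Submodule.add_mem _ (Submodule.mem_sup_left h2) (Submodule.smul_mem _ _ ?_)
          simpa using hpD 0
        · induction hs using Submodule.span_induction with
          | mem s hs =>
            obtain ⟨i, rfl⟩ := hs
            have : (p • (1 : A) + q • z + y) * (fun i : ℕ => z ^ i) i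
                = p • z ^ i + q • z ^ (i + 1) + y * z ^ i := by
              simp only [Algebra.smul_def, pow_succ]
              ring
            rw [this]
            refine Submodule.add_mem _ (Submodule.add_mem _ (Submodule.smul_mem _ _ (hpD i))
              (Submodule.smul_mem _ _ (hpD _))) (Submodule.mem_sup_left (hpow y hy hy1 hy2 i))
          | zero => simp
          | add u v _ _ hu hv =>
            rw [mul_add]
            exact Submodule.add_mem _ hu hv
          | smul r u _ hu =>
            rw [mul_smul_comm]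
            exact Submodule.smul_mem _ _ hu
      refine ⟨y₀, hy₀0, fun b => ?_⟩
      have hb : b ∈ D := by
        rw [hDtop]
        trivial
      obtain ⟨c, hc, s, hs, rfl⟩ := Submodule.mem_sup.mp hb
      clear hb
      rw [mul_add]
      refine Submodule.add_mem _ (hkill y₀ hy₀ hy₀1 hy₀2' c hc) ?_
      induction hs using Submodule.span_induction with
      | mem s hs =>
        obtain ⟨i, rfl⟩ := hs
        exact hpow y₀ hy₀ hy₀1 hy₀2' i
      | zero => simp
      | add u v _ _ hu hv =>
        rw [mul_add]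
        exact Submodule.add_mem _ hu hv
      | smul r u _ hu =>
        rw [mul_smul_comm]
        exact Submodule.smul_mem _ _ hu

end Vale.Agent.Lib.P200.N
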