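import Vale.Agent.Lib.P200.N.Mon

namespace Vale.Agent.Lib.P200.N

open MvPolynomial Module

universe u

variable {K : Type u} [Field K] {n c : ℕ}

/-- Polynomial multiples stay in the sum of a family. -/
lemma IsLin.mul_iSup {V : ℕ → Submodule K (MvPolynomial (Fin n) K)} (hV : IsLin V)
    (p : MvPolynomial (Fin n) K) : ∀ g ∈ ⨆ d, V d, p * g ∈ ⨆ d, V d := by
  have hX : ∀ (i : Fin n), ∀ g ∈ ⨆ d, V d, X i * g ∈ ⨆ d, V d := by
    intro i g hg
    induction hg using Submodule.iSup_induction' with
    | mem d x hx => exact Submodule.mem_iSup_of_mem (d + 1) (hV.mul i d x hx)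
    | zero => simp
    | add x y _ _ hx hy =>
      rw [mul_add]
      exact Submodule.add_mem _ hx hy
  induction p using MvPolynomial.induction_on with
  | C s =>
    intro g hg
    rw [← smul_eq_C_mul]
    exact Submodule.smul_mem _ s hg
  | add p q hp hq =>
    intro g hg
    rw [add_mul]
    exact Submodule.add_mem _ (hp g hg) (hq g hg)
  | mul_X p i hp =>
    intro g hg
    rw [mul_assoc]
    exact hp _ (hX i g hg)

/-- A form in the sum of a family lies in the space of its degree. -/
lemma IsLin.mem_of_iSup {V : ℕ → Submodule K (MvPolynomial (Fin n) K)} (hV : IsLin V)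
    {u : MvPolynomial (Fin n) K} {d : ℕ} (hu : u ∈ ⨆ d, V d) (hd : u.IsHomogeneous d) : u ∈ V d := by
  have key : ∀ w ∈ ⨆ d, V d, homogeneousComponent d w ∈ V d := by
    intro w hw
    induction hw using Submodule.iSup_induction' with
    | mem j x hx =>
      rw [homogeneousComponent_of_mem (hV.le j hx)]
      split_ifs with h
      · exact h ▸ hx
      · exact Submodule.zero_mem _
    | zero =>
      rw [map_zero]
      exact Submodule.zero_mem _
    | add x y _ _ hx hy =>
      rw [map_add]
      exact Submodule.add_mem _ hx hy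
  have h1 := key u hu
  rwa [homogeneousComponent_of_mem hd, if_pos rfl] at h1

/-- The component of a product with a form. -/
lemma component_mul_form {l w : MvPolynomial (Fin n) K} {p : ℕ} (hl : l.IsHomogeneous p) (j : ℕ) :
    homogeneousComponent (j + p) (l * w) = l * homogeneousComponent j w := by
  classical
  have hext : ∀ x : Fin n →₀ ℕ, coeff x l ≠ 0 → x.degree = p := by
    intro x hx
    have := hl hx
    rwa [weight_one_eq] at this
  ext s
  rw [coeff_homogeneousComponent, coeff_mul, coeff_mul]
  split_ifs with hs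
  · refine Finset.sum_congr rfl fun x hx => ?_
    have hx' : x.1 + x.2 = s := Finset.HasAntidiagonal.mem_antidiagonal.mp hx
    have hdeg : x.1.degree + x.2.degree = j + p := by
      rw [← map_add, hx', hs]
    rw [coeff_homogeneousComponent]
    by_cases h1 : coeff x.1 l = 0
    · simp [h1]
    · have h3 := hext x.1 h1
      have h4 : x.2.degree = j := by omega
      simp [h4]
  · refine (Finset.sum_eq_zero fun x hx => ?_).symm
    have hx' : x.1 + x.2 = s := Finset.HasAntidiagonal.mem_antidiagonal.mp hx
    have hdeg : x.1.degree + x.2.degree = s.degree := by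
      rw [← map_add, hx']
    rw [coeff_homogeneousComponent]
    by_cases h1 : coeff x.1 l = 0
    · simp [h1]
    · have h3 := hext x.1 h1
      have h4 : x.2.degree ≠ j := by omega
      simp [h4]

lemma component_mul_low {l w : MvPolynomial (Fin n) K} {p : ℕ} (hl : l.IsHomogeneous p) {j : ℕ} (hj : j < p) :
    homogeneousComponent j (l * w) = 0 := by
  classical
  have hext : ∀ x : Fin n →₀ ℕ, coeff x l ≠ 0 → x.degree = p := by
    intro x hx
    have := hl hx
    rwa [weight_one_eq] at this
  ext s
  rw [coeff_homogeneousComponent, coeff_zero]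
  split_ifs with hs
  · rw [coeff_mul]
    refine Finset.sum_eq_zero fun x hx => ?_
    have hx' : x.1 + x.2 = s := Finset.HasAntidiagonal.mem_antidiagonal.mp hx
    have hdeg : x.1.degree + x.2.degree = s.degree := by
      rw [← map_add, hx']
    by_cases h1 : coeff x.1 l = 0
    · simp [h1]
    · have h3 := hext x.1 h1
      omega
  · rfl

/-- The sum of a family, as an ideal. -/
noncomputable def supIdeal {V : ℕ → Submodule K (MvPolynomial (Fin n) K)} (hV : IsLin V) :
    Ideal (MvPolynomial (Fin n) K) where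
  carrier := (⨆ d, V d : Submodule K (MvPolynomial (Fin n) K))
  add_mem' := Submodule.add_mem _
  zero_mem' := Submodule.zero_mem _
  smul_mem' := fun p g hg => hV.mul_iSup p g hg

/-- The degree parts of a family of forms generate. -/
lemma mem_of_fam {V : ℕ → Submodule K (MvPolynomial (Fin n) K)} (hV : IsLin V)
    {f : Fin c → MvPolynomial (Fin n) K} {a : Fin c → ℕ} {k : ℕ} (hf : ∀ i : Fin c, i.val < k → f i ∈ V (a i))
    {u : MvPolynomial (Fin n) K} (hu : u ∈ Fid f k) {d : ℕ} (hd : u.IsHomogeneous d) : u ∈ V d := by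
  refine hV.mem_of_iSup ?_ hd
  have h1 : Fid f k ≤ supIdeal hV := by
    refine Ideal.span_le.mpr ?_
    rintro _ ⟨i, hi, rfl⟩
    exact Submodule.mem_iSup_of_mem (a i) (hf i hi)
  exact h1 hu

/-- The degree `d` part of the ideal of the first `k` forms. -/
noncomputable abbrev Fd (f : Fin c → MvPolynomial (Fin n) K) (k d : ℕ) : Submodule K (MvPolynomial (Fin n) K) :=
  degPartN (Fid f k) d

lemma mem_Fd {f : Fin c → MvPolynomial (Fin n) K} {k d : ℕ} {u : MvPolynomial (Fin n) K} :
    u ∈ Fd f k d ↔ u ∈ Fid f k ∧ u.IsHomogeneous d := by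
  simp [Fd, degPartN, Submodule.mem_inf]

lemma component_mem {f : Fin c → MvPolynomial (Fin n) K} {a : Fin c → ℕ}
    (hf : ∀ i, (f i).IsHomogeneous (a i)) {k : ℕ} {u : MvPolynomial (Fin n) K} (hu : u ∈ Fid f k) (d : ℕ) :
    homogeneousComponent d u ∈ Fid f k := by
  have hV := isLin_degPart (Fid f k)
  have h1 : ∀ w ∈ ⨆ d, degPartN (Fid f k) d, homogeneousComponent d w ∈ degPartN (Fid f k) d := by
    intro w hw
    induction hw using Submodule.iSup_induction' with
    | mem j x hx =>
      rw [homogeneousComponent_of_mem (hV.le j hx)]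
      split_ifs with h
      · exact h ▸ hx
      · exact Submodule.zero_mem _
    | zero =>
      rw [map_zero]
      exact Submodule.zero_mem _
    | add x y _ _ hx hy =>
      rw [map_add]
      exact Submodule.add_mem _ hx hy
  have h2 : Fid f k ≤ supIdeal hV := by
    refine Ideal.span_le.mpr ?_
    rintro _ ⟨i, hi, rfl⟩
    refine Submodule.mem_iSup_of_mem (a i) (mem_Fd.mpr ⟨Ideal.subset_span ⟨i, hi, rfl⟩, hf i⟩)
  exact (mem_Fd.mp (h1 u (h2 hu))).1

lemma one_notMem_Fid {f : Fin c → MvPolynomial (Fin n) K} {a : Fin c → ℕ}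
    (hf : ∀ i, (f i).IsHomogeneous (a i)) (ha : ∀ i, 1 ≤ a i) (k : ℕ) : (1 : MvPolynomial (Fin n) K) ∉ Fid f k := by
  intro h
  have hle : Fid f k ≤ RingHom.ker (constantCoeff : MvPolynomial (Fin n) K →+* K) := by
    refine Ideal.span_le.mpr ?_
    rintro _ ⟨i, _, rfl⟩
    have h1 : coeff 0 (f i) = 0 := (hf i).coeff_eq_zero (by
      have := ha i
      simp
      omega)
    exact h1
  have h2 := hle h
  rw [RingHom.mem_ker, map_one] at h2
  exact one_ne_zero h2

/-- The dimension of the sum of a multiple of a space and the degree part of an ideal. -/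
lemma finrank_mul_sup {J : Ideal (MvPolynomial (Fin n) K)} {g : MvPolynomial (Fin n) K} {p j : ℕ}
    (hg0 : g ≠ 0) (hg : g.IsHomogeneous p) (hN : ∀ u, g * u ∈ J → u ∈ J)
    {U : Submodule K (MvPolynomial (Fin n) K)} (hU : U ≤ HH K n j) (hJU : degPartN J j ≤ U) :
    finrank K (U.map (LinearMap.mulLeft K g) ⊔ degPartN J (j + p) : Submodule K _) + finrank K (degPartN J j)
      = finrank K (degPartN J (j + p)) + finrank K U := by
  have hfinU := fin_le hU
  have hfinJ : Module.Finite K (degPartN J (j + p)) := fin_le inf_le_right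
  have hinj : Function.Injective (LinearMap.mulLeft K g) := fun x y h => mul_left_cancel₀ hg0 h
  have h1 := Submodule.finrank_sup_add_finrank_inf_eq (U.map (LinearMap.mulLeft K g)) (degPartN J (j + p))
  have h2 : U.map (LinearMap.mulLeft K g) ⊓ degPartN J (j + p)
      = (degPartN J j).map (LinearMap.mulLeft K g) := by
    ext x
    simp only [Submodule.mem_inf, Submodule.mem_map, LinearMap.mulLeft_apply]
    constructor
    · rintro ⟨⟨u, hu, rfl⟩, h3⟩
      exact ⟨u, Submodule.mem_inf.mpr ⟨hN u (Submodule.mem_inf.mp h3).1, hU hu⟩, rfl⟩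
    · rintro ⟨u, hu, rfl⟩
      refine ⟨⟨u, hJU hu, rfl⟩, Submodule.mem_inf.mpr ⟨?_, ?_⟩⟩
      · exact J.mul_mem_left _ (Submodule.mem_inf.mp hu).1
      · have := IsHomogeneous.mul hg (Submodule.mem_inf.mp hu).2
        rwa [add_comm p j] at this
  have h3 : finrank K (U.map (LinearMap.mulLeft K g)) = finrank K U :=
    (LinearEquiv.finrank_eq (Submodule.equivMapOfInjective _ hinj U)).symm
  have h4 : finrank K ((degPartN J j).map (LinearMap.mulLeft K g)) = finrank K (degPartN J j) :=
    (LinearEquiv.finrank_eq (Submodule.equivMapOfInjective _ hinj _)).symm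
  rw [h2, h3, h4] at h1
  omega

/-- The box with the first `k` sides of the type. -/
def eK (a : Fin c → ℕ) (k n : ℕ) : Fin n → ℕ∞ :=
  fun i => if h : i.val < c ∧ i.val < k then ((a ⟨i.val, h.1⟩ : ℕ) : ℕ∞) else ⊤

lemma eK_self (a : Fin c → ℕ) (n : ℕ) : eK a c n = eT a n := by
  funext i
  simp [eK, eT]

lemma eK_zero (a : Fin c → ℕ) (n : ℕ) : eK a 0 n = fun _ => ⊤ := by
  funext i
  simp [eK]

lemma eK_succ (a : Fin c → ℕ) {k : ℕ} (hk : k < c) (hkn : k < n) :
    eK a (k + 1) n = Function.update (eK a k n) ⟨k, hkn⟩ ((a ⟨k, hk⟩ : ℕ) : ℕ∞) := by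
  funext i
  by_cases hi : i = ⟨k, hkn⟩
  · subst hi
    simp [eK, hk]
  · rw [Function.update_of_ne hi]
    have hi' : i.val ≠ k := fun h => hi (Fin.ext h)
    unfold eK
    by_cases h1 : i.val < c
    · by_cases h2 : i.val < k
      · rw [dif_pos ⟨h1, by omega⟩, dif_pos ⟨h1, h2⟩]
      · rw [dif_neg (by omega), dif_neg (by omega)]
    · rw [dif_neg (by omega), dif_neg (by omega)]

lemma eK_at (a : Fin c → ℕ) {k : ℕ} (hkn : k < n) : eK a k n ⟨k, hkn⟩ = ⊤ := by
  simp [eK]

lemma out_top (n d : ℕ) :
    outN (fun _ : Fin n => (⊤ : ℕ∞)) d = Finset.piAntidiag Finset.univ d := by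
  ext t
  simp [outN, Finset.mem_filter, ENat.coe_lt_top]

/-- Cutting a free side of the box. -/
lemma card_cut {e : Fin n → ℕ∞} {p : Fin n} (he : e p = ⊤) (A d : ℕ) :
    (outN e d).card = (outN (Function.update e p (A : ℕ∞)) d).card
      + (if A ≤ d then (outN e (d - A)).card else 0) := by
  classical
  rw [← Finset.card_filter_add_card_filter_not (s := outN e d) (fun t => t p < A)]
  congr 1
  · congr 1
    ext t
    simp only [Finset.mem_filter, mem_box]
    constructor
    · rintro ⟨⟨h1, h2⟩, h3⟩
      refine ⟨h1, fun i => ?_⟩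
      by_cases hi : i = p
      · subst hi
        rw [Function.update_self]
        exact_mod_cast h3
      · rw [Function.update_of_ne hi]
        exact h2 i
    · rintro ⟨h1, h2⟩
      refine ⟨⟨h1, fun i => ?_⟩, ?_⟩
      · by_cases hi : i = p
        · subst hi
          rw [he]
          exact ENat.coe_lt_top _
        · have := h2 i
          rwa [Function.update_of_ne hi] at this
      · have := h2 p
        rw [Function.update_self] at this
        exact_mod_cast this
  · split_ifs with hA
    · refine Finset.card_bij' (fun t _ => Function.update t p (t p - A))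
        (fun t _ => Function.update t p (t p + A)) ?_ ?_ ?_ ?_
      · intro t ht
        obtain ⟨h1, h2⟩ := Finset.mem_filter.mp ht
        obtain ⟨h3, h4⟩ := mem_box.mp h1
        have h5 := sum_update t p (t p - A)
        refine mem_box.mpr ⟨by omega, fun i => ?_⟩
        by_cases hi : i = p
        · subst hi
          rw [he]
          exact ENat.coe_lt_top _
        · rw [Function.update_of_ne hi]
          exact h4 i
      · intro t ht
        obtain ⟨h3, h4⟩ := mem_box.mp ht
        have h5 := sum_update t p (t p + A)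
        refine Finset.mem_filter.mpr ⟨mem_box.mpr ⟨by omega, fun i => ?_⟩, ?_⟩
        · by_cases hi : i = p
          · subst hi
            rw [he]
            exact ENat.coe_lt_top _
          · rw [Function.update_of_ne hi]
            exact h4 i
        · rw [Function.update_self]
          omega
      · intro t ht
        obtain ⟨_, h2⟩ := Finset.mem_filter.mp ht
        funext i
        by_cases hi : i = p
        · subst hi
          simp only [Function.update_self]
          omega
        · simp only [Function.update_of_ne hi]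
      · intro t _
        funext i
        by_cases hi : i = p
        · subst hi
          simp only [Function.update_self]
          omega
        · simp only [Function.update_of_ne hi]
    · rw [Finset.card_eq_zero, Finset.filter_eq_empty_iff]
      intro t ht
      have h1 := (mem_box.mp ht).1
      have h2 := Finset.single_le_sum (f := t) (fun i _ => Nat.zero_le (t i)) (Finset.mem_univ p)
      omega

lemma Fid_mono (f : Fin c → MvPolynomial (Fin n) K) {j k : ℕ} (h : j ≤ k) : Fid f j ≤ Fid f k := by
  refine Ideal.span_mono (Set.image_mono fun i hi => ?_)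
  exact lt_of_lt_of_le hi h

lemma Reg.nzd {f : Fin c → MvPolynomial (Fin n) K} (hreg : Reg f) {k : ℕ} (hk : k < c) (u : MvPolynomial (Fin n) K)
    (h : f ⟨k, hk⟩ * u ∈ Fid f k) : u ∈ Fid f k := hreg ⟨k, hk⟩ u h

lemma Reg.ne_zero {f : Fin c → MvPolynomial (Fin n) K} {a : Fin c → ℕ} (hreg : Reg f)
    (hf : ∀ i, (f i).IsHomogeneous (a i)) (ha : ∀ i, 1 ≤ a i) {k : ℕ} (hk : k < c) : f ⟨k, hk⟩ ≠ 0 := by
  intro h
  refine one_notMem_Fid hf ha k (hreg.nzd hk 1 ?_)
  rw [h, zero_mul]
  exact Submodule.zero_mem _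

/-- The decomposition of the degree part of the ideal of one more form, in degree at least the degree
of the form. -/
lemma Fd_succ {f : Fin c → MvPolynomial (Fin n) K} {a : Fin c → ℕ} (hf : ∀ i, (f i).IsHomogeneous (a i))
    {k : ℕ} (hk : k < c) {d : ℕ} (hd : a ⟨k, hk⟩ ≤ d) :
    Fd f (k + 1) d = (HH K n (d - a ⟨k, hk⟩)).map (LinearMap.mulLeft K (f ⟨k, hk⟩)) ⊔ Fd f k d := by
  apply le_antisymm
  · intro u hu
    obtain ⟨h1, h2⟩ := mem_Fd.mp hu
    obtain ⟨w, hw⟩ := (Fid_succ f hk u).mp h1
    have h3 : u = homogeneousComponent d u := by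
      rw [homogeneousComponent_of_mem h2, if_pos rfl]
    have h4 : homogeneousComponent d u = homogeneousComponent d (u - f ⟨k, hk⟩ * w)
        + homogeneousComponent d (f ⟨k, hk⟩ * w) := by
      rw [← map_add, sub_add_cancel]
    have h5 := component_mul_form (w := w) (hf ⟨k, hk⟩) (d - a ⟨k, hk⟩)
    rw [Nat.sub_add_cancel hd] at h5
    rw [h3, h4, h5, add_comm]
    refine Submodule.add_mem_sup (Submodule.mem_map.mpr ⟨_, homogeneousComponent_mem _ _, rfl⟩) ?_
    exact mem_Fd.mpr ⟨component_mem hf hw d, homogeneousComponent_mem _ _⟩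
  · refine sup_le ?_ (inf_le_inf_right _ (Fid_mono f (Nat.le_succ k)))
    rw [Submodule.map_le_iff_le_comap]
    intro v hv
    refine mem_Fd.mpr ⟨(Fid_succ f hk _).mpr ⟨v, ?_⟩, ?_⟩
    · show f ⟨k, hk⟩ * v - f ⟨k, hk⟩ * v ∈ _
      rw [sub_self]
      exact Submodule.zero_mem _
    · have := IsHomogeneous.mul (hf ⟨k, hk⟩) hv
      rwa [Nat.add_sub_cancel' hd] at this

lemma Fd_succ_low {f : Fin c → MvPolynomial (Fin n) K} {a : Fin c → ℕ} (hf : ∀ i, (f i).IsHomogeneous (a i))
    {k : ℕ} (hk : k < c) {d : ℕ} (hd : d < a ⟨k, hk⟩) : Fd f (k + 1) d = Fd f k d := by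
  apply le_antisymm
  · intro u hu
    obtain ⟨h1, h2⟩ := mem_Fd.mp hu
    obtain ⟨w, hw⟩ := (Fid_succ f hk u).mp h1
    have h3 : u = homogeneousComponent d u := by
      rw [homogeneousComponent_of_mem h2, if_pos rfl]
    have h4 : homogeneousComponent d u = homogeneousComponent d (u - f ⟨k, hk⟩ * w)
        + homogeneousComponent d (f ⟨k, hk⟩ * w) := by
      rw [← map_add, sub_add_cancel]
    rw [component_mul_low (hf ⟨k, hk⟩) hd, add_zero] at h4
    rw [h3, h4]
    exact mem_Fd.mpr ⟨component_mem hf hw d, homogeneousComponent_mem _ _⟩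
  · exact inf_le_inf_right _ (Fid_mono f (Nat.le_succ k))

/-- The Hilbert function of the ideal of the first forms of a regular sequence. -/
theorem hilb {f : Fin c → MvPolynomial (Fin n) K} {a : Fin c → ℕ} (hf : ∀ i, (f i).IsHomogeneous (a i))
    (ha : ∀ i, 1 ≤ a i) (hreg : Reg f) (hcn : c ≤ n) (k : ℕ) (hk : k ≤ c) (d : ℕ) :
    finrank K (Fd f k d) + (outN (eK a k n) d).card = finrank K (HH K n d) := by
  induction k generalizing d with
  | zero =>
    have h1 : Fd f 0 d = ⊥ := by
      rw [Fd, Fid_zero]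
      ext u
      simp [degPartN, Submodule.mem_inf]
    rw [h1, finrank_bot, zero_add, eK_zero, out_top, finrank_HH]
  | succ k ih =>
    have hk' : k < c := hk
    have hkn : k < n := by omega
    have hcut := card_cut (eK_at a hkn) (a ⟨k, hk'⟩) d
    rw [← eK_succ a hk' hkn] at hcut
    by_cases hd : a ⟨k, hk'⟩ ≤ d
    · rw [if_pos hd] at hcut
      have h1 := finrank_mul_sup (J := Fid f k) (g := f ⟨k, hk'⟩) (p := a ⟨k, hk'⟩) (j := d - a ⟨k, hk'⟩)
        (U := HH K n (d - a ⟨k, hk'⟩)) (hreg.ne_zero hf ha hk') (hf _) (hreg.nzd hk') (le_refl _) inf_le_right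
      rw [Nat.sub_add_cancel hd, ← Fd, ← Fd, ← Fd_succ hf hk' hd] at h1
      have h2 := ih (by omega) d
      have h3 := ih (by omega) (d - a ⟨k, hk'⟩)
      omega
    · rw [if_neg hd] at hcut
      rw [Fd_succ_low hf hk' (by omega)]
      have h2 := ih (by omega) d
      omega

end Vale.Agent.Lib.P200.N
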