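import Vale.Agent.Lib.P200.N.Descent
import Vale.Agent.Lib.P200.N.Hilb
import Vale.Agent.Lib.P200.All.BettiD

namespace Vale.Agent.Lib.P200.N

open MvPolynomial Module

universe u

variable {K : Type u} [Field K] {n c : ℕ}

/-- The triple of a vector. -/
def tau (t : Fin 3 → ℕ) : ℕ × ℕ × ℕ := (t 0, t 1, t 2)

lemma tau_inj : Function.Injective tau := by
  intro s t h
  have h1 : s 0 = t 0 := congrArg Prod.fst h
  have h2 : s 1 = t 1 := congrArg (fun x => x.2.1) h
  have h3 : s 2 = t 2 := congrArg (fun x => x.2.2) h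
  funext i
  fin_cases i
  · exact h1
  · exact h2
  · exact h3

lemma tau_surj : Function.Surjective tau := fun x => ⟨![x.1, x.2.1, x.2.2], by
  simp [tau]⟩

lemma lexG_tau {s t : Fin 3 → ℕ} : lexG s t ↔ lexGT (tau s) (tau t) := by
  constructor
  · rintro ⟨i, h1, h2⟩
    simp only [tau, lexGT]
    fin_cases i
    · exact Or.inl h1
    · have := h2 0 (by decide)
      exact Or.inr ⟨this.symm, Or.inl h1⟩
    · have h3 := h2 0 (by decide)
      have h4 := h2 1 (by decide)
      exact Or.inr ⟨h3.symm, Or.inr ⟨h4.symm, h1⟩⟩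
  · intro h
    simp only [tau, lexGT] at h
    rcases h with h | ⟨h1, h | ⟨h2, h⟩⟩
    · exact ⟨0, h, fun j hj => absurd hj (by simp)⟩
    · refine ⟨1, h, fun j hj => ?_⟩
      have : j = 0 := by omega
      subst this
      exact h1.symm
    · refine ⟨2, h, fun j hj => ?_⟩
      have hj' : j.val < 2 := hj
      have : j = 0 ∨ j = 1 := by omega
      rcases this with rfl | rfl
      · exact h1.symm
      · exact h2.symm

/-- The type as a triple. -/
def aT (a : Fin 3 → ℕ) : ℕ × ℕ × ℕ := (a 0, a 1, a 2)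

lemma eT_three (a : Fin 3 → ℕ) (i : Fin 3) : eT a 3 i = (a i : ℕ∞) := by
  simp [eT, i.isLt]

lemma mem_out_tau {a : Fin 3 → ℕ} {d : ℕ} {t : Fin 3 → ℕ} :
    t ∈ outN (eT a 3) d ↔ tau t ∈ Fam.outE (aT a) d := by
  rw [mem_box, Fam.mem_out, Fin.sum_univ_three]
  simp only [eT_three, Nat.cast_lt, tau, aT]
  constructor
  · rintro ⟨h1, h2⟩
    exact ⟨⟨h2 0, h2 1, h2 2⟩, h1⟩
  · rintro ⟨⟨h1, h2, h3⟩, h4⟩
    refine ⟨h4, fun i => ?_⟩
    fin_cases i
    · exact h1
    · exact h2
    · exact h3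

lemma card_filter_tau (a : Fin 3 → ℕ) (d : ℕ) (P : ℕ × ℕ × ℕ → Prop) [DecidablePred P] :
    ((outN (eT a 3) d).filter (fun s => P (tau s))).card = ((Fam.outE (aT a) d).filter P).card := by
  refine Finset.card_bij (fun s _ => tau s) ?_ ?_ ?_
  · intro s hs
    obtain ⟨h1, h2⟩ := Finset.mem_filter.mp hs
    exact Finset.mem_filter.mpr ⟨mem_out_tau.mp h1, h2⟩
  · intro s _ t _ h
    exact tau_inj h
  · intro x hx
    obtain ⟨h1, h2⟩ := Finset.mem_filter.mp hx
    obtain ⟨s, rfl⟩ := tau_surj x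
    exact ⟨s, Finset.mem_filter.mpr ⟨mem_out_tau.mpr h1, h2⟩, rfl⟩

lemma card_out_tau (a : Fin 3 → ℕ) (d : ℕ) : (outN (eT a 3) d).card = (Fam.outE (aT a) d).card := by
  have := card_filter_tau a d (fun _ => True)
  simpa using this

lemma rk_tau (a : Fin 3 → ℕ) (d : ℕ) (t : Fin 3 → ℕ) :
    rk (outN (eT a 3) d) t = Fam.rankE (aT a) d (tau t) := by
  have h := card_filter_tau a d (fun s => lexGT s (tau t))
  rw [Fam.rankE, ← h, rk]
  congr 1
  ext s
  simp only [Finset.mem_filter, lexG_tau]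

lemma tau_bump (i : Fin 3) (t : Fin 3 → ℕ) : tau (bump i t) = Vale.Agent.Lib.P200.bump i (tau t) := by
  fin_cases i
  · simp [tau, Vale.Agent.Lib.P200.bump, bump_ne]
  · simp [tau, Vale.Agent.Lib.P200.bump, bump_ne]
  · simp [tau, Vale.Agent.Lib.P200.bump, bump_ne]

/-- The shadow of an initial segment, by the count of the triples. -/
lemma shd_sub_of_GS {a : Fin 3 → ℕ} {d q q' : ℕ} (h : Fam.GS (aT a) d q ≤ q') :
    shd (eT a 3) (seg (outN (eT a 3) d) q) ⊆ seg (outN (eT a 3) (d + 1)) q' := by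
  have h1 : (shd (eT a 3) (seg (outN (eT a 3) d) q)).card ≤ Fam.GS (aT a) d q := by
    refine Finset.card_le_card_of_injOn tau ?_ (fun s _ t _ h => tau_inj h)
    intro u hu
    have hu' := Finset.mem_coe.mp hu
    obtain ⟨⟨t, ht, i, rfl⟩, hbox⟩ := mem_shd.mp hu'
    obtain ⟨h3, h4⟩ := Finset.mem_filter.mp ht
    have h5 : tau (bump i t) ∈ Fam.outE (aT a) (d + 1) := by
      rw [← mem_out_tau]
      exact shd_sub (seg_subset _ q) hu'
    rw [tau_bump] at h5 ⊢
    refine Finset.mem_coe.mpr (Fam.SH_of_bump ?_ h5)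
    rw [← rk_tau]
    exact h4
  have h2 := (isInit_seg (outN (eT a 3) d) q).shd (e := eT a 3)
  rw [isInit_of_seg_card h2]
  exact seg_mono _ (h1.trans h)

/-- The case of three forms in three variables. -/
theorem EghAt_base {a : Fin 3 → ℕ} (h2a : 2 ≤ a 0) (ha : Monotone a) : EghAt K 3 3 a := by
  intro f hf hreg V hV hmem d
  have hr : RegSeq (f 0) (f 1) (f 2) := regSeq_of f hreg
  have h0 : f 0 ∈ Hd K (a 0) := hf 0
  have h1 : f 1 ∈ Hd K (a 1) := hf 1
  have h2 : f 2 ∈ Hd K (a 2) := hf 2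
  have hab : a 0 ≤ a 1 := ha (by decide)
  have hbc : a 1 ≤ a 2 := ha (by decide)
  have hsup : ∀ i, ∀ p : MvPolynomial (Fin 3) K, p * f i ∈ ⨆ d, V d := fun i p =>
    hV.mul_iSup p _ (Submodule.mem_iSup_of_mem (a i) (hmem i))
  have hspan : ∀ d, degPart (Ideal.span {f 0, f 1, f 2}) d ≤ V d := by
    intro d u hu
    obtain ⟨hu1, hu2⟩ := mem_degPart.mp hu
    refine hV.mem_of_iSup ?_ hu2
    obtain ⟨x, y, z, rfl⟩ := mem_span3.mp hu1
    exact Submodule.add_mem _ (Submodule.add_mem _ (hsup 0 x) (hsup 1 y)) (hsup 2 z)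
  have hdimF : ∀ d, finrank K (degPart (Ideal.span {f 0, f 1, f 2}) d)
      = (Fam.inP (aT a) d).card := fun d => All.hdim_F hr h0 h1 h2 (by omega) (by omega) d
  have hle : ∀ d, (Fam.inP (aT a) d).card ≤ finrank K (V d) := by
    intro d
    rw [← hdimF]
    exact finrank_le (hspan d) (hV.le d)
  have hHd : ∀ d, finrank K (HH K 3 d) = (Fam.inP (aT a) d).card + (Fam.outE (aT a) d).card := by
    intro d
    rw [Fam.card_inP]
    exact finrank_Hd d
  have hq : ∀ d, qV (eT a 3) V d = finrank K (V d) - (Fam.inP (aT a) d).card := by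
    intro d
    rw [qV, card_out_tau, hHd]
    omega
  refine ⟨?_, shd_sub_of_GS ?_⟩
  · rw [card_out_tau, hHd]
    have := hle d
    omega
  · have g3 := All.growth_all h0 h1 h2 hr h2a hab hbc d (V d) (hV.le d) (hspan d)
    have g4 : Hd K 1 * V d ⊔ degPart (Ideal.span {f 0, f 1, f 2}) (d + 1) ≤ V (d + 1) := by
      refine sup_le ?_ (hspan _)
      refine Submodule.mul_le.mpr fun m hm g hg => ?_
      have hm' : m ∈ Submodule.span K (Set.range (X : Fin 3 → MvPolynomial (Fin 3) K)) := by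
        rwa [← homogeneousSubmodule_one_eq_span_X]
      clear hm
      induction hm' using Submodule.span_induction with
      | mem x hx =>
        obtain ⟨i, rfl⟩ := hx
        exact hV.mul i d g hg
      | zero =>
        rw [zero_mul]
        exact Submodule.zero_mem _
      | add x y _ _ hx hy =>
        rw [add_mul]
        exact Submodule.add_mem _ hx hy
      | smul r x _ hx =>
        rw [smul_mul_assoc]
        exact Submodule.smul_mem _ _ hx
    have g5 := finrank_le g4 (hV.le (d + 1))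
    rw [hdimF, hdimF] at g3
    rw [hq, hq]
    have := hle (d + 1)
    change (Fam.inP (aT a) (d + 1)).card + Fam.GS (aT a) d (finrank K (V d) - (Fam.inP (aT a) d).card) ≤ _ at g3
    omega

/-- All numbers of variables, over an infinite field. -/
theorem EghAt_infinite [Infinite K] {a : Fin 3 → ℕ} (h2a : 2 ≤ a 0) (ha : Monotone a) (m : ℕ) :
    EghAt K 3 (m + 3) a := by
  induction m with
  | zero => exact EghAt_base h2a ha
  | succ m ih =>
    rw [show m + 1 + 3 = (m + 1) + 3 by rfl]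
    exact EghAt_step (m := m + 1) ha (by omega) ih

/-- All numbers of variables, over every field. -/
theorem EghAt_all {a : Fin 3 → ℕ} (h2a : 2 ≤ a 0) (ha : Monotone a) (m : ℕ) :
    EghAt K 3 (m + 3) a :=
  EghAt_descent (L := AlgebraicClosure K) (EghAt_infinite h2a ha m)

/-- The Eisenbud-Green-Harris statement for three forms in any number of variables. -/
theorem egh_three_all {a : Fin 3 → ℕ} (h2a : 2 ≤ a 0) (ha : Monotone a) (m : ℕ)
    (f : Fin 3 → MvPolynomial (Fin (m + 3)) K) (hf : ∀ i, (f i).IsHomogeneous (a i)) (hreg : Reg f)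
    (I : Ideal (MvPolynomial (Fin (m + 3)) K)) (hI : ∀ i, f i ∈ I) :
    (∃ 𝔍 : Ideal (MvPolynomial (Fin (m + 3)) K), ∀ g, g ∈ 𝔍 ↔ g ∈ ⨆ d, JN (eT a (m + 3)) I d) ∧
      ∀ d, finrank K (JN (eT a (m + 3)) I d) = finrank K (degPartN I d) :=
  egh_of_EghAt (EghAt_all h2a ha m) f hf hreg I hI

end Vale.Agent.Lib.P200.N
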