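import Vale.Agent.Lib.P200.N.Compress

namespace Vale.Agent.Lib.P200.N

open Finset

/-- The inductive step of the Clements-Lindström theorem. -/
theorem cl_step {m : ℕ}
    (IH : ∀ (e : Fin (m + 2) → ℕ∞), Monotone e → ∀ (d : ℕ) (A L : Finset (Fin (m + 2) → ℕ)),
      A ⊆ outN e d → IsInit L (outN e d) → L.card = A.card → (shd e L).card ≤ (shd e A).card)
    (e : Fin (m + 3) → ℕ∞) (he : Monotone e) (d : ℕ) (A L : Finset (Fin (m + 3) → ℕ))
    (hA : A ⊆ outN e d) (hL : IsInit L (outN e d)) (hc : L.card = A.card) :
    (shd e L).card ≤ (shd e A).card := by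
  induction hN : mu (outN e d) A using Nat.strong_induction_on generalizing A with
  | _ N ih =>
    by_cases hex : ∃ i, comp i e d A ≠ A
    · obtain ⟨i, hi⟩ := hex
      have h1 := shd_comp_le (i := i) (fun d' A' L' h2 h3 h4 => IH _ (eD_mono i he) d' A' L' h2 h3 h4) hA
      have h2 := mu_comp_lt hA hi
      have h3 := ih _ (hN ▸ h2) (comp i e d A) (comp_sub A) (by rw [card_comp hA, hc]) rfl
      exact h3.trans h1
    · push Not at hex
      have hcomp : ∀ i, ∀ t ∈ A, ∀ s ∈ outN e d, s i = t i → lexG s t → s ∈ A :=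
        fun i => comp_fixed (hex i)
      by_cases hI : IsInit A (outN e d)
      · rw [hL.eq_of_card hI hc]
      · obtain ⟨x, y, E⟩ := exists_ex hA hcomp hI
        have h3 := ih _ (hN ▸ E.mu_swap) (insert y (A.erase x)) E.sub_swap
          (by rw [E.card_swap, hc]) rfl
        exact h3.trans E.swap

/-- The Clements-Lindström theorem: among the subsets of a level of a box with sorted sides, initial
segments for the lexicographic order have the smallest upper shadow. -/
theorem cl_all (m : ℕ) : ∀ (e : Fin (m + 2) → ℕ∞), Monotone e → ∀ (d : ℕ) (A L : Finset (Fin (m + 2) → ℕ)),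
    A ⊆ outN e d → IsInit L (outN e d) → L.card = A.card → (shd e L).card ≤ (shd e A).card := by
  induction m with
  | zero =>
    intro e he d A L hA hL hc
    exact cl_two (he (by simp)) hA hL hc
  | succ m IH =>
    exact cl_step IH

end Vale.Agent.Lib.P200.N
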