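import Vale.Agent.Lib.P200.N.Psi

namespace Vale.Agent.Lib.P200.N

open MvPolynomial Module

universe u

variable {K : Type u} [Field K] {m n : ℕ}

/-- A graded family of spaces of forms stable under multiplication by the variables. -/
structure IsLin (V : ℕ → Submodule K (MvPolynomial (Fin n) K)) : Prop where
  le : ∀ d, V d ≤ HH K n d
  mul : ∀ (i : Fin n) (d : ℕ) (u : MvPolynomial (Fin n) K), u ∈ V d → X i * u ∈ V (d + 1)

lemma isLin_HH : IsLin (fun d => HH K n d) := by
  refine ⟨fun d => le_refl _, fun i d u hu => ?_⟩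
  have := IsHomogeneous.mul (isHomogeneous_X K i) hu
  rwa [add_comm] at this

lemma IsLin.lin_mul {V : ℕ → Submodule K (MvPolynomial (Fin n) K)} (hV : IsLin V) (b : Fin n → K) {d : ℕ}
    {u : MvPolynomial (Fin n) K} (hu : u ∈ V d) : linF K n b * u ∈ V (d + 1) := by
  show (∑ i, b i • X i) * u ∈ V (d + 1)
  rw [Finset.sum_mul]
  refine Submodule.sum_mem _ fun i _ => ?_
  rw [smul_mul_assoc]
  exact Submodule.smul_mem _ _ (hV.mul i d u hu)

lemma IsLin.pow_mul {V : ℕ → Submodule K (MvPolynomial (Fin n) K)} (hV : IsLin V) (b : Fin n → K) {d : ℕ}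
    {u : MvPolynomial (Fin n) K} (hu : u ∈ V d) (k : ℕ) : linF K n b ^ k * u ∈ V (d + k) := by
  induction k with
  | zero => simpa using hu
  | succ k ih =>
    rw [pow_succ', mul_assoc]
    exact hV.lin_mul b ih

variable {b : Fin (m + 1) → K}

/-- The forms of degree `j` whose product with the `k`-th power of the linear form lies in `V`. -/
noncomputable def UU (b : Fin (m + 1) → K) (V : ℕ → Submodule K (MvPolynomial (Fin (m + 1)) K)) (k j : ℕ) :
    Submodule K (MvPolynomial (Fin (m + 1)) K) :=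
  (V (j + k)).comap (LinearMap.mulLeft K (linF K (m + 1) b ^ k)) ⊓ HH K (m + 1) j

/-- The image of `UU` under the substitution. -/
noncomputable def WW (b : Fin (m + 1) → K) (V : ℕ → Submodule K (MvPolynomial (Fin (m + 1)) K)) (k j : ℕ) :
    Submodule K (MvPolynomial (Fin m) K) :=
  (UU b V k j).map (psi b).toLinearMap

variable {V : ℕ → Submodule K (MvPolynomial (Fin (m + 1)) K)}

lemma mem_UU {k j : ℕ} {u : MvPolynomial (Fin (m + 1)) K} :
    u ∈ UU b V k j ↔ linF K (m + 1) b ^ k * u ∈ V (j + k) ∧ u ∈ HH K (m + 1) j := by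
  simp [UU, Submodule.mem_inf, Submodule.mem_comap]

lemma UU_zero (hV : IsLin V) (j : ℕ) : UU b V 0 j = V j := by
  ext u
  rw [mem_UU]
  constructor
  · rintro ⟨h, _⟩
    simpa using h
  · intro h
    exact ⟨by simpa using h, hV.le j h⟩

lemma UU_mono (hV : IsLin V) (k j : ℕ) : UU b V k j ≤ UU b V (k + 1) j := by
  intro u hu
  obtain ⟨h1, h2⟩ := mem_UU.mp hu
  refine mem_UU.mpr ⟨?_, h2⟩
  rw [pow_succ', mul_assoc]
  exact hV.lin_mul b h1

lemma UU_colon (k j : ℕ) :
    (UU b V k (j + 1)).comap (LinearMap.mulLeft K (linF K (m + 1) b)) ⊓ HH K (m + 1) j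
      = UU b V (k + 1) j := by
  ext u
  simp only [Submodule.mem_inf, Submodule.mem_comap, LinearMap.mulLeft_apply, mem_UU]
  rw [show j + 1 + k = j + (k + 1) by omega, pow_succ, mul_assoc]
  constructor
  · rintro ⟨⟨h1, _⟩, h3⟩
    exact ⟨h1, h3⟩
  · rintro ⟨h1, h3⟩
    refine ⟨⟨h1, ?_⟩, h3⟩
    have := IsHomogeneous.mul (linF_mem b) h3
    rwa [add_comm 1 j] at this

lemma UU_le (k j : ℕ) : UU b V k j ≤ HH K (m + 1) j := inf_le_right

lemma WW_le (k j : ℕ) : WW b V k j ≤ HH K m j := by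
  rw [WW, Submodule.map_le_iff_le_comap]
  intro u hu
  exact psi_homog (UU_le k j hu)

lemma finrank_UU_succ (hb : b (Fin.last m) ≠ 0) (k j : ℕ) :
    finrank K (UU b V k (j + 1)) = finrank K (WW b V k (j + 1)) + finrank K (UU b V (k + 1) j) := by
  have h := finrank_split hb (UU_le (b := b) (V := V) k (j + 1))
  rw [UU_colon] at h
  exact h

lemma finrank_UU_zero (k : ℕ) : finrank K (UU b V k 0) = finrank K (WW b V k 0) :=
  finrank_split_zero (UU_le k 0)

/-- The chain formula for the dimensions. -/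
theorem finrank_chain (hb : b (Fin.last m) ≠ 0) (d k : ℕ) :
    finrank K (UU b V k d) = ∑ i ∈ Finset.range (d + 1), finrank K (WW b V (k + i) (d - i)) := by
  induction d generalizing k with
  | zero => simp [finrank_UU_zero]
  | succ d ih =>
    rw [finrank_UU_succ hb, ih, Finset.sum_range_succ' _ (d + 1), add_comm]
    congr 1
    refine Finset.sum_congr rfl fun i _ => ?_
    rw [show k + 1 + i = k + (i + 1) by omega, show d + 1 - (i + 1) = d - i by omega]

lemma WW_mono (hV : IsLin V) (k j : ℕ) : WW b V k j ≤ WW b V (k + 1) j :=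
  Submodule.map_mono (UU_mono hV k j)

lemma WW_isLin (hV : IsLin V) (k : ℕ) : IsLin (fun j => WW b V k j) := by
  refine ⟨fun j => WW_le k j, fun i j u hu => ?_⟩
  obtain ⟨w, hw, rfl⟩ := Submodule.mem_map.mp hu
  refine Submodule.mem_map.mpr ⟨X i.castSucc * w, ?_, ?_⟩
  · obtain ⟨h1, h2⟩ := mem_UU.mp hw
    refine mem_UU.mpr ⟨?_, ?_⟩
    · rw [mul_left_comm, show j + 1 + k = j + k + 1 by omega]
      exact hV.mul _ _ _ h1
    · have := IsHomogeneous.mul (isHomogeneous_X K i.castSucc) h2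
      rwa [add_comm 1 j] at this
  · simp only [AlgHom.toLinearMap_apply, map_mul, psi_X_cast]

lemma mem_WW_of_mem (hV : IsLin V) {u : MvPolynomial (Fin (m + 1)) K} {j : ℕ} (hu : u ∈ V j) (k : ℕ) :
    psi b u ∈ WW b V k j :=
  Submodule.mem_map.mpr ⟨u, mem_UU.mpr ⟨hV.pow_mul b hu k, hV.le j hu⟩, rfl⟩

/-- For the family of all forms, the images are all the forms. -/
lemma WW_top (hb : b (Fin.last m) ≠ 0) (k j : ℕ) : WW b (fun d => HH K (m + 1) d) k j = HH K m j := by
  refine le_antisymm (WW_le k j) fun t ht => ?_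
  refine Submodule.mem_map.mpr ⟨iota t, mem_UU.mpr ⟨?_, iota_homog ht⟩, psi_iota t⟩
  exact IsHomogeneous.mul (IsHomogeneous.pow (linF_mem b) k) (iota_homog ht) |> fun h => by
    simpa [mul_comm, add_comm] using h

/-- The dimension of the forms along the substitution. -/
lemma finrank_HH_chain (hb : b (Fin.last m) ≠ 0) (d : ℕ) :
    finrank K (HH K (m + 1) d) = ∑ i ∈ Finset.range (d + 1), finrank K (HH K m (d - i)) := by
  have h := finrank_chain (V := fun d => HH K (m + 1) d) hb d 0
  rw [UU_zero isLin_HH] at h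
  rw [h]
  refine Finset.sum_congr rfl fun i _ => ?_
  rw [WW_top hb]

/-- The dimension of a family along the substitution. -/
lemma finrank_V_chain (hV : IsLin V) (hb : b (Fin.last m) ≠ 0) (d : ℕ) :
    finrank K (V d) = ∑ i ∈ Finset.range (d + 1), finrank K (WW b V i (d - i)) := by
  have h := finrank_chain (V := V) hb d 0
  rw [UU_zero hV] at h
  rw [h]
  refine Finset.sum_congr rfl fun i _ => ?_
  rw [zero_add]

end Vale.Agent.Lib.P200.N
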