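import Vale.Agent.Lib.P200.N.Step

namespace Vale.Agent.Lib.P200.N

open Finset

variable {n : ℕ}

/-- The complement in a finite box. -/
def cmpl (a : Fin n → ℕ) (t : Fin n → ℕ) : Fin n → ℕ := fun i => a i - 1 - t i

/-- The box with finite sides. -/
def eF (a : Fin n → ℕ) : Fin n → ℕ∞ := fun i => (a i : ℕ∞)

variable {a : Fin n → ℕ} {d d' : ℕ}

lemma mem_eF {t : Fin n → ℕ} : t ∈ outN (eF a) d ↔ ∑ i, t i = d ∧ ∀ i, t i < a i := by
  rw [mem_box]
  simp [eF]

lemma cmpl_cmpl {t : Fin n → ℕ} (h : ∀ i, t i < a i) : cmpl a (cmpl a t) = t := by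
  funext i
  have := h i
  simp only [cmpl]
  omega

lemma sum_cmpl {t : Fin n → ℕ} (h : ∀ i, t i < a i) :
    ∑ i, cmpl a t i + ∑ i, t i = ∑ i, (a i - 1) := by
  rw [← sum_add_distrib]
  refine sum_congr rfl fun i _ => ?_
  have := h i
  simp only [cmpl]
  omega

lemma cmpl_lt {t : Fin n → ℕ} (h : ∀ i, t i < a i) (i : Fin n) : cmpl a t i < a i := by
  have := h i
  simp only [cmpl]
  omega

lemma cmpl_mem (hd : d + d' = ∑ i, (a i - 1)) {t : Fin n → ℕ} (ht : t ∈ outN (eF a) d) :
    cmpl a t ∈ outN (eF a) d' := by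
  obtain ⟨h1, h2⟩ := mem_eF.mp ht
  refine mem_eF.mpr ⟨?_, cmpl_lt h2⟩
  have := sum_cmpl h2
  omega

lemma lexG_cmpl {s t : Fin n → ℕ} (hs : ∀ i, s i < a i) (ht : ∀ i, t i < a i) :
    lexG (cmpl a t) (cmpl a s) ↔ lexG s t := by
  constructor
  · rintro ⟨i, h1, h2⟩
    refine ⟨i, ?_, fun j hj => ?_⟩
    · have h3 := hs i
      have h4 := ht i
      simp only [cmpl] at h1
      omega
    · have h3 := h2 j hj
      have h4 := hs j
      have h5 := ht j
      simp only [cmpl] at h3
      omega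
  · rintro ⟨i, h1, h2⟩
    refine ⟨i, ?_, fun j hj => ?_⟩
    · have h3 := hs i
      have h4 := ht i
      simp only [cmpl]
      omega
    · have h3 := h2 j hj
      simp only [cmpl]
      omega

lemma card_cmpl (hd : d + d' = ∑ i, (a i - 1)) : (outN (eF a) d).card = (outN (eF a) d').card := by
  refine card_bij' (fun t _ => cmpl a t) (fun t _ => cmpl a t) ?_ ?_ ?_ ?_
  · intro t ht
    exact cmpl_mem hd ht
  · intro t ht
    exact cmpl_mem (by omega) ht
  · intro t ht
    exact cmpl_cmpl (mem_eF.mp ht).2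
  · intro t ht
    exact cmpl_cmpl (mem_eF.mp ht).2

/-- The rank of the complement. -/
lemma rk_cmpl (hd : d + d' = ∑ i, (a i - 1)) {y : Fin n → ℕ} (hy : y ∈ outN (eF a) d) :
    rk (outN (eF a) d') (cmpl a y) + rk (outN (eF a) d) y + 1 = (outN (eF a) d).card := by
  have hy2 := (mem_eF.mp hy).2
  have h1 : rk (outN (eF a) d') (cmpl a y) = ((outN (eF a) d).filter (fun s => lexG y s)).card := by
    refine card_bij' (fun t _ => cmpl a t) (fun t _ => cmpl a t) ?_ ?_ ?_ ?_
    · intro t ht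
      obtain ⟨h2, h3⟩ := mem_filter.mp ht
      have h4 := (mem_eF.mp h2).2
      refine mem_filter.mpr ⟨cmpl_mem (by omega) h2, ?_⟩
      have h5 := lexG_cmpl (a := a) (s := y) (t := cmpl a t) hy2 (cmpl_lt h4)
      rw [cmpl_cmpl h4] at h5
      exact h5.mp h3
    · intro t ht
      obtain ⟨h2, h3⟩ := mem_filter.mp ht
      have h4 := (mem_eF.mp h2).2
      exact mem_filter.mpr ⟨cmpl_mem hd h2, (lexG_cmpl hy2 h4).mpr h3⟩
    · intro t ht
      exact cmpl_cmpl (mem_eF.mp (mem_filter.mp ht).1).2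
    · intro t ht
      exact cmpl_cmpl (mem_eF.mp (mem_filter.mp ht).1).2
  rw [h1, rk]
  have h2 : (outN (eF a) d) = insert y (((outN (eF a) d).filter (fun s => lexG y s))
      ∪ ((outN (eF a) d).filter (fun s => lexG s y))) := by
    ext s
    simp only [mem_insert, mem_union, mem_filter]
    constructor
    · intro hs
      by_cases h : s = y
      · exact Or.inl h
      · rcases lexG_total h with h3 | h3
        · exact Or.inr (Or.inr ⟨hs, h3⟩)
        · exact Or.inr (Or.inl ⟨hs, h3⟩)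
    · rintro (rfl | ⟨hs, _⟩ | ⟨hs, _⟩)
      · exact hy
      · exact hs
      · exact hs
  conv_rhs => rw [h2]
  rw [card_insert_of_notMem, card_union_of_disjoint]
  · rw [disjoint_left]
    intro s h3 h4
    exact lexG_asymm (mem_filter.mp h3).2 (mem_filter.mp h4).2
  · simp only [mem_union, mem_filter, not_or, not_and]
    exact ⟨fun _ => lexG_irrefl y, fun _ => lexG_irrefl y⟩

lemma bump_lt_of_shd {L : Finset (Fin n → ℕ)} {w : Fin n → ℕ} (h : w ∈ shd (eF a) L) : ∀ i, w i < a i := by
  intro i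
  have := (mem_shd.mp h).2 i
  simpa [eF] using this

/-- Duality of the shadow condition. -/
theorem comb_dual {j₀ : ℕ} (hd : j₀ + 1 + d = ∑ i, (a i - 1)) {t z : ℕ} (ht : t ≤ (outN (eF a) j₀).card)
    (H : shd (eF a) (seg (outN (eF a) j₀) t) ⊆ seg (outN (eF a) (j₀ + 1)) z) :
    shd (eF a) (seg (outN (eF a) d) ((outN (eF a) d).card - z))
      ⊆ seg (outN (eF a) (d + 1)) ((outN (eF a) (d + 1)).card - t) := by
  set L := seg (outN (eF a) d) ((outN (eF a) d).card - z) with hL
  have hinit := (isInit_seg (outN (eF a) d) ((outN (eF a) d).card - z)).shd (e := eF a)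
  rw [← hL] at hinit
  rw [isInit_of_seg_card hinit]
  refine seg_mono _ ?_
  have hsub : (seg (outN (eF a) j₀) t).image (cmpl a) ⊆ outN (eF a) (d + 1) \ shd (eF a) L := by
    intro u hu
    obtain ⟨w, hw, rfl⟩ := mem_image.mp hu
    have hw1 := seg_subset _ _ hw
    have hw2 := (mem_eF.mp hw1).2
    refine mem_sdiff.mpr ⟨cmpl_mem (by omega) hw1, fun hcon => ?_⟩
    obtain ⟨⟨y, hy, i, hyi⟩, _⟩ := mem_shd.mp hcon
    have hy1 := seg_subset _ _ hy
    have hy2 := (mem_eF.mp hy1).2
    have hw3 : ∀ k, cmpl a w k < a k := cmpl_lt hw2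
    have hbump : cmpl a y = bump i w := by
      funext k
      have h1 := congrFun hyi k
      simp only [cmpl] at h1 ⊢
      by_cases hk : k = i
      · subst hk
        rw [bump_same] at h1 ⊢
        have := hw2 k
        have := hy2 k
        omega
      · rw [bump_ne _ hk] at h1 ⊢
        have := hw2 k
        have := hy2 k
        omega
    have hin : bump i w ∈ shd (eF a) (seg (outN (eF a) j₀) t) := by
      refine bump_mem_shd hw i fun k => ?_
      rw [← hbump]
      simp only [eF, Nat.cast_lt]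
      exact cmpl_lt hy2 k
    have h2 := H hin
    rw [← hbump] at h2
    obtain ⟨_, h3⟩ := mem_filter.mp h2
    have h4 := rk_cmpl (by omega : d + (j₀ + 1) = _) hy1
    obtain ⟨_, h5⟩ := mem_filter.mp hy
    omega
  have hcard := card_le_card hsub
  rw [card_image_of_injOn, card_seg, min_eq_left ht] at hcard
  · have h1 := shd_sub (seg_subset (outN (eF a) d) ((outN (eF a) d).card - z)) (e := eF a)
    rw [← hL] at h1
    rw [card_sdiff_of_subset h1] at hcard
    have := card_le_card h1
    omega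
  · intro x hx y hy hxy
    have h1 := cmpl_cmpl (a := a) (mem_eF.mp (seg_subset _ _ (mem_coe.mp hx))).2
    have h2 := cmpl_cmpl (a := a) (mem_eF.mp (seg_subset _ _ (mem_coe.mp hy))).2
    rw [← h1, ← h2]
    exact congrArg _ hxy

end Vale.Agent.Lib.P200.N
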