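import Vale.Agent.Lib.P200.N.Swap

namespace Vale.Agent.Lib.P200.N

open Finset

variable {m : ℕ} (i : Fin (m + 1))

/-- Delete a coordinate. -/
def del (t : Fin (m + 1) → ℕ) : Fin m → ℕ := fun j => t (i.succAbove j)

/-- Insert a coordinate. -/
def ins (k : ℕ) (s : Fin m → ℕ) : Fin (m + 1) → ℕ := Fin.insertNth (α := fun _ => ℕ) i k s

@[simp] lemma ins_same (k : ℕ) (s : Fin m → ℕ) : ins i k s i = k := by
  simp [ins]

@[simp] lemma ins_above (k : ℕ) (s : Fin m → ℕ) (j : Fin m) : ins i k s (i.succAbove j) = s j := by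
  simp [ins]

@[simp] lemma del_ins (k : ℕ) (s : Fin m → ℕ) : del i (ins i k s) = s := by
  funext j
  simp [del]

lemma ins_del {t : Fin (m + 1) → ℕ} {k : ℕ} (h : t i = k) : ins i k (del i t) = t := by
  funext j
  rcases Fin.eq_self_or_eq_succAbove i j with rfl | ⟨j', rfl⟩
  · rw [ins_same, h]
  · rw [ins_above]
    rfl

lemma sum_eq_del (t : Fin (m + 1) → ℕ) : ∑ j, t j = t i + ∑ j, del i t j :=
  Fin.sum_univ_succAbove t i

/-- The box for the remaining coordinates. -/
def eD (e : Fin (m + 1) → ℕ∞) : Fin m → ℕ∞ := fun j => e (i.succAbove j)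

lemma eD_mono {e : Fin (m + 1) → ℕ∞} (he : Monotone e) : Monotone (eD i e) :=
  fun _ _ h => he ((Fin.strictMono_succAbove i).monotone h)

variable {i}
variable {e : Fin (m + 1) → ℕ∞} {d : ℕ}

lemma del_box {t : Fin (m + 1) → ℕ} (h : t ∈ outN e d) : del i t ∈ outN (eD i e) (d - t i) := by
  obtain ⟨h1, h2⟩ := mem_box.mp h
  refine mem_box.mpr ⟨?_, fun j => h2 _⟩
  have := sum_eq_del i t
  omega

lemma ins_box {s : Fin m → ℕ} {j k : ℕ} (h : s ∈ outN (eD i e) j) (hk : (k : ℕ∞) < e i) :
    ins i k s ∈ outN e (k + j) := by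
  obtain ⟨h1, h2⟩ := mem_box.mp h
  refine mem_box.mpr ⟨?_, fun p => ?_⟩
  · rw [sum_eq_del i, ins_same, del_ins, h1]
  · rcases Fin.eq_self_or_eq_succAbove i p with rfl | ⟨j', rfl⟩
    · rwa [ins_same]
    · rw [ins_above]
      exact h2 j'

lemma le_of_mem_box {t : Fin (m + 1) → ℕ} (h : t ∈ outN e d) : t i ≤ d := by
  have h1 := (mem_box.mp h).1
  have := sum_eq_del i t
  omega

lemma coord_lt {t : Fin (m + 1) → ℕ} (h : t ∈ outN e d) : (t i : ℕ∞) < e i := (mem_box.mp h).2 i

lemma lexG_del {s t : Fin (m + 1) → ℕ} (h : s i = t i) : lexG (del i s) (del i t) ↔ lexG s t := by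
  constructor
  · rintro ⟨p, hp1, hp2⟩
    refine ⟨i.succAbove p, hp1, fun j hj => ?_⟩
    rcases Fin.eq_self_or_eq_succAbove i j with rfl | ⟨j', rfl⟩
    · exact h
    · exact hp2 j' ((Fin.strictMono_succAbove i).lt_iff_lt.mp hj)
  · rintro ⟨p, hp1, hp2⟩
    rcases Fin.eq_self_or_eq_succAbove i p with rfl | ⟨p', rfl⟩
    · omega
    · exact ⟨p', hp1, fun j hj => hp2 _ ((Fin.strictMono_succAbove i).lt_iff_lt.mpr hj)⟩

variable (i)

/-- The fibre of `A` over the value `k` of the coordinate `i`. -/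
def Fk (A : Finset (Fin (m + 1) → ℕ)) (k : ℕ) : Finset (Fin m → ℕ) :=
  (A.filter (fun t => t i = k)).image (del i)

variable {i}

lemma mem_Fk {A : Finset (Fin (m + 1) → ℕ)} {k : ℕ} {s : Fin m → ℕ} :
    s ∈ Fk i A k ↔ ins i k s ∈ A := by
  simp only [Fk, mem_image, mem_filter]
  constructor
  · rintro ⟨t, ⟨h1, h2⟩, rfl⟩
    rwa [ins_del i h2]
  · intro h
    exact ⟨_, ⟨h, ins_same _ _ _⟩, del_ins _ _ _⟩

lemma card_Fk (A : Finset (Fin (m + 1) → ℕ)) (k : ℕ) :
    (Fk i A k).card = (A.filter (fun t => t i = k)).card := by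
  refine card_image_of_injOn fun s hs t ht hst => ?_
  have hs' := (mem_filter.mp (mem_coe.mp hs)).2
  have ht' := (mem_filter.mp (mem_coe.mp ht)).2
  have h1 := ins_del i hs'
  have h2 := ins_del i ht'
  have hst' : del i s = del i t := hst
  rw [← h1, ← h2, hst']

lemma card_sum {A : Finset (Fin (m + 1) → ℕ)} {D : ℕ} (h : ∀ t ∈ A, t i < D) :
    A.card = ∑ k ∈ range D, (Fk i A k).card := by
  rw [card_eq_sum_card_fiberwise (f := fun t => t i) (t := range D)
    (fun t ht => mem_coe.mpr (mem_range.mpr (h t (mem_coe.mp ht))))]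
  exact sum_congr rfl fun k _ => (card_Fk A k).symm

lemma Fk_sub {A : Finset (Fin (m + 1) → ℕ)} (hA : A ⊆ outN e d) (k : ℕ) :
    Fk i A k ⊆ outN (eD i e) (d - k) := by
  intro s hs
  have h1 := hA (mem_Fk.mp hs)
  have h2 := del_box (i := i) h1
  rwa [del_ins, ins_same] at h2

lemma exists_of_Fk {A : Finset (Fin (m + 1) → ℕ)} (hA : A ⊆ outN e d) {k : ℕ} (h : (Fk i A k).Nonempty) :
    k ≤ d ∧ (k : ℕ∞) < e i := by
  obtain ⟨s, hs⟩ := h
  have h1 := hA (mem_Fk.mp hs)
  have h2 := le_of_mem_box (i := i) h1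
  have h3 := coord_lt (i := i) h1
  rw [ins_same] at h2 h3
  exact ⟨h2, h3⟩

variable (i)

/-- The compression of `A` along the coordinate `i`. -/
noncomputable def comp (e : Fin (m + 1) → ℕ∞) (d : ℕ) (A : Finset (Fin (m + 1) → ℕ)) :
    Finset (Fin (m + 1) → ℕ) :=
  (outN e d).filter (fun t => del i t ∈ seg (outN (eD i e) (d - t i)) (Fk i A (t i)).card)

variable {i}

lemma comp_sub (A : Finset (Fin (m + 1) → ℕ)) : comp i e d A ⊆ outN e d := filter_subset _ _

lemma Fk_comp {A : Finset (Fin (m + 1) → ℕ)} (hA : A ⊆ outN e d) (k : ℕ) :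
    Fk i (comp i e d A) k = seg (outN (eD i e) (d - k)) (Fk i A k).card := by
  ext s
  rw [mem_Fk, comp, mem_filter, del_ins, ins_same]
  constructor
  · exact fun h => h.2
  · intro h
    refine ⟨?_, h⟩
    have hpos : 0 < (Fk i A k).card := by
      have := (mem_filter.mp h).2
      omega
    obtain ⟨h1, h2⟩ := exists_of_Fk hA (card_pos.mp hpos)
    have h3 := ins_box (seg_subset _ _ h) h2
    rwa [show k + (d - k) = d by omega] at h3

lemma card_seg_Fk {A : Finset (Fin (m + 1) → ℕ)} (hA : A ⊆ outN e d) (k : ℕ) :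
    (seg (outN (eD i e) (d - k)) (Fk i A k).card).card = (Fk i A k).card := by
  rw [card_seg, min_eq_left (card_le_card (Fk_sub hA k))]

lemma card_comp {A : Finset (Fin (m + 1) → ℕ)} (hA : A ⊆ outN e d) : (comp i e d A).card = A.card := by
  have h1 : ∀ X : Finset (Fin (m + 1) → ℕ), X ⊆ outN e d → ∀ t ∈ X, t i < d + 1 := by
    intro X hX t ht
    have := le_of_mem_box (i := i) (hX ht)
    omega
  rw [card_sum (h1 _ (comp_sub A)), card_sum (i := i) (h1 _ hA)]
  refine sum_congr rfl fun k _ => ?_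
  rw [Fk_comp hA, card_seg_Fk hA]

section Shadow

variable {X : Finset (Fin (m + 1) → ℕ)}

lemma ins_bump (k : ℕ) (s : Fin m → ℕ) (j : Fin m) :
    ins i k (bump j s) = bump (i.succAbove j) (ins i k s) := by
  funext p
  rcases Fin.eq_self_or_eq_succAbove i p with rfl | ⟨p', rfl⟩
  · rw [ins_same, bump_ne _ (Fin.succAbove_ne _ j).symm, ins_same]
  · rw [ins_above]
    by_cases h : p' = j
    · subst h
      rw [bump_same, bump_same, ins_above]
    · rw [bump_ne _ h, bump_ne _ (fun h2 => h ((Fin.strictMono_succAbove i).injective h2)), ins_above]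

lemma ins_succ (k : ℕ) (s : Fin m → ℕ) : ins i (k + 1) s = bump i (ins i k s) := by
  funext p
  rcases Fin.eq_self_or_eq_succAbove i p with rfl | ⟨p', rfl⟩
  · rw [ins_same, bump_same, ins_same]
  · rw [ins_above, bump_ne _ (Fin.succAbove_ne i p'), ins_above]

lemma shd_Fk_sub (hX : X ⊆ outN e d) (k : ℕ) : shd (eD i e) (Fk i X k) ⊆ Fk i (shd e X) k := by
  intro w hw
  obtain ⟨⟨s, hs, j, rfl⟩, hbox⟩ := mem_shd.mp hw
  rw [mem_Fk, ins_bump]
  have h1 := mem_Fk.mp hs
  refine bump_mem_shd h1 _ fun p => ?_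
  rw [← ins_bump]
  rcases Fin.eq_self_or_eq_succAbove i p with rfl | ⟨p', rfl⟩
  · rw [ins_same]
    have := coord_lt (i := p) (hX h1)
    rwa [ins_same] at this
  · rw [ins_above]
    exact hbox p'

lemma Fk_pred_sub (hX : X ⊆ outN e d) {l : ℕ} (hl : ((l + 1 : ℕ) : ℕ∞) < e i) :
    Fk i X l ⊆ Fk i (shd e X) (l + 1) := by
  intro s hs
  rw [mem_Fk, ins_succ]
  have h1 := mem_Fk.mp hs
  refine bump_mem_shd h1 _ fun p => ?_
  rw [← ins_succ]
  rcases Fin.eq_self_or_eq_succAbove i p with rfl | ⟨p', rfl⟩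
  · rwa [ins_same]
  · rw [ins_above]
    have := coord_lt (i := i.succAbove p') (hX h1)
    rwa [ins_above] at this

lemma Fk_shd_cases {k : ℕ} {s : Fin m → ℕ} (h : s ∈ Fk i (shd e X) k) :
    s ∈ shd (eD i e) (Fk i X k) ∨ ∃ l, k = l + 1 ∧ s ∈ Fk i X l := by
  obtain ⟨⟨t, ht, p, hp⟩, hbox⟩ := mem_shd.mp (mem_Fk.mp h)
  rcases Fin.eq_self_or_eq_succAbove i p with rfl | ⟨p', rfl⟩
  · right
    have h1 := congrFun hp p
    rw [ins_same, bump_same] at h1
    refine ⟨t p, h1, mem_Fk.mpr ?_⟩
    have h2 : ins p (t p) s = t := by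
      funext q
      rcases Fin.eq_self_or_eq_succAbove p q with rfl | ⟨q', rfl⟩
      · rw [ins_same]
      · have h3 := congrFun hp (p.succAbove q')
        rw [ins_above, bump_ne _ (Fin.succAbove_ne p q')] at h3
        rw [ins_above, h3]
    rwa [h2]
  · left
    have h1 := congrFun hp i
    rw [ins_same, bump_ne _ (Fin.succAbove_ne i p').symm] at h1
    have h2 : s = bump p' (del i t) := by
      funext q
      have h3 := congrFun hp (i.succAbove q)
      rw [ins_above] at h3
      by_cases hq : q = p'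
      · subst hq
        rw [h3, bump_same, bump_same]
        rfl
      · rw [h3, bump_ne _ (fun h4 => hq ((Fin.strictMono_succAbove i).injective h4)), bump_ne _ hq]
        rfl
    refine mem_shd.mpr ⟨⟨del i t, mem_Fk.mpr ?_, p', h2⟩, fun q => ?_⟩
    · rwa [ins_del i h1.symm]
    · have := hbox (i.succAbove q)
      rwa [ins_above] at this

end Shadow

variable {A : Finset (Fin (m + 1) → ℕ)}

/-- Compression does not increase the shadow, given the theorem one dimension lower. -/
theorem shd_comp_le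
    (hCL : ∀ (d' : ℕ) (A' L' : Finset (Fin m → ℕ)), A' ⊆ outN (eD i e) d' →
      IsInit L' (outN (eD i e) d') → L'.card = A'.card → (shd (eD i e) L').card ≤ (shd (eD i e) A').card)
    (hA : A ⊆ outN e d) : (shd e (comp i e d A)).card ≤ (shd e A).card := by
  have h1 : ∀ X : Finset (Fin (m + 1) → ℕ), X ⊆ outN e d → ∀ t ∈ shd e X, t i < d + 2 := by
    intro X hX t ht
    have := le_of_mem_box (i := i) (shd_sub hX ht)
    omega
  rw [card_sum (h1 _ (comp_sub A)), card_sum (i := i) (h1 _ hA)]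
  refine sum_le_sum fun k _ => ?_
  set C := comp i e d A with hC
  have hCA : ∀ k, Fk i C k = seg (outN (eD i e) (d - k)) (Fk i A k).card := Fk_comp hA
  have hinit : ∀ k, IsInit (Fk i C k) (outN (eD i e) (d - k)) := fun k => by
    rw [hCA]
    exact isInit_seg _ _
  have hcardC : ∀ k, (Fk i C k).card = (Fk i A k).card := fun k => by
    rw [hCA, card_seg_Fk hA]
  have hsh : ∀ k, (shd (eD i e) (Fk i C k)).card ≤ (Fk i (shd e A) k).card := fun k =>
    (hCL _ _ _ (Fk_sub hA k) (hinit k) (hcardC k)).trans (card_le_card (shd_Fk_sub hA k))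
  cases k with
  | zero =>
    refine le_trans (card_le_card fun s hs => ?_) (hsh 0)
    rcases Fk_shd_cases hs with h | ⟨l, hl, _⟩
    · exact h
    · omega
  | succ l =>
    by_cases hk : ((l + 1 : ℕ) : ℕ∞) < e i
    · have hpred := card_le_card (Fk_pred_sub (i := i) hA hk)
      have hsub : Fk i (shd e C) (l + 1) ⊆ shd (eD i e) (Fk i C (l + 1)) ∪ Fk i C l := by
        intro s hs
        rcases Fk_shd_cases hs with h | ⟨l', hl, h⟩
        · exact mem_union_left _ h
        · have : l' = l := by omega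
          subst this
          exact mem_union_right _ h
      refine (card_le_card hsub).trans ?_
      by_cases hld : l + 1 ≤ d
      · have hi1 : IsInit (shd (eD i e) (Fk i C (l + 1))) (outN (eD i e) (d - l)) := by
          have := (hinit (l + 1)).shd
          rwa [show d - (l + 1) + 1 = d - l by omega] at this
        refine (hi1.card_union (hinit l)).trans (max_le (hsh _) ?_)
        rw [hcardC]
        exact hpred
      · have hemp : Fk i A (l + 1) = ∅ := by
          rw [← not_nonempty_iff_eq_empty]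
          intro h
          exact hld (exists_of_Fk hA h).1
        have hemp2 : Fk i C (l + 1) = ∅ := by
          rw [hCA, hemp, card_empty]
          simp [seg]
        have hemp3 : shd (eD i e) (∅ : Finset (Fin m → ℕ)) = ∅ := by
          ext w
          simp [mem_shd]
        rw [hemp2, hemp3, empty_union, hcardC]
        exact hpred
    · have : Fk i (shd e C) (l + 1) = ∅ := by
        rw [← not_nonempty_iff_eq_empty]
        rintro ⟨s, hs⟩
        have := coord_lt (i := i) (shd_sub (comp_sub A) (mem_Fk.mp hs))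
        rw [ins_same] at this
        exact hk this
      rw [this, card_empty]
      exact Nat.zero_le _

/-- A compression that changes the set lowers the sum of the ranks. -/
theorem mu_comp_lt (hA : A ⊆ outN e d) (hne : comp i e d A ≠ A) :
    mu (outN e d) (comp i e d A) < mu (outN e d) A := by
  set C := comp i e d A with hC
  set B := outN e d with hB
  have hmaps : ∀ X : Finset (Fin (m + 1) → ℕ), X ⊆ B → ∀ t ∈ X, t i ∈ range (d + 1) := by
    intro X hX t ht
    have := le_of_mem_box (i := i) (hX ht)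
    exact mem_range.mpr (by omega)
  unfold mu
  rw [← sum_fiberwise_of_maps_to (hmaps C (comp_sub A)) (rk B),
    ← sum_fiberwise_of_maps_to (hmaps A hA) (rk B)]
  have hcard : ∀ k, (A.filter (fun t => t i = k)).card = (C.filter (fun t => t i = k)).card := by
    intro k
    rw [← card_Fk, ← card_Fk, hC, Fk_comp hA, card_seg_Fk hA]
  have hkey : ∀ k, C.filter (fun t => t i = k) ≠ A.filter (fun t => t i = k) →
      ∑ t ∈ C.filter (fun t => t i = k), rk B t < ∑ t ∈ A.filter (fun t => t i = k), rk B t := by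
    intro k hk
    refine mu_lt_of (hcard k) hk fun u hu v hv => ?_
    obtain ⟨hu1, hu2⟩ := mem_sdiff.mp hu
    obtain ⟨hv1, hv2⟩ := mem_sdiff.mp hv
    obtain ⟨huC, huk⟩ := mem_filter.mp hu1
    obtain ⟨hvA, hvk⟩ := mem_filter.mp hv1
    have huB : u ∈ B := comp_sub A huC
    have hvB : v ∈ B := hA hvA
    have huSeg : del i u ∈ seg (outN (eD i e) (d - k)) (Fk i A k).card := by
      have := (mem_filter.mp huC).2
      rwa [huk] at this
    have hvnot : del i v ∉ seg (outN (eD i e) (d - k)) (Fk i A k).card := by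
      intro h
      apply hv2
      refine mem_filter.mpr ⟨mem_filter.mpr ⟨hvB, ?_⟩, hvk⟩
      rwa [hvk]
    have hvbox : del i v ∈ outN (eD i e) (d - k) := by
      have := del_box (i := i) hvB
      rwa [hvk] at this
    have hneq : del i u ≠ del i v := by
      intro h
      have h3 : u = v := by
        rw [← ins_del i huk, ← ins_del i hvk, h]
      exact hu2 (h3 ▸ hv1)
    have hlex : lexG (del i u) (del i v) := by
      refine (lexG_total hneq).resolve_right fun h => ?_
      exact hvnot ((isInit_seg _ _).up _ huSeg _ hvbox h)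
    have hlex2 : lexG u v := (lexG_del (huk.trans hvk.symm)).mp hlex
    exact rk_lt huB hlex2
  have hle : ∀ k ∈ range (d + 1),
      ∑ t ∈ C.filter (fun t => t i = k), rk B t ≤ ∑ t ∈ A.filter (fun t => t i = k), rk B t := by
    intro k _
    by_cases hk : C.filter (fun t => t i = k) = A.filter (fun t => t i = k)
    · rw [hk]
    · exact (hkey k hk).le
  refine sum_lt_sum hle ?_
  have hex : ∃ t, (t ∈ C ∧ t ∉ A) ∨ (t ∈ A ∧ t ∉ C) := by
    by_contra hcon
    push Not at hcon
    apply hne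
    ext t
    exact ⟨(hcon t).1, (hcon t).2⟩
  obtain ⟨t, ht⟩ := hex
  have htB : t ∈ B := by
    rcases ht with ⟨h, _⟩ | ⟨h, _⟩
    · exact comp_sub A h
    · exact hA h
  refine ⟨t i, hmaps {t} (singleton_subset_iff.mpr htB) t (mem_singleton_self t), hkey _ fun h => ?_⟩
  rcases ht with ⟨h1, h2⟩ | ⟨h1, h2⟩
  · have : t ∈ A.filter (fun s => s i = t i) := by
      rw [← h]
      exact mem_filter.mpr ⟨h1, rfl⟩
    exact h2 (mem_filter.mp this).1
  · have : t ∈ C.filter (fun s => s i = t i) := by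
      rw [h]
      exact mem_filter.mpr ⟨h1, rfl⟩
    exact h2 (mem_filter.mp this).1

/-- A set fixed by the compression has initial fibres. -/
lemma comp_fixed (h : comp i e d A = A) :
    ∀ t ∈ A, ∀ s ∈ outN e d, s i = t i → lexG s t → s ∈ A := by
  intro t ht s hs hst hlex
  rw [← h] at ht ⊢
  obtain ⟨h1, h2⟩ := mem_filter.mp ht
  refine mem_filter.mpr ⟨hs, ?_⟩
  rw [hst]
  have h3 := del_box (i := i) hs
  rw [hst] at h3
  exact (isInit_seg _ _).up _ h2 _ h3 ((lexG_del hst).mpr hlex)

end Vale.Agent.Lib.P200.N
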