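import Vale.Agent.Lib.P200.N.Quo

namespace Vale.Agent.Lib.P200.N

open MvPolynomial Module

universe u

variable {K : Type u} [Field K] {n c : ℕ}

/-- A combination with a nonzerodivisor that is again a nonzerodivisor. -/
lemma exists_nzd_combo [Infinite K] {J : Ideal (MvPolynomial (Fin n) K)} {f₀ : MvPolynomial (Fin n) K}
    (h₀ : MvPolynomial (Fin n) K) (hf₀ : ∀ u, f₀ * u ∈ J → u ∈ J) :
    ∃ ε : K, ε ≠ 0 ∧ ∀ u, (f₀ + ε • h₀) * u ∈ J → u ∈ J := by
  classical
  have hfin : (associatedPrimes (MvPolynomial (Fin n) K) (MvPolynomial (Fin n) K ⧸ J)).Finite :=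
    associatedPrimes.finite _ _
  have hP : ∀ P ∈ hfin.toFinset, f₀ ∉ P := by
    intro P hP hle
    have h3 : IsAssociatedPrime P (MvPolynomial (Fin n) K ⧸ J) := hfin.mem_toFinset.mp hP
    have h9 := (isAssociatedPrime_iff.mp h3).1
    rw [isAssociatedPrime_iff] at h3
    obtain ⟨-, v, hv⟩ := h3
    obtain ⟨u, rfl⟩ := Ideal.Quotient.mk_surjective v
    have h4 : f₀ ∈ (⊥ : Submodule (MvPolynomial (Fin n) K) (MvPolynomial (Fin n) K ⧸ J)).colon
        {Ideal.Quotient.mk J u} := hv ▸ hle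
    rw [Submodule.mem_colon_singleton, Submodule.mem_bot] at h4
    have h5 : f₀ * u ∈ J := by
      rw [← Ideal.Quotient.eq_zero_iff_mem, map_mul]
      exact h4
    have h6 := hf₀ u h5
    have h7 : Ideal.Quotient.mk J u = 0 := Ideal.Quotient.eq_zero_iff_mem.mpr h6
    have h8 : (1 : MvPolynomial (Fin n) K) ∈ P := by
      rw [hv, Submodule.mem_colon_singleton, h7, smul_zero]
      exact Submodule.zero_mem _
    exact h9.ne_top ((Ideal.eq_top_iff_one _).mpr h8)
  let bad : Ideal (MvPolynomial (Fin n) K) → K := fun P =>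
    if h : ∃ ε : K, f₀ + ε • h₀ ∈ P then h.choose else 0
  obtain ⟨ε, hε⟩ := Infinite.exists_notMem_finset (insert 0 (hfin.toFinset.image bad))
  have hε0 : ε ≠ 0 := fun h => hε (h ▸ Finset.mem_insert_self _ _)
  have hbad : ∀ P ∈ hfin.toFinset, f₀ + ε • h₀ ∉ P := by
    intro P hPm hmem
    have hex : ∃ ε : K, f₀ + ε • h₀ ∈ P := ⟨ε, hmem⟩
    have hb : f₀ + bad P • h₀ ∈ P := by
      simp only [bad, dif_pos hex]
      exact hex.choose_spec
    have hne : ε ≠ bad P := fun h =>
      hε (Finset.mem_insert_of_mem (Finset.mem_image.mpr ⟨P, hPm, h.symm⟩))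
    have h1 := Submodule.sub_mem _ hmem hb
    have h2 : (f₀ + ε • h₀) - (f₀ + bad P • h₀) = (ε - bad P) • h₀ := by
      rw [sub_smul]
      abel
    rw [h2, smul_eq_C_mul] at h1
    have h3 : h₀ ∈ P := by
      have h4 := P.mul_mem_left (C (ε - bad P)⁻¹) h1
      rwa [← mul_assoc, ← C_mul, inv_mul_cancel₀ (sub_ne_zero.mpr hne), C_1, one_mul] at h4
    apply hP P hPm
    have h5 := Submodule.sub_mem _ hmem (P.mul_mem_left (C ε) h3)
    rw [smul_eq_C_mul] at h5
    simpa using h5
  refine ⟨ε, hε0, fun u hu => ?_⟩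
  by_contra hu2
  have hne : Ideal.Quotient.mk J u ≠ 0 := fun h => hu2 (Ideal.Quotient.eq_zero_iff_mem.mp h)
  obtain ⟨P, hPa, hle⟩ := exists_le_isAssociatedPrime_of_isNoetherianRing (MvPolynomial (Fin n) K) _ hne
  refine hbad P (hfin.mem_toFinset.mpr hPa) (hle ?_)
  rw [Submodule.mem_colon_singleton, Submodule.mem_bot]
  show Ideal.Quotient.mk J (f₀ + ε • h₀) * Ideal.Quotient.mk J u = 0
  rw [← map_mul]
  exact Ideal.Quotient.eq_zero_iff_mem.mpr hu

/-- The sequence with a linear form added at the end. -/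
def sSeq (f' : Fin c → MvPolynomial (Fin n) K) (l : MvPolynomial (Fin n) K) : Fin (c + 1) → MvPolynomial (Fin n) K :=
  Fin.snoc (α := fun _ => MvPolynomial (Fin n) K) f' l

/-- The degrees with a one added at the end. -/
def aSeq (a' : Fin c → ℕ) : Fin (c + 1) → ℕ := Fin.snoc (α := fun _ => ℕ) a' 1

@[simp] lemma sSeq_cast (f' : Fin c → MvPolynomial (Fin n) K) (l : MvPolynomial (Fin n) K) (i : Fin c) :
    sSeq f' l i.castSucc = f' i := by
  simp [sSeq]

@[simp] lemma sSeq_last (f' : Fin c → MvPolynomial (Fin n) K) (l : MvPolynomial (Fin n) K) :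
    sSeq f' l (Fin.last c) = l := by
  simp [sSeq]

@[simp] lemma aSeq_cast (a' : Fin c → ℕ) (i : Fin c) : aSeq a' i.castSucc = a' i := by
  simp [aSeq]

@[simp] lemma aSeq_last (a' : Fin c → ℕ) : aSeq a' (Fin.last c) = 1 := by
  simp [aSeq]

lemma fInit_sSeq (f' : Fin c → MvPolynomial (Fin n) K) (l : MvPolynomial (Fin n) K) :
    fInit (sSeq f' l) = f' := by
  funext i
  exact sSeq_cast f' l i

lemma Fid_sSeq (f' : Fin c → MvPolynomial (Fin n) K) (l : MvPolynomial (Fin n) K) :
    Fid (sSeq f' l) c = Fid f' c := by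
  have := Fid_init (sSeq f' l) (k := c) le_rfl
  rwa [fInit_sSeq, eq_comm] at this

lemma reg_sSeq {f' : Fin c → MvPolynomial (Fin n) K} {l : MvPolynomial (Fin n) K} (hreg : Reg f')
    (hl : ∀ u, l * u ∈ Fid f' c → u ∈ Fid f' c) : Reg (sSeq f' l) := by
  intro i u hu
  induction i using Fin.lastCases with
  | last =>
    have e : Ideal.span (sSeq f' l '' {j | j < Fin.last c}) = Fid f' c := by
      rw [← Fid_sSeq f' l]
      rfl
    rw [e] at hu ⊢
    rw [sSeq_last] at hu
    exact hl u hu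
  | cast j =>
    have e : Ideal.span (sSeq f' l '' {k | k < j.castSucc}) = Ideal.span (f' '' {k | k < j}) := by
      have h1 := Fid_init (sSeq f' l) (k := j.val) j.isLt.le
      rw [fInit_sSeq] at h1
      exact h1.symm
    rw [e] at hu ⊢
    rw [sSeq_cast] at hu
    exact hreg j u hu

section Facts

variable [Infinite K] {f' : Fin c → MvPolynomial (Fin (c + 1)) K} {l : MvPolynomial (Fin (c + 1)) K}
  {a' : Fin c → ℕ}

/-- The data of the sequence with the linear form. -/
theorem facts_sSeq (hf' : ∀ i, (f' i).IsHomogeneous (a' i)) (ha' : ∀ i, 1 ≤ a' i) (hreg : Reg f')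
    (hlh : l.IsHomogeneous 1) (hlN : ∀ u, l * u ∈ Fid f' c → u ∈ Fid f' c) {D : ℕ}
    (hsum : D + 1 = ∑ j : Fin c, (a' j - 1)) :
    let M := Fid (sSeq f' l) (c + 1)
    (∀ (m : ℕ) (u : MvPolynomial (Fin (c + 1)) K), u.IsHomogeneous m → u ∉ M →
      m ≤ D + 1 ∧ ∃ v, v.IsHomogeneous (D + 1 - m) ∧ u * v ∉ M) ∧
    (∀ (m : ℕ) (u : MvPolynomial (Fin (c + 1)) K), u.IsHomogeneous m → u ∈ M →
      u ∈ Fid f' c ∨ ∃ m' w, m = m' + 1 ∧ w.IsHomogeneous m' ∧ u - l * w ∈ Fid f' c) ∧
    Fid f' c ≤ M ∧ l ∈ M ∧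
    (∀ u, u.IsHomogeneous (D + 1 + 1) → ∃ w, w.IsHomogeneous (D + 1) ∧ u - l * w ∈ Fid f' c) := by
  intro M
  have hf'' : ∀ i, (sSeq f' l i).IsHomogeneous (aSeq a' i) := by
    intro i
    induction i using Fin.lastCases with
    | last => simpa using hlh
    | cast j => simpa using hf' j
  have ha'' : ∀ i, 1 ≤ aSeq a' i := by
    intro i
    induction i using Fin.lastCases with
    | last => simp
    | cast j => simpa using ha' j
  have hreg'' : Reg (sSeq f' l) := reg_sSeq hreg hlN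
  have hsum'' : ∑ i, (aSeq a' i - 1) = D + 1 := by
    rw [Fin.sum_univ_castSucc, hsum]
    simp
  obtain ⟨l₀, hl₀⟩ := exists_l hf'' ha'' hreg''
  have lk := left_kernel hf'' ha'' hreg'' hl₀
  have hMJ : Fid f' c ≤ M := by
    rw [← Fid_sSeq f' l]
    exact Fid_mono _ (Nat.le_succ c)
  have hMl : l ∈ M := by
    refine Ideal.subset_span ⟨Fin.last c, by simp, sSeq_last _ _⟩
  have hFull : ∀ m, D + 1 < m → ∀ u : MvPolynomial (Fin (c + 1)) K, u.IsHomogeneous m → u ∈ M := by
    intro m hm u hu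
    have h1 := hilb hf'' ha'' hreg'' le_rfl (c + 1) le_rfl m
    rw [eK_self, eT_self] at h1
    have h2 : outN (eF (aSeq a')) m = ∅ := by
      rw [Finset.eq_empty_iff_forall_notMem]
      intro t ht
      obtain ⟨h3, h4⟩ := mem_eF.mp ht
      have h5 : ∑ i, t i ≤ ∑ i, (aSeq a' i - 1) := Finset.sum_le_sum fun i _ => by
        have := h4 i
        omega
      omega
    rw [h2, Finset.card_empty, add_zero] at h1
    have h3 : Fd (sSeq f' l) (c + 1) m = HH K (c + 1) m := by
      have := fin_le (d := m) (le_refl (HH K (c + 1) m))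
      exact Submodule.eq_of_le_of_finrank_eq inf_le_right h1
    have h4 : u ∈ Fd (sSeq f' l) (c + 1) m := by
      rw [h3]
      exact hu
    exact (mem_Fd.mp h4).1
  have hM2 : ∀ (m : ℕ) (u : MvPolynomial (Fin (c + 1)) K), u.IsHomogeneous m → u ∈ M →
      u ∈ Fid f' c ∨ ∃ m' w, m = m' + 1 ∧ w.IsHomogeneous m' ∧ u - l * w ∈ Fid f' c := by
    intro m u hu huM
    have hlast : (⟨c, Nat.lt_succ_self c⟩ : Fin (c + 1)) = Fin.last c := rfl
    have h0 : u ∈ Fd (sSeq f' l) (c + 1) m := mem_Fd.mpr ⟨huM, hu⟩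
    cases m with
    | zero =>
      left
      rw [Fd_succ_low hf'' (Nat.lt_succ_self c) (by rw [hlast, aSeq_last]; omega)] at h0
      have := (mem_Fd.mp h0).1
      rwa [Fid_sSeq] at this
    | succ m =>
      right
      rw [Fd_succ hf'' (Nat.lt_succ_self c) (by rw [hlast, aSeq_last]; omega), hlast, aSeq_last, sSeq_last] at h0
      obtain ⟨y, hy, g, hg, rfl⟩ := Submodule.mem_sup.mp h0
      obtain ⟨w, hw, rfl⟩ := Submodule.mem_map.mp hy
      refine ⟨m, w, rfl, by simpa using hw, ?_⟩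
      have := (mem_Fd.mp hg).1
      rw [Fid_sSeq] at this
      simpa using this
  refine ⟨fun m u hu huM => ?_, hM2, hMJ, hMl, fun u hu => ?_⟩
  · have hm : m ≤ D + 1 := by
      by_contra hcon
      exact huM (hFull m (by omega) u hu)
    refine ⟨hm, ?_⟩
    by_contra hcon
    push Not at hcon
    apply huM
    refine lk (D + 1 - m) m (by omega) u hu fun v hv => ?_
    have h2 : u * v ∈ HH K (c + 1) (∑ i, (aSeq a' i - 1)) := by
      have := IsHomogeneous.mul hu hv
      rw [hsum'']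
      rwa [Nat.add_sub_cancel' hm] at this
    exact (hl₀ _ h2).mpr (mem_Fd.mpr ⟨hcon v hv, h2⟩)
  · rcases hM2 _ u hu (hFull _ (Nat.lt_succ_self _) u hu) with h | ⟨m', w, hm, hw, hd⟩
    · refine ⟨0, isHomogeneous_zero _ _ _, ?_⟩
      simpa using h
    · have : m' = D + 1 := by omega
      subst this
      exact ⟨w, hw, hd⟩

end Facts

lemma linF_inj {t : Fin n → K} (h : linF K n t = 0) : t = 0 := by
  classical
  funext i
  have h1 := congrArg (coeff (Finsupp.single i 1)) h
  rw [coeff_zero] at h1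
  have h2 : coeff (Finsupp.single i 1) (linF K n t) = t i := by
    show coeff (Finsupp.single i 1) (∑ j, t j • (X j : MvPolynomial (Fin n) K)) = t i
    rw [coeff_sum, Finset.sum_eq_single i]
    · rw [coeff_smul, coeff_X', if_pos rfl, smul_eq_mul, mul_one]
    · intro j _ hj
      rw [coeff_smul, coeff_X', if_neg, smul_zero]
      intro h3
      exact hj (Finsupp.single_left_injective one_ne_zero h3)
    · simp
  rw [h2] at h1
  exact h1

section Gain

variable [Infinite K] {a : Fin (c + 1) → ℕ}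

/-- The count in the top degree of the first forms. -/
lemma card_out_top (ha1 : ∀ i, 1 ≤ aI a i) {d : ℕ} (hS : d + 1 = ∑ j : Fin c, (aI a j - 1)) :
    (outN (eT (aI a) (c + 1)) (d + 1)).card = (outN (eT (aI a) (c + 1)) d).card + 1 := by
  have hout : ∀ j, (outN (eT (aI a) (c + 1)) j).card
      = ∑ k ∈ Finset.range (j + 1), (outN (eF (aI a)) (j - k)).card := by
    intro j
    have := card_out (i := Fin.last c) (e := eT (aI a) (c + 1)) (eT_last (aI a) le_rfl) j
    rwa [eD_eT, eT_self] at this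
  rw [hout (d + 1), Finset.sum_range_succ', hout d]
  have h1 : (outN (eF (aI a)) (d + 1 - 0)).card = 1 := by
    rw [Nat.sub_zero, card_cmpl (a := aI a) (d := d + 1) (d' := 0) (by omega), card_out_zero ha1]
  rw [h1]
  simp only [Nat.add_sub_add_right]

/-- The gain of two in the critical degree of the boundary case. -/
theorem crit_gain2 (hc : 2 ≤ c) {f : Fin (c + 1) → MvPolynomial (Fin (c + 1)) K}
    (hf : ∀ i, (f i).IsHomogeneous (a i)) (ha2 : ∀ i, 2 ≤ a i) (hreg : Reg f)
    (hS : ∑ j : Fin c, (aI a j - 1) = a (Fin.last c))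
    {V : ℕ → Submodule K (MvPolynomial (Fin (c + 1)) K)} (hV : IsLin V)
    (hmem : ∀ i, f i ∈ V (a i)) {d : ℕ} (hd : d + 1 = a (Fin.last c))
    (hq1 : 1 ≤ qV (eT (aI a) (c + 1)) V d)
    (hq2 : qV (eT (aI a) (c + 1)) V d < (outN (eT (aI a) (c + 1)) d).card) :
    qV (eT (aI a) (c + 1)) V d + 2 ≤ qV (eT (aI a) (c + 1)) V (d + 1) := by
  by_contra hcon
  have ha1 : ∀ i, 1 ≤ a i := fun i => by
    have := ha2 i
    omega
  have hcg := crit_gain hf ha1 hreg hV hmem hd hq2
  have hreg' := hreg.init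
  have hf' : ∀ i, (fInit f i).IsHomogeneous (aI a i) := fun i => hf i.castSucc
  have ha1' : ∀ i, 1 ≤ aI a i := fun i => ha1 _
  obtain ⟨b, hb, hl⟩ := exists_good_lin hreg' (Nat.lt_succ_self c)
  set ℓ := linF K (c + 1) b with hℓ
  have hlN := hl c le_rfl
  have hlh : ℓ.IsHomogeneous 1 := linF_mem b
  set J := Fid (fInit f) c with hJdef
  have hJ : ∀ u ∈ J, ∀ j, homogeneousComponent j u ∈ J := fun u hu j => component_mem hf' hu j
  obtain ⟨hM1, hM2, hMJ, hMl, hD⟩ := facts_sSeq (D := d) hf' ha1' hreg' hlh hlN (by omega)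
  have hGV : ∀ j, degPartN J j ≤ V j := fun j u hu =>
    mem_of_fam hV (a := aI a) (fun i _ => hmem i.castSucc) (mem_Fd.mp hu).1 (mem_Fd.mp hu).2
  have hG : ∀ j, finrank K (degPartN J j) + (outN (eT (aI a) (c + 1)) j).card = finrank K (HH K (c + 1) j) := by
    intro j
    have := hilb hf' ha1' hreg' (Nat.le_succ c) c le_rfl j
    rwa [eK_self] at this
  have h1 := finrank_mul_sup (linF_ne_zero hb) hlh hlN (hV.le d) (hGV d)
  set W := (V d).map (LinearMap.mulLeft K ℓ) ⊔ degPartN J (d + 1) with hW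
  have hWle : W ≤ V (d + 1) := by
    refine sup_le ?_ (hGV _)
    rw [Submodule.map_le_iff_le_comap]
    intro u hu
    exact hV.lin_mul b hu
  have hWfin := fin_le (hV.le (d + 1))
  have hfr := finrank_le hWle (hV.le (d + 1))
  have hVd : finrank K (V d) ≤ finrank K (HH K (c + 1) d) := finrank_le (hV.le d) (le_refl _)
  have hVd1 : finrank K (V (d + 1)) ≤ finrank K (HH K (c + 1) (d + 1)) := finrank_le (hV.le _) (le_refl _)
  have hleG := finrank_le (hGV d) (hV.le d)
  have hleG1 := finrank_le (hGV (d + 1)) (hV.le (d + 1))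
  have hG0 := hG d
  have hG1 := hG (d + 1)
  simp only [qV] at hcon hcg hq1 hq2
  have hW1 : finrank K (V (d + 1)) = finrank K W + 1 := by omega
  have hdecomp : ∀ h ∈ V (d + 1), h ∉ W → ∀ v ∈ V (d + 1), ∃ t : K, v - t • h ∈ W := by
    intro h hh hhW v hv
    have hle : W ⊔ Submodule.span K {h} ≤ V (d + 1) :=
      sup_le hWle ((Submodule.span_singleton_le_iff_mem _ _).mpr hh)
    have hlt : W < W ⊔ Submodule.span K {h} := by
      refine lt_of_le_of_ne le_sup_left fun h5 => hhW ?_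
      rw [h5]
      exact Submodule.mem_sup_right (Submodule.mem_span_singleton_self h)
    have hfin2 : FiniteDimensional K (W ⊔ Submodule.span K {h} : Submodule K _) :=
      Submodule.finiteDimensional_of_le hle
    have h6 := Submodule.finrank_lt_finrank_of_lt hlt
    have h7 : W ⊔ Submodule.span K {h} = V (d + 1) := Submodule.eq_of_le_of_finrank_le hle (by omega)
    rw [← h7] at hv
    obtain ⟨w, hw, y, hy, rfl⟩ := Submodule.mem_sup.mp hv
    obtain ⟨t, rfl⟩ := Submodule.mem_span_singleton.mp hy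
    exact ⟨t, by simpa using hw⟩
  have hWlt : W < V (d + 1) := by
    refine lt_of_le_of_ne hWle fun h5 => ?_
    rw [h5] at hW1
    omega
  obtain ⟨h₀, hh₀, hh₀'⟩ := SetLike.exists_of_lt hWlt
  have hfV : f (Fin.last c) ∈ V (d + 1) := by
    rw [hd]
    exact hmem _
  have hfN : ∀ u, f (Fin.last c) * u ∈ J → u ∈ J := hreg.last
  obtain ⟨h, hhV, hhW, hhN⟩ : ∃ h ∈ V (d + 1), h ∉ W ∧ ∀ u, h * u ∈ J → u ∈ J := by
    by_cases hfW : f (Fin.last c) ∈ W
    · obtain ⟨ε, hε, hεN⟩ := exists_nzd_combo h₀ hfN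
      refine ⟨f (Fin.last c) + ε • h₀, Submodule.add_mem _ hfV (Submodule.smul_mem _ _ hh₀), ?_, hεN⟩
      intro hm
      apply hh₀'
      have h2 := Submodule.sub_mem _ hm hfW
      rw [add_sub_cancel_left] at h2
      have h3 := Submodule.smul_mem _ ε⁻¹ h2
      rwa [smul_smul, inv_mul_cancel₀ hε, one_smul] at h3
    · exact ⟨_, hfV, hfW, hfN⟩
  have hhh : h.IsHomogeneous (d + 1) := hV.le _ hhV
  have hdec := hdecomp h hhV hhW
  haveI hfinA : FiniteDimensional K (AQ J ℓ) := finite_AQ (D := d + 1) hlh hD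
  have hsurj := mul_surj (D := d + 1) hlh hlN hJ hD hhh hhN
  have hmemQ : ∀ {w : MvPolynomial (Fin (c + 1)) K} {j : ℕ}, w.IsHomogeneous j → piQ J ℓ w = 0 → w ∈ J :=
    fun hw h0 => mem_of_Qd hlh hlN hJ hw (piQ_eq_zero.mp h0)
  -- the subspace of the quotient
  let C : Submodule K (AQ J ℓ) :=
    ((V d).map (piQ J ℓ).toLinearMap).comap (LinearMap.mulLeft K (piQ J ℓ h))
  have hC : ∀ x, x ∈ C ↔ ∃ u ∈ V d, piQ J ℓ u = piQ J ℓ h * x := by
    intro x
    show _ ∈ Submodule.map _ _ ↔ _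
    rw [Submodule.mem_map]
    rfl
  let A₁ : Submodule K (AQ J ℓ) := (LinearMap.range (linF K (c + 1))).map (piQ J ℓ).toLinearMap
  have hA₁ : ∀ t, piQ J ℓ (linF K (c + 1) t) ∈ A₁ := fun t =>
    Submodule.mem_map.mpr ⟨_, ⟨t, rfl⟩, rfl⟩
  have h1A : (1 : AQ J ℓ) ∈ A₁ := by
    have := hA₁ b
    rwa [← hℓ, piQ_l] at this
  have hgen : ∀ D : Submodule K (AQ J ℓ), (1 : AQ J ℓ) ∈ D → (∀ x ∈ A₁, ∀ a ∈ D, x * a ∈ D) → D = ⊤ := by
    intro D h1D hstab
    refine gen_top h1D fun i a ha => hstab _ ?_ a ha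
    have := hA₁ (Pi.single i 1)
    rwa [linF_single] at this
  have hFd1 : ∀ k, k ≤ c → Fd (fInit f) k 1 = ⊥ := by
    intro k
    induction k with
    | zero =>
      intro _
      rw [eq_bot_iff]
      intro u hu
      have := (mem_Fd.mp hu).1
      rwa [Fid_zero] at this
    | succ k ih =>
      intro hk
      have hk' : k < c := by omega
      have h2 : 1 < aI a ⟨k, hk'⟩ := ha2 _
      rw [Fd_succ_low hf' hk' h2]
      exact ih (by omega)
  have hdim : ∀ φ ψ : AQ J ℓ →ₗ[K] K, ∃ y ∈ A₁, y ≠ 0 ∧ φ y = 0 ∧ ψ y = 0 := by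
    intro φ ψ
    let P : (Fin (c + 1) → K) →ₗ[K] AQ J ℓ := (piQ J ℓ).toLinearMap.comp (linF K (c + 1))
    let L : (Fin (c + 1) → K) →ₗ[K] K × K := (φ.comp P).prod (ψ.comp P)
    have hker : LinearMap.ker L ≠ ⊥ := by
      apply LinearMap.ker_ne_bot_of_finrank_lt
      simp only [Module.finrank_prod, Module.finrank_self, Module.finrank_fintype_fun_eq_card, Fintype.card_fin]
      omega
    obtain ⟨t, ht, ht0⟩ := Submodule.exists_mem_ne_zero_of_ne_bot hker
    have hLt : L t = 0 := ht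
    have h2 : φ (P t) = 0 := congrArg Prod.fst hLt
    have h3 : ψ (P t) = 0 := congrArg Prod.snd hLt
    refine ⟨P t, hA₁ t, fun h0 => ht0 ?_, h2, h3⟩
    have h4 := hmemQ (linF_mem t) h0
    have h5 : linF K (c + 1) t ∈ Fd (fInit f) c 1 := mem_Fd.mpr ⟨h4, linF_mem t⟩
    rw [hFd1 c le_rfl] at h5
    exact linF_inj h5
  have h1C : (1 : AQ J ℓ) ∉ C := by
    intro hm
    obtain ⟨u, hu, hue⟩ := (hC 1).mp hm
    rw [mul_one] at hue
    apply hhW
    have h2 : piQ J ℓ (h - ℓ * u) = 0 := by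
      rw [map_sub, map_mul, piQ_l, one_mul, hue, sub_self]
    have h3 : (ℓ * u).IsHomogeneous (d + 1) := by
      have := IsHomogeneous.mul hlh (hV.le d hu)
      rwa [add_comm 1 d] at this
    have h4 := hmemQ (IsHomogeneous.sub hhh h3) h2
    have h5 : h = ℓ * u + (h - ℓ * u) := by ring
    rw [h5]
    exact Submodule.add_mem_sup (Submodule.mem_map.mpr ⟨u, hu, rfl⟩)
      (Submodule.mem_inf.mpr ⟨h4, IsHomogeneous.sub hhh h3⟩)
  have hstab : ∀ x ∈ A₁, ∀ u ∈ C, ∃ t : K, x * u - t • (1 : AQ J ℓ) ∈ C := by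
    intro x hx u hu
    obtain ⟨_, ⟨s, rfl⟩, rfl⟩ := Submodule.mem_map.mp hx
    obtain ⟨u₀, hu₀, hue⟩ := (hC u).mp hu
    have h2 : linF K (c + 1) s * u₀ ∈ V (d + 1) := hV.lin_mul s hu₀
    obtain ⟨t, ht⟩ := hdec _ h2
    refine ⟨t, (hC _).mpr ?_⟩
    obtain ⟨p, hp, g, hg, hpg⟩ := Submodule.mem_sup.mp ht
    obtain ⟨u₁, hu₁, rfl⟩ := Submodule.mem_map.mp hp
    refine ⟨u₁, hu₁, ?_⟩
    have h3 := congrArg (piQ J ℓ) hpg
    simp only [LinearMap.mulLeft_apply, map_add, map_sub, map_mul, piQ_l, one_mul, map_smul,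
      piQ_of_mem (Submodule.mem_inf.mp hg).1, add_zero] at h3
    rw [h3, hue, mul_sub, mul_smul_comm, mul_one]
    simp only [AlgHom.toLinearMap_apply]
    ring
  rcases alg_main A₁ h1A hgen hdim C h1C hstab with hbot | htop | ⟨y, hy0, hyb⟩
  · -- the first alternative contradicts the positivity of the number
    have hex : ∃ u₀ ∈ V d, u₀ ∉ J := by
      by_contra hno
      push Not at hno
      have h2 : V d ≤ degPartN J d := fun u hu => Submodule.mem_inf.mpr ⟨hno u hu, hV.le d hu⟩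
      have h3 := finrank_le h2 inf_le_right
      omega
    obtain ⟨u₀, hu₀, hu₀J⟩ := hex
    obtain ⟨y, hy⟩ := hsurj (piQ J ℓ u₀)
    have h2 : y ∈ C := (hC y).mpr ⟨u₀, hu₀, hy.symm⟩
    rw [hbot] at h2
    have h3 : y = 0 := h2
    rw [h3, mul_zero] at hy
    exact hu₀J (hmemQ (hV.le d hu₀) hy.symm)
  · -- the second alternative: the family is full in degree `d + 1`
    have hfull : HH K (c + 1) (d + 1) ≤ V (d + 1) := by
      intro w hw
      obtain ⟨y, hy⟩ := hsurj (piQ J ℓ w)
      have hyt : y ∈ C ⊔ Submodule.span K {(1 : AQ J ℓ)} := by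
        rw [htop]
        trivial
      obtain ⟨y₁, hy₁, y₂, hy₂, rfl⟩ := Submodule.mem_sup.mp hyt
      obtain ⟨t, rfl⟩ := Submodule.mem_span_singleton.mp hy₂
      obtain ⟨u, hu, hue⟩ := (hC y₁).mp hy₁
      have h2 : piQ J ℓ (w - (ℓ * u + t • h)) = 0 := by
        rw [map_sub, map_add, map_mul, piQ_l, one_mul, map_smul, hue, ← hy, mul_add, mul_smul_comm, mul_one, sub_self]
      have h3 : (ℓ * u + t • h).IsHomogeneous (d + 1) := by
        have h4 : (ℓ * u).IsHomogeneous (d + 1) := by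
          have := IsHomogeneous.mul hlh (hV.le d hu)
          rwa [add_comm 1 d] at this
        exact IsHomogeneous.add h4 (Submodule.smul_mem (HH K (c + 1) (d + 1)) t hhh)
      have h4 := hmemQ (IsHomogeneous.sub hw h3) h2
      have h5 : w = (ℓ * u + t • h) + (w - (ℓ * u + t • h)) := by ring
      rw [h5]
      refine Submodule.add_mem _ (Submodule.add_mem _ (hV.lin_mul b hu) (Submodule.smul_mem _ _ hhV)) ?_
      exact hGV _ (Submodule.mem_inf.mpr ⟨h4, IsHomogeneous.sub hw h3⟩)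
    have h2 := finrank_le hfull (hV.le (d + 1))
    have h3 := card_out_top ha1' (d := d) (by omega)
    omega
  · -- the third alternative contradicts the nondegeneracy
    obtain ⟨w₀, hw₀, rfl⟩ := rep_deg (D := d + 1) hlh hD y
    have hw₀J : w₀ ∉ J := fun h2 => hy0 (piQ_of_mem h2)
    have hwJ : h * w₀ ∉ J := fun h2 => hw₀J (hhN _ h2)
    obtain ⟨b', hb'⟩ := nondeg (D := d) hlh hlN hJ hM1 hM2 hMJ hMl _ _ (IsHomogeneous.mul hhh hw₀) hwJ
    apply hb'
    obtain ⟨u, hu, hue⟩ := (hC _).mp (hyb b')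
    refine Submodule.mem_map.mpr ⟨u, hV.le d hu, ?_⟩
    show piQ J ℓ u = _
    rw [hue, map_mul]
    ring

end Gain

section Step

variable {a : Fin (c + 1) → ℕ}

/-- The elements of the shadow with a positive last exponent inject into the set. -/
lemma shd_part {d : ℕ} {L : Finset (Fin (c + 1) → ℕ)} (hL : IsInit L (outN (eT (aI a) (c + 1)) d))
    {R : Finset (Fin (c + 1) → ℕ)} (hR : R ⊆ shd (eF a) L) (hpos : ∀ w ∈ R, 0 < w (Fin.last c)) :
    R.card ≤ L.card := by
  refine Finset.card_le_card_of_injOn (dec (Fin.last c)) ?_ ?_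
  · intro w hw
    have hw' := Finset.mem_coe.mp hw
    have hp := hpos w hw'
    obtain ⟨⟨t, ht, i, rfl⟩, h2⟩ := mem_shd.mp (hR hw')
    refine Finset.mem_coe.mpr ?_
    by_cases hi : i = Fin.last c
    · subst hi
      rw [dec_bump]
      exact ht
    · have h3 := (lt_eF_iff.mp h2).1
      have hbox : bump i t ∈ outN (eT (aI a) (c + 1)) (d + 1) := by
        refine mem_box.mpr ⟨?_, h3⟩
        rw [sum_bump, (mem_box.mp (hL.sub ht)).1]
      refine hL.up t ht _ (dec_box hbox hp) ⟨i, ?_, fun j hj => ?_⟩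
      · rw [dec_ne _ hi, bump_same]
        omega
      · have hj1 : j ≠ Fin.last c := fun h => by
          subst h
          exact absurd hj (not_lt.mpr (Fin.le_last i))
        rw [dec_ne _ hj1, bump_ne _ hj.ne]
  · intro w hw v hv h
    have h1 := bump_dec (hpos w (Finset.mem_coe.mp hw))
    have h2 := bump_dec (hpos v (Finset.mem_coe.mp hv))
    rw [← h1, ← h2, h]

/-- At the boundary of the stable range the shadow of an initial segment has at most one more element. -/
lemma shd_stable2 {d : ℕ} (hS : ∑ j : Fin c, (aI a j - 1) ≤ d + 1) {L : Finset (Fin (c + 1) → ℕ)}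
    (hL : IsInit L (outN (eT (aI a) (c + 1)) d)) : (shd (eF a) L).card ≤ L.card + 1 := by
  classical
  have h1 := Finset.card_filter_add_card_filter_not (s := shd (eF a) L) (fun w => 0 < w (Fin.last c))
  have h2 := shd_part hL (R := (shd (eF a) L).filter (fun w => 0 < w (Fin.last c))) (Finset.filter_subset _ _)
    fun w hw => (Finset.mem_filter.mp hw).2
  have h3 : ((shd (eF a) L).filter (fun w => ¬ 0 < w (Fin.last c))).card ≤ 1 := by
    rw [Finset.card_le_one]
    intro w hw v hv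
    have key : ∀ w ∈ (shd (eF a) L).filter (fun w => ¬ 0 < w (Fin.last c)),
        ∀ j : Fin c, w j.castSucc = aI a j - 1 := by
      intro w hw j
      obtain ⟨hw1, hw2⟩ := Finset.mem_filter.mp hw
      obtain ⟨⟨t, ht, i, rfl⟩, h4⟩ := mem_shd.mp hw1
      have h5 := (mem_box.mp (hL.sub ht)).1
      have h6 : ∑ k, bump i t k = d + 1 := by rw [sum_bump, h5]
      rw [Fin.sum_univ_castSucc] at h6
      have h7 : ∀ k, bump i t k < a k := fun k => by
        have := h4 k
        simpa [eF] using this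
      have h8 : bump i t (Fin.last c) = 0 := by omega
      rw [h8, add_zero] at h6
      have h9 : ∀ k ∈ Finset.univ, bump i t (Fin.castSucc k) ≤ aI a k - 1 := fun k _ => by
        have := h7 k.castSucc
        simp only [aI]
        omega
      have h10 := Finset.sum_le_sum h9
      have h11 : ∑ k, (aI a k - 1) = ∑ k, bump i t (Fin.castSucc k) := by omega
      exact (((Finset.sum_eq_sum_iff_of_le h9).mp h11.symm) j (Finset.mem_univ j))
    have hlast : ∀ w ∈ (shd (eF a) L).filter (fun w => ¬ 0 < w (Fin.last c)), w (Fin.last c) = 0 := by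
      intro w hw
      have := (Finset.mem_filter.mp hw).2
      omega
    funext i
    induction i using Fin.lastCases with
    | last => rw [hlast w hw, hlast v hv]
    | cast j => rw [key w hw j, key v hv j]
  omega

/-- The critical degree, up to the boundary of the stable range. -/
lemma crit_step2 [Infinite K] (hc : 2 ≤ c) {f : Fin (c + 1) → MvPolynomial (Fin (c + 1)) K}
    (hf : ∀ i, (f i).IsHomogeneous (a i)) (ha2 : ∀ i, 2 ≤ a i) (hS : ∑ j : Fin c, (aI a j - 1) = a (Fin.last c))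
    (hreg : Reg f) {V : ℕ → Submodule K (MvPolynomial (Fin (c + 1)) K)} (hV : IsLin V)
    (hmem : ∀ i, f i ∈ V (a i)) {d : ℕ} (hd : d + 1 = a (Fin.last c))
    (hP1 : finrank K (HH K (c + 1) (d + 1)) ≤ finrank K (V (d + 1)) + (outN (eF a) (d + 1)).card)
    (hE2 : shd (eT (aI a) (c + 1)) (seg (outN (eT (aI a) (c + 1)) d) (qV (eT (aI a) (c + 1)) V d))
      ⊆ seg (outN (eT (aI a) (c + 1)) (d + 1)) (qV (eT (aI a) (c + 1)) V (d + 1))) :
    shd (eF a) (seg (outN (eF a) d) (qV (eF a) V d)) ⊆ seg (outN (eF a) (d + 1)) (qV (eF a) V (d + 1)) := by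
  have ha1 : ∀ i, 1 ≤ a i := fun i => by
    have := ha2 i
    omega
  have hdA : d < a (Fin.last c) := by omega
  rw [qV_low hdA, out_low hdA]
  set q := qV (eT (aI a) (c + 1)) V d with hq
  set L := seg (outN (eT (aI a) (c + 1)) d) q with hL
  have hLi : IsInit L (outN (eT (aI a) (c + 1)) d) := isInit_seg _ _
  have hLsub : L ⊆ outN (eF a) d := by
    rw [out_low hdA]
    exact hLi.sub
  have hinit : IsInit (shd (eF a) L) (outN (eF a) (d + 1)) := by
    have h1 : IsInit L (outN (eF a) d) := by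
      rw [out_low hdA]
      exact hLi
    exact h1.shd
  rw [isInit_of_seg_card hinit]
  refine seg_mono _ ?_
  have hcard := card_out_A (a := a) ha1
  rw [← hd] at hcard
  have hq' : qV (eF a) V (d + 1) + 1 = qV (eT (aI a) (c + 1)) V (d + 1) := by
    simp only [qV]
    omega
  by_cases hlt : q < (outN (eT (aI a) (c + 1)) d).card
  · have h3 : L.card ≤ q := by
      rw [hL, card_seg]
      exact min_le_left _ _
    by_cases hq0 : q = 0
    · have h4 : L.card = 0 := by omega
      rw [Finset.card_eq_zero] at h4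
      have h5 : shd (eF a) L = ∅ := by
        rw [Finset.eq_empty_iff_forall_notMem]
        intro w hw
        obtain ⟨⟨t, ht, _⟩, _⟩ := mem_shd.mp hw
        rw [h4] at ht
        exact absurd ht (Finset.notMem_empty t)
      rw [h5, Finset.card_empty]
      omega
    · have h1 := crit_gain2 hc hf ha2 hreg hS hV hmem hd (by omega) hlt
      have h2 := shd_stable2 (a := a) (d := d) (by omega) hLi
      omega
  · have hLall : outN (eT (aI a) (c + 1)) d ⊆ L := by
      intro t ht
      refine Finset.mem_filter.mpr ⟨ht, ?_⟩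
      have h5 : rk (outN (eT (aI a) (c + 1)) d) t < (outN (eT (aI a) (c + 1)) d).card := by
        refine Finset.card_lt_card ⟨Finset.filter_subset _ _, fun h6 => ?_⟩
        exact lexG_irrefl t (Finset.mem_filter.mp (h6 ht)).2
      omega
    have hE3 : outN (eT (aI a) (c + 1)) (d + 1) ⊆ seg (outN (eT (aI a) (c + 1)) (d + 1)) (qV (eT (aI a) (c + 1)) V (d + 1)) := by
      intro w hw
      apply hE2
      obtain ⟨h6, h7⟩ := mem_box.mp hw
      have hex : ∃ i, 0 < w i := by
        by_contra hcon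
        push Not at hcon
        have : ∑ i, w i = 0 := Finset.sum_eq_zero fun i _ => by
          have := hcon i
          omega
        omega
      obtain ⟨i, hi⟩ := hex
      exact mem_shd.mpr ⟨⟨dec i w, hLall (dec_box hw hi), i, (bump_dec hi).symm⟩, h7⟩
    have h8 := Finset.card_le_card hE3
    rw [card_seg] at h8
    have h9 := Finset.card_le_card (shd_sub hLsub (e := eF a))
    have h10 : min (qV (eT (aI a) (c + 1)) V (d + 1)) (outN (eT (aI a) (c + 1)) (d + 1)).card
        ≤ qV (eT (aI a) (c + 1)) V (d + 1) := min_le_left _ _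
    omega

/-- The induction on the number of forms in as many variables as forms, up to the boundary. -/
theorem EghAt_top2 [Infinite K] (hc : 2 ≤ c) (ha2 : ∀ i, 2 ≤ a i) (hS : ∑ j : Fin c, (aI a j - 1) ≤ a (Fin.last c))
    (IH : EghAt K c (c + 1) (aI a)) : EghAt K (c + 1) (c + 1) a := by
  have ha1 : ∀ i, 1 ≤ a i := fun i => by
    have := ha2 i
    omega
  rcases hS.lt_or_eq with hlt | heq
  · exact EghAt_top ha1 hlt IH
  intro f hf hreg V hV hmem d
  rw [eT_self]
  have hFV : ∀ j, Fd f (c + 1) j ≤ V j := fun j u hu =>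
    mem_of_fam hV (a := a) (fun i _ => hmem i) (mem_Fd.mp hu).1 (mem_Fd.mp hu).2
  have hhilb : ∀ j, finrank K (Fd f (c + 1) j) + (outN (eF a) j).card = finrank K (HH K (c + 1) j) := by
    intro j
    have := hilb hf ha1 hreg le_rfl (c + 1) le_rfl j
    rwa [eK_self, eT_self] at this
  have hP0 : ∀ j, finrank K (Fd f (c + 1) j) ≤ finrank K (V j) := fun j =>
    finrank_le (hFV j) (hV.le j)
  have hP1 : ∀ j, finrank K (HH K (c + 1) j) ≤ finrank K (V j) + (outN (eF a) j).card := by
    intro j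
    have h1 := hP0 j
    have h2 := hhilb j
    omega
  refine ⟨hP1 d, ?_⟩
  have hf' : ∀ i, (fInit f i).IsHomogeneous (aI a i) := fun i => hf i.castSucc
  have H' := IH (fInit f) hf' hreg.init V hV (fun i => hmem i.castSucc) d
  rcases lt_trichotomy (d + 1) (a (Fin.last c)) with h | h | h
  · rw [qV_low (by omega), qV_low h, out_low (by omega), out_low h,
      shd_low (by exact seg_subset _ _) h]
    exact H'.2
  · exact crit_step2 hc hf ha2 heq hreg hV hmem h (hP1 _) H'.2
  · exact high_step hf ha1 heq.le hreg IH hV hmem (by omega) hP0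

end Step

end Vale.Agent.Lib.P200.N
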