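import Mathlib

namespace Vale.Agent.Lib.P200.N

open MvPolynomial Module

/-- The exponent vector `s` is lexicographically greater than `t`. -/
def lexG {n : ℕ} (s t : Fin n → ℕ) : Prop := ∃ i, t i < s i ∧ ∀ j, j < i → s j = t j

instance {n : ℕ} : DecidableRel (lexG (n := n)) := fun s t => by
  unfold lexG
  infer_instance

/-- The exponent vectors of degree `d` that are strictly below `e` in all entries: the monomials of
degree `d` outside `P`; an entry `⊤` of `e` stands for a variable without a power in `P`. -/
noncomputable def outN {n : ℕ} (e : Fin n → ℕ∞) (d : ℕ) : Finset (Fin n → ℕ) :=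
  (Finset.piAntidiag Finset.univ d).filter (fun t => ∀ i, (t i : ℕ∞) < e i)

/-- The number of elements of `outN e d` lexicographically greater than `t`. -/
noncomputable def rankN {n : ℕ} (e : Fin n → ℕ∞) (d : ℕ) (t : Fin n → ℕ) : ℕ :=
  ((outN e d).filter (fun s => lexG s t)).card

/-- The monomial with exponent vector `t`. -/
noncomputable def monN (K : Type*) [Field K] {n : ℕ} (t : Fin n → ℕ) : MvPolynomial (Fin n) K :=
  ∏ i, X i ^ t i

/-- The degree `d` part of an ideal. -/
noncomputable def degPartN {K : Type*} [Field K] {n : ℕ} (I : Ideal (MvPolynomial (Fin n) K)) (d : ℕ) :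
    Submodule K (MvPolynomial (Fin n) K) :=
  I.restrictScalars K ⊓ homogeneousSubmodule (Fin n) K d

/-- The degree `d` part of the monomial ideal `P`: the span of the monomials of degree `d` with some
exponent reaching the matching entry of `e`. -/
noncomputable def PdN (K : Type*) [Field K] {n : ℕ} (e : Fin n → ℕ∞) (d : ℕ) :
    Submodule K (MvPolynomial (Fin n) K) :=
  Submodule.span K (monN K '' {t : Fin n → ℕ | ∑ i, t i = d ∧ ∃ i, e i ≤ (t i : ℕ∞)})

/-- The number `q_d = dim I_d - dim P_d`. -/
noncomputable def qN {K : Type*} [Field K] {n : ℕ} (e : Fin n → ℕ∞)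
    (I : Ideal (MvPolynomial (Fin n) K)) (d : ℕ) : ℕ :=
  finrank K (degPartN I d) - finrank K (PdN K e d)

/-- The space `J_d`: the span of `P_d` and of the `q_d` lexicographically greatest monomials of degree
`d` outside `P`. -/
noncomputable def JN {K : Type*} [Field K] {n : ℕ} (e : Fin n → ℕ∞)
    (I : Ideal (MvPolynomial (Fin n) K)) (d : ℕ) : Submodule K (MvPolynomial (Fin n) K) :=
  PdN K e d ⊔ Submodule.span K
    (monN K '' {t : Fin n → ℕ | t ∈ outN e d ∧ rankN e d t < qN e I d})

end Vale.Agent.Lib.P200.N
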