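import Vale.Agent.Lib.P200.N.Mon

namespace Vale.Agent.Lib.P200.N

open MvPolynomial Module

universe u

variable {K L : Type u} [Field K] [Field L] [Algebra K L] {n c : ℕ}

/-- The extension of scalars on polynomials. -/
noncomputable abbrev phi (K L : Type u) [Field K] [Field L] [Algebra K L] (n : ℕ) :
    MvPolynomial (Fin n) K →+* MvPolynomial (Fin n) L :=
  MvPolynomial.map (algebraMap K L)

/-- A functional on `L` applied to all the coefficients of a polynomial. -/
noncomputable def Lam (lam : L →ₗ[K] K) : MvPolynomial (Fin n) L →ₗ[K] MvPolynomial (Fin n) K where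
  toFun u := ∑ m ∈ u.support, monomial m (lam (coeff m u))
  map_add' u v := by
    classical
    ext m
    simp only [coeff_add, coeff_sum, coeff_monomial, Finset.sum_ite_eq', MvPolynomial.mem_support_iff]
    by_cases h1 : coeff m u = 0 <;> by_cases h2 : coeff m v = 0 <;> by_cases h3 : coeff m u + coeff m v = 0 <;>
      simp_all
    · rw [← map_add, h3, map_zero]
  map_smul' c u := by
    classical
    ext m
    simp only [coeff_smul, coeff_sum, coeff_monomial, Finset.sum_ite_eq', MvPolynomial.mem_support_iff,
      RingHom.id_apply, smul_eq_mul, ne_eq]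
    by_cases h1 : coeff m u = 0
    · simp [h1]
    · by_cases hc : c = 0
      · simp [hc]
      · have h2 : c • coeff m u ≠ 0 := smul_ne_zero hc h1
        simp [h1, h2]

lemma coeff_Lam (lam : L →ₗ[K] K) (u : MvPolynomial (Fin n) L) (m : Fin n →₀ ℕ) :
    coeff m (Lam lam u) = lam (coeff m u) := by
  classical
  show coeff m (∑ n ∈ u.support, monomial n (lam (coeff n u))) = _
  simp only [coeff_sum, coeff_monomial, Finset.sum_ite_eq', MvPolynomial.mem_support_iff]
  by_cases h : coeff m u = 0
  · simp [h]
  · simp [h]

lemma lam_algebraMap_mul (lam : L →ₗ[K] K) (c : K) (y : L) :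
    lam (algebraMap K L c * y) = c * lam y := by
  rw [← Algebra.smul_def, map_smul, smul_eq_mul]

lemma Lam_phi_mul (lam : L →ₗ[K] K) (g : MvPolynomial (Fin n) K) (u : MvPolynomial (Fin n) L) :
    Lam lam (phi K L n g * u) = g * Lam lam u := by
  ext m
  rw [coeff_Lam, coeff_mul, coeff_mul, map_sum]
  refine Finset.sum_congr rfl fun x _ => ?_
  rw [coeff_map, lam_algebraMap_mul, coeff_Lam]

lemma Lam_C_mul (lam : L →ₗ[K] K) (c : L) (g : MvPolynomial (Fin n) K) :
    Lam lam (C c * phi K L n g) = lam c • g := by
  ext m
  rw [coeff_Lam, coeff_C_mul, coeff_map, mul_comm, lam_algebraMap_mul, coeff_smul, smul_eq_mul,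
    mul_comm]

/-- Expansion of a polynomial over `L` in a basis of `L` over `K`. -/
lemma expansion (u : MvPolynomial (Fin n) L) :
    ∃ J : Finset (Basis.ofVectorSpaceIndex K L),
      u = ∑ j ∈ J, C (Basis.ofVectorSpace K L j) *
        phi K L n (Lam ((Basis.ofVectorSpace K L).coord j) u) := by
  classical
  set B := Basis.ofVectorSpace K L with hB
  refine ⟨u.support.biUnion (fun m => (B.repr (coeff m u)).support), ?_⟩
  ext m
  rw [coeff_sum]
  simp only [coeff_C_mul, coeff_map, coeff_Lam, Basis.coord_apply]
  have h1 : (B.repr (coeff m u)).support ⊆ u.support.biUnion (fun m => (B.repr (coeff m u)).support) := by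
    intro j hj
    have hm : m ∈ u.support := by
      rw [MvPolynomial.mem_support_iff]
      intro h0
      rw [h0, map_zero] at hj
      simp at hj
    exact Finset.mem_biUnion.mpr ⟨m, hm, hj⟩
  have h2 := B.linearCombination_repr (coeff m u)
  rw [Finsupp.linearCombination_apply, Finsupp.sum_of_support_subset _ h1 _ (by simp)] at h2
  conv_lhs => rw [← h2]
  refine Finset.sum_congr rfl fun j _ => ?_
  rw [Algebra.smul_def, mul_comm]

lemma mem_map_of_coords {I : Ideal (MvPolynomial (Fin n) K)} {u : MvPolynomial (Fin n) L}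
    (h : ∀ lam : L →ₗ[K] K, Lam lam u ∈ I) : u ∈ I.map (phi K L n) := by
  obtain ⟨J, hJ⟩ := expansion (K := K) u
  rw [hJ]
  refine Ideal.sum_mem _ fun j _ => ?_
  exact Ideal.mul_mem_left _ _ (Ideal.mem_map_of_mem _ (h _))

lemma ne_zero_of_lam {c : L} (h : ∀ lam : L →ₗ[K] K, lam c = 0) : c = 0 := by
  exact (Module.forall_dual_apply_eq_zero_iff K c).mp h

/-- A coordinate functional maps the extended ideal to the ideal. -/
lemma Lam_mem_of_map (lam : L →ₗ[K] K) {J : Ideal (MvPolynomial (Fin n) K)}
    {u : MvPolynomial (Fin n) L} (h : u ∈ J.map (phi K L n)) : Lam lam u ∈ J := by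
  have key : ∀ c : MvPolynomial (Fin n) L, Lam lam (c * u) ∈ J := by
    refine Submodule.span_induction (p := fun y _ => ∀ c : MvPolynomial (Fin n) L, Lam lam (c * y) ∈ J)
      ?_ ?_ ?_ ?_ h
    · rintro _ ⟨s, hs, rfl⟩ c
      rw [mul_comm, Lam_phi_mul]
      exact J.mul_mem_right _ hs
    · intro c
      rw [mul_zero, map_zero]
      exact J.zero_mem
    · intro x y _ _ hx hy c
      rw [mul_add, map_add]
      exact J.add_mem (hx c) (hy c)
    · intro r y _ hy c
      rw [smul_eq_mul, ← mul_assoc]
      exact hy _
  have := key 1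
  rwa [one_mul] at this

/-- Regular sequences stay regular. -/
theorem reg_map {f : Fin c → MvPolynomial (Fin n) K} (hf : Reg f) :
    Reg (fun i => phi K L n (f i)) := by
  intro i u hu
  have e : ∀ s : Set (Fin c), Ideal.span ((fun i => phi K L n (f i)) '' s)
      = (Ideal.span (f '' s)).map (phi K L n) := by
    intro s
    rw [Ideal.map_span, Set.image_image]
  rw [e] at hu ⊢
  refine mem_map_of_coords fun lam => ?_
  refine hf i _ ?_
  rw [← Lam_phi_mul]
  exact Lam_mem_of_map lam hu

/-- The extension of a subspace. -/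
noncomputable def ex (V : Submodule K (MvPolynomial (Fin n) K)) :
    Submodule L (MvPolynomial (Fin n) L) :=
  Submodule.span L (phi K L n '' V)

lemma ex_le_HH {V : Submodule K (MvPolynomial (Fin n) K)} {d : ℕ} (h : V ≤ HH K n d) :
    ex (L := L) V ≤ HH L n d := by
  rw [ex, Submodule.span_le]
  rintro _ ⟨v, hv, rfl⟩
  exact IsHomogeneous.map (h hv) _

/-- The extension preserves dimensions. -/
theorem finrank_ex {V : Submodule K (MvPolynomial (Fin n) K)} {d : ℕ} (h : V ≤ HH K n d) :
    finrank L (ex (L := L) V) = finrank K V := by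
  have := fin_le h
  set k := finrank K V with hk
  let b := Module.finBasisOfFinrankEq K V hk.symm
  let u : Fin k → MvPolynomial (Fin n) K := fun i => (b i).1
  have hli : LinearIndependent K u := b.linearIndependent.map' V.subtype (Submodule.ker_subtype V)
  have hspan : Submodule.span K (Set.range u) = V := by
    have h1 := b.span_eq
    have h2 := congrArg (Submodule.map V.subtype) h1
    rw [Submodule.map_span, Submodule.map_top, Submodule.range_subtype] at h2
    rw [← h2]
    congr 1
    ext x
    simp [u]
  have hli2 : LinearIndependent L (fun i => phi K L n (u i)) := by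
    rw [Fintype.linearIndependent_iff]
    intro c hc i
    refine ne_zero_of_lam (K := K) fun lam => ?_
    have h1 := congrArg (Lam lam) hc
    rw [map_sum, map_zero] at h1
    have h2 : ∑ i, lam (c i) • u i = 0 := by
      rw [← h1]
      refine Finset.sum_congr rfl fun i _ => ?_
      rw [smul_eq_C_mul _ (c i), Lam_C_mul]
    exact (Fintype.linearIndependent_iff.mp hli) (fun i => lam (c i)) h2 i
  have hspan2 : ex (L := L) V = Submodule.span L (Set.range (fun i => phi K L n (u i))) := by
    apply le_antisymm
    · rw [ex, Submodule.span_le]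
      rintro _ ⟨v, hv, rfl⟩
      rw [← hspan] at hv
      have hv' : v ∈ Submodule.span K (Set.range u) := hv
      induction hv' using Submodule.span_induction with
      | mem y hy =>
        obtain ⟨i, rfl⟩ := hy
        exact Submodule.subset_span ⟨i, rfl⟩
      | zero =>
        rw [SetLike.mem_coe, map_zero]
        exact Submodule.zero_mem _
      | add a b ha hb iha ihb =>
        rw [SetLike.mem_coe, map_add]
        exact Submodule.add_mem _ (iha (Submodule.span_mono (by rfl) ha)) (ihb (Submodule.span_mono (by rfl) hb))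
      | smul r a ha iha =>
        rw [SetLike.mem_coe, smul_eq_C_mul, map_mul, map_C, ← smul_eq_C_mul]
        exact Submodule.smul_mem _ _ (iha (Submodule.span_mono (by rfl) ha))
    · rw [Submodule.span_le]
      rintro _ ⟨i, rfl⟩
      refine Submodule.subset_span ⟨u i, ?_, rfl⟩
      rw [← hspan]
      exact Submodule.subset_span ⟨i, rfl⟩
  rw [hspan2, finrank_span_eq_card hli2, Fintype.card_fin]

/-- The extension of a family is a family. -/
lemma ex_isLin {V : ℕ → Submodule K (MvPolynomial (Fin n) K)} (hV : IsLin V) :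
    IsLin (K := L) (fun d => ex (L := L) (V d)) := by
  refine ⟨fun d => ex_le_HH (hV.le d), fun i d u hu => ?_⟩
  have h : ex (L := L) (V d) ≤ (ex (L := L) (V (d + 1))).comap (LinearMap.mulLeft L (X i)) := by
    rw [ex, Submodule.span_le]
    rintro _ ⟨v, hv, rfl⟩
    refine Submodule.subset_span ⟨X i * v, hV.mul i d v hv, ?_⟩
    simp
  exact h hu

lemma phi_mem_ex {V : Submodule K (MvPolynomial (Fin n) K)} {v : MvPolynomial (Fin n) K} (hv : v ∈ V) :
    phi K L n v ∈ ex (L := L) V :=
  Submodule.subset_span ⟨v, hv, rfl⟩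

/-- The statement descends from an extension field. -/
theorem EghAt_descent {a : Fin c → ℕ} (h : EghAt L c n a) : EghAt K c n a := by
  intro f hf hreg V hV hmem d
  have hfr : ∀ d, finrank L (ex (L := L) (V d)) = finrank K (V d) := fun d => finrank_ex (hV.le d)
  have hdim : ∀ d, finrank L (HH L n d) = finrank K (HH K n d) := fun d => by
    rw [finrank_HH, finrank_HH]
  have H := h (fun i => phi K L n (f i)) (fun i => IsHomogeneous.map (hf i) _) (reg_map hreg) _
    (ex_isLin hV) (fun i => phi_mem_ex (hmem i)) d
  have hq : ∀ d, qV (eT a n) (fun d => ex (L := L) (V d)) d = qV (eT a n) V d := by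
    intro d
    rw [qV, qV, hfr, hdim]
  rw [hq, hq, hfr, hdim] at H
  exact H

end Vale.Agent.Lib.P200.N
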