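import Vale.Agent.Lib.P200.N.Socle
import Vale.Agent.Lib.P200.N.Comp

namespace Vale.Agent.Lib.P200.N

open MvPolynomial Module

universe u

variable {K : Type u} [Field K] {n : ℕ}

lemma eT_self (a : Fin n → ℕ) : eT a n = eF a := by
  funext i
  simp [eT, eF, i.isLt]

lemma card_out_zero {a : Fin n → ℕ} (ha : ∀ i, 1 ≤ a i) : (outN (eF a) 0).card = 1 := by
  rw [Finset.card_eq_one]
  refine ⟨fun _ => 0, ?_⟩
  ext t
  rw [mem_eF, Finset.mem_singleton]
  constructor
  · rintro ⟨h1, _⟩
    funext i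
    exact (Finset.sum_eq_zero_iff.mp h1) i (Finset.mem_univ i)
  · rintro rfl
    refine ⟨by simp, fun i => ?_⟩
    have := ha i
    show 0 < a i
    omega

/-- The functional on the top degree. -/
lemma exists_l {f : Fin n → MvPolynomial (Fin n) K} {a : Fin n → ℕ} (hf : ∀ i, (f i).IsHomogeneous (a i))
    (ha : ∀ i, 1 ≤ a i) (hreg : Reg f) :
    ∃ l : MvPolynomial (Fin n) K →ₗ[K] K, ∀ g ∈ HH K n (∑ i, (a i - 1)),
      l g = 0 ↔ g ∈ Fd f n (∑ i, (a i - 1)) := by
  set s := ∑ i, (a i - 1) with hs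
  have h1 := hilb hf ha hreg le_rfl n le_rfl s
  rw [eK_self, eT_self, ← card_cmpl (a := a) (d := 0) (d' := s) (by omega), card_out_zero ha] at h1
  have hfin : Module.Finite K (Fd f n s) := fin_le inf_le_right
  have hlt : Fd f n s < HH K n s := by
    refine lt_of_le_of_ne inf_le_right fun h => ?_
    rw [h] at h1
    omega
  obtain ⟨u0, hu0, hu0'⟩ := SetLike.exists_of_lt hlt
  obtain ⟨l, hl1, hl2⟩ := Submodule.exists_dual_map_eq_bot_of_notMem hu0' inferInstance
  refine ⟨l, fun g hg => ⟨fun h0 => ?_, fun h0 => ?_⟩⟩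
  · by_contra hcon
    have h2 : Fd f n s ⊔ Submodule.span K {g} ≤ HH K n s :=
      sup_le inf_le_right ((Submodule.span_singleton_le_iff_mem _ _).mpr hg)
    have h3 : finrank K (Fd f n s ⊔ Submodule.span K {g} : Submodule K _) = finrank K (HH K n s) := by
      refine le_antisymm (finrank_le h2 (le_refl _)) ?_
      have h4 : Fd f n s < Fd f n s ⊔ Submodule.span K {g} := by
        refine lt_of_le_of_ne le_sup_left fun h5 => hcon ?_
        rw [h5]
        exact Submodule.mem_sup_right (Submodule.mem_span_singleton_self g)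
      have := fin_le h2
      have h6 := Submodule.finrank_lt_finrank_of_lt h4
      omega
    have h7 := Submodule.eq_of_le_of_finrank_eq h2 h3
    have h8 : u0 ∈ Fd f n s ⊔ Submodule.span K {g} := h7 ▸ hu0
    obtain ⟨y, hy, z, hz, rfl⟩ := Submodule.mem_sup.mp h8
    obtain ⟨r, rfl⟩ := Submodule.mem_span_singleton.mp hz
    apply hl1
    have h9 : l y = 0 := by
      have : l y ∈ (Fd f n s).map l := Submodule.mem_map_of_mem hy
      rw [hl2] at this
      exact this
    rw [map_add, map_smul, h9, h0, smul_zero, add_zero]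
  · have : l g ∈ (Fd f n s).map l := Submodule.mem_map_of_mem h0
    rw [hl2] at this
    exact this

/-- The pairing has left kernel the ideal. -/
theorem left_kernel [Infinite K] {f : Fin n → MvPolynomial (Fin n) K} {a : Fin n → ℕ}
    (hf : ∀ i, (f i).IsHomogeneous (a i)) (ha : ∀ i, 1 ≤ a i) (hreg : Reg f)
    {l : MvPolynomial (Fin n) K →ₗ[K] K}
    (hl : ∀ g ∈ HH K n (∑ i, (a i - 1)), l g = 0 ↔ g ∈ Fd f n (∑ i, (a i - 1))) :
    ∀ k d : ℕ, d + k = ∑ i, (a i - 1) → ∀ u ∈ HH K n d, (∀ v ∈ HH K n k, l (u * v) = 0) → u ∈ Fid f n := by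
  intro k
  induction k with
  | zero =>
    intro d hd u hu hv
    rw [add_zero] at hd
    subst hd
    have h1 := hv 1 (isHomogeneous_one _ _)
    rw [mul_one] at h1
    exact (mem_Fd.mp ((hl u hu).mp h1)).1
  | succ k ih =>
    intro d hd u hu hv
    by_contra hcon
    have h1 := socle_deg n f a hf ha hreg u d hu (fun i => ?_) hcon
    · omega
    · refine ih (d + 1) (by omega) _ ?_ fun v hv' => ?_
      · have := IsHomogeneous.mul (isHomogeneous_X K i) hu
        rwa [add_comm 1 d] at this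
      · have h2 := hv (X i * v) (by
          have := IsHomogeneous.mul (isHomogeneous_X K i) hv'
          rwa [add_comm 1 k] at this)
        rw [show X i * u * v = u * (X i * v) by ring]
        exact h2

/-- The subspace of degree `e` forms orthogonal to `V`. -/
noncomputable def perpN (l : MvPolynomial (Fin n) K →ₗ[K] K) (V : Submodule K (MvPolynomial (Fin n) K)) (e : ℕ) :
    Submodule K (MvPolynomial (Fin n) K) where
  carrier := {v | v ∈ HH K n e ∧ ∀ u ∈ V, l (u * v) = 0}
  add_mem' := by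
    rintro x y ⟨hx1, hx2⟩ ⟨hy1, hy2⟩
    refine ⟨Submodule.add_mem _ hx1 hy1, fun u hu => ?_⟩
    rw [mul_add, map_add, hx2 u hu, hy2 u hu, add_zero]
  zero_mem' := ⟨Submodule.zero_mem _, fun u _ => by simp⟩
  smul_mem' := by
    rintro t x ⟨hx1, hx2⟩
    refine ⟨Submodule.smul_mem _ t hx1, fun u hu => ?_⟩
    rw [mul_smul_comm, map_smul, hx2 u hu, smul_zero]

lemma mem_perpN {l : MvPolynomial (Fin n) K →ₗ[K] K} {V : Submodule K (MvPolynomial (Fin n) K)} {e : ℕ}
    {v : MvPolynomial (Fin n) K} : v ∈ perpN l V e ↔ v ∈ HH K n e ∧ ∀ u ∈ V, l (u * v) = 0 := Iff.rfl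

/-- The dimension of the orthogonal complement. -/
theorem finrank_perpN [Infinite K] {f : Fin n → MvPolynomial (Fin n) K} {a : Fin n → ℕ}
    (hf : ∀ i, (f i).IsHomogeneous (a i)) (ha : ∀ i, 1 ≤ a i) (hreg : Reg f)
    {l : MvPolynomial (Fin n) K →ₗ[K] K}
    (hl : ∀ g ∈ HH K n (∑ i, (a i - 1)), l g = 0 ↔ g ∈ Fd f n (∑ i, (a i - 1)))
    {d e : ℕ} (hde : d + e = ∑ i, (a i - 1)) {V : Submodule K (MvPolynomial (Fin n) K)} (hV : V ≤ HH K n d)
    (hFV : Fd f n d ≤ V) :
    finrank K (perpN l V e) + finrank K V = finrank K (HH K n e) + finrank K (Fd f n d) := by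
  have := fin_le hV
  let B : MvPolynomial (Fin n) K →ₗ[K] Dual K (MvPolynomial (Fin n) K) :=
    (LinearMap.mul K (MvPolynomial (Fin n) K)).compr₂ l
  let ι : V →ₗ[K] Dual K (HH K n e) := ((HH K n e).subtype.dualMap).comp (B.comp V.subtype)
  have hι : ∀ (u : V) (y : HH K n e), ι u y = l (u.1 * y.1) := fun _ _ => rfl
  have h1 := LinearMap.finrank_range_add_finrank_ker ι
  have hker : finrank K (LinearMap.ker ι) = finrank K (Fd f n d) := by
    have hk : LinearMap.ker ι = Submodule.comap V.subtype (Fd f n d) := by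
      ext u
      rw [LinearMap.mem_ker, Submodule.mem_comap, Submodule.subtype_apply, mem_Fd]
      constructor
      · intro hu
        refine ⟨left_kernel hf ha hreg hl e d hde u.1 (hV u.2) fun v hv => ?_, hV u.2⟩
        have := LinearMap.congr_fun hu ⟨v, hv⟩
        rwa [hι] at this
      · rintro ⟨hu1, hu2⟩
        ext y
        rw [hι]
        simp only [LinearMap.zero_apply]
        have h2 : u.1 * y.1 ∈ HH K n (∑ i, (a i - 1)) := by
          have := IsHomogeneous.mul hu2 y.2
          rwa [hde] at this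
        exact (hl _ h2).mpr (mem_Fd.mpr ⟨Ideal.mul_mem_right _ _ hu1, h2⟩)
    rw [hk]
    exact (Submodule.comapSubtypeEquivOfLe hFV).finrank_eq
  have h2 := Subspace.finrank_add_finrank_dualCoannihilator_eq (LinearMap.range ι)
  have hco : perpN l V e = (LinearMap.range ι).dualCoannihilator.map (HH K n e).subtype := by
    ext v
    rw [mem_perpN, Submodule.mem_map]
    constructor
    · rintro ⟨hv1, hv2⟩
      refine ⟨⟨v, hv1⟩, ?_, rfl⟩
      rw [Submodule.mem_dualCoannihilator]
      rintro φ ⟨u, rfl⟩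
      rw [hι]
      exact hv2 u.1 u.2
    · rintro ⟨y, hy, rfl⟩
      refine ⟨y.2, fun u hu => ?_⟩
      rw [Submodule.mem_dualCoannihilator] at hy
      have := hy (ι ⟨u, hu⟩) ⟨_, rfl⟩
      rwa [hι] at this
  have h3 : finrank K (perpN l V e) = finrank K (LinearMap.range ι).dualCoannihilator := by
    rw [hco]
    exact Submodule.finrank_map_subtype_eq _ _
  rw [hker] at h1
  omega

end Vale.Agent.Lib.P200.N
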