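import Vale.Agent.Lib.P200.N.CL

namespace Vale.Agent.Lib.P200.N

open Finset

variable {m : ℕ}

/-- The last coordinate has no bound. -/
lemma Fk_out {i : Fin (m + 1)} {e : Fin (m + 1) → ℕ∞} (he : e i = ⊤) {d k : ℕ} (hk : k ≤ d) :
    Fk i (outN e d) k = outN (eD i e) (d - k) := by
  ext s
  rw [mem_Fk]
  constructor
  · intro h
    have := del_box (i := i) h
    rwa [del_ins, ins_same] at this
  · intro h
    have h2 : ((k : ℕ) : ℕ∞) < e i := by
      rw [he]
      exact ENat.coe_lt_top k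
    have := ins_box h h2
    rwa [show k + (d - k) = d by omega] at this

lemma card_out {i : Fin (m + 1)} {e : Fin (m + 1) → ℕ∞} (he : e i = ⊤) (d : ℕ) :
    (outN e d).card = ∑ k ∈ range (d + 1), (outN (eD i e) (d - k)).card := by
  rw [card_sum (i := i) (D := d + 1)]
  · refine sum_congr rfl fun k hk => ?_
    rw [Fk_out he (by have := mem_range.mp hk; omega)]
  · intro t ht
    have := le_of_mem_box (i := i) ht
    omega

section Comb

variable {i : Fin (m + 1)} {e : Fin (m + 1) → ℕ∞}
  {q : ℕ → ℕ → ℕ}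

/-- The monomial set assembled from the fibres. -/
noncomputable def AA (i : Fin (m + 1)) (e : Fin (m + 1) → ℕ∞) (q : ℕ → ℕ → ℕ) (d : ℕ) :
    Finset (Fin (m + 1) → ℕ) :=
  (outN e d).filter (fun t => del i t ∈ seg (outN (eD i e) (d - t i)) (q (t i) (d - t i)))

lemma AA_sub (d : ℕ) : AA i e q d ⊆ outN e d := filter_subset _ _

lemma Fk_AA (he : e i = ⊤) {d k : ℕ} (hk : k ≤ d) :
    Fk i (AA i e q d) k = seg (outN (eD i e) (d - k)) (q k (d - k)) := by
  ext s
  rw [mem_Fk, AA, mem_filter, del_ins, ins_same]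
  constructor
  · exact fun h => h.2
  · intro h
    refine ⟨?_, h⟩
    have h2 : ((k : ℕ) : ℕ∞) < e i := by
      rw [he]
      exact ENat.coe_lt_top k
    have h3 := ins_box (seg_subset _ _ h) h2
    rwa [show k + (d - k) = d by omega] at h3

lemma Fk_AA_empty {d k : ℕ} (hk : d < k) : Fk i (AA i e q d) k = ∅ := by
  rw [← not_nonempty_iff_eq_empty]
  rintro ⟨s, hs⟩
  have h1 := le_of_mem_box (i := i) (AA_sub d (mem_Fk.mp hs))
  rw [ins_same] at h1
  omega

lemma card_AA (he : e i = ⊤) (hle : ∀ k j, q k j ≤ (outN (eD i e) j).card) (d : ℕ) :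
    (AA i e q d).card = ∑ k ∈ range (d + 1), q k (d - k) := by
  rw [card_sum (i := i) (D := d + 1)]
  · refine sum_congr rfl fun k hk => ?_
    rw [Fk_AA he (by have := mem_range.mp hk; omega), card_seg, min_eq_left (hle _ _)]
  · intro t ht
    have := le_of_mem_box (i := i) (AA_sub d ht)
    omega

lemma shd_AA (he : e i = ⊤) (hmono : ∀ k j, q k j ≤ q (k + 1) j)
    (hstep : ∀ k j, shd (eD i e) (seg (outN (eD i e) j) (q k j)) ⊆ seg (outN (eD i e) (j + 1)) (q k (j + 1)))
    (d : ℕ) : shd e (AA i e q d) ⊆ AA i e q (d + 1) := by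
  intro t ht
  have ht2 := shd_sub (AA_sub d) ht
  have hins : ins i (t i) (del i t) = t := ins_del i rfl
  have hs : del i t ∈ Fk i (shd e (AA i e q d)) (t i) := by
    rw [mem_Fk, hins]
    exact ht
  rw [← hins, ← mem_Fk]
  have htd := le_of_mem_box (i := i) ht2
  rw [Fk_AA he htd]
  rcases Fk_shd_cases hs with h | ⟨l, hl, h⟩
  · by_cases hk : t i ≤ d
    · rw [Fk_AA he hk] at h
      have := hstep (t i) (d - t i) h
      rwa [show d + 1 - t i = d - t i + 1 by omega]
    · rw [Fk_AA_empty (by omega)] at h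
      simp only [mem_shd, notMem_empty, false_and, exists_false, and_false] at h
  · have hld : l ≤ d := by omega
    rw [Fk_AA he hld] at h
    rw [hl, show d + 1 - (l + 1) = d - l by omega]
    exact seg_mono _ (hmono _ _) h

end Comb

/-- The combinatorial induction step on the number of variables. -/
theorem step_comb (e : Fin (m + 3) → ℕ∞) (he : Monotone e) (hlast : e (Fin.last _) = ⊤) (q : ℕ → ℕ → ℕ)
    (hle : ∀ k j, q k j ≤ (outN (eD (Fin.last _) e) j).card)
    (hmono : ∀ k j, q k j ≤ q (k + 1) j)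
    (hstep : ∀ k j, shd (eD (Fin.last _) e) (seg (outN (eD (Fin.last _) e) j) (q k j))
      ⊆ seg (outN (eD (Fin.last _) e) (j + 1)) (q k (j + 1))) (d : ℕ) :
    shd e (seg (outN e d) (∑ k ∈ range (d + 1), q k (d - k)))
      ⊆ seg (outN e (d + 1)) (∑ k ∈ range (d + 1 + 1), q k (d + 1 - k)) := by
  have hc1 : (∑ k ∈ range (d + 1), q k (d - k)) ≤ (outN e d).card := by
    rw [card_out hlast d]
    exact sum_le_sum fun k _ => hle _ _
  have h1 := cl_all (m + 1) e he d (AA (Fin.last _) e q d)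
    (seg (outN e d) (∑ k ∈ range (d + 1), q k (d - k))) (AA_sub d) (isInit_seg _ _) (by
      rw [card_seg, min_eq_left hc1, card_AA hlast hle])
  have h2 := card_le_card (shd_AA hlast hmono hstep d)
  rw [card_AA hlast hle] at h2
  have h3 := ((isInit_seg (outN e d) (∑ k ∈ range (d + 1), q k (d - k))).shd (e := e))
  rw [isInit_of_seg_card h3]
  exact seg_mono _ (h1.trans h2)

end Vale.Agent.Lib.P200.N
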