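import Vale.Agent.Lib.P200.N.Chain
import Vale.Agent.Lib.P200.N.Step

namespace Vale.Agent.Lib.P200.N

open MvPolynomial Module

universe u

variable {K : Type u} [Field K] {m n c : ℕ}

/-- The ideal of the first `k` forms. -/
noncomputable def Fid (f : Fin c → MvPolynomial (Fin n) K) (k : ℕ) : Ideal (MvPolynomial (Fin n) K) :=
  Ideal.span (f '' {j | j.val < k})

/-- The sequence is regular. -/
def Reg (f : Fin c → MvPolynomial (Fin n) K) : Prop :=
  ∀ (i : Fin c) (u : MvPolynomial (Fin n) K),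
    f i * u ∈ Ideal.span (f '' {j | j < i}) → u ∈ Ideal.span (f '' {j | j < i})

lemma Fid_zero (f : Fin c → MvPolynomial (Fin n) K) : Fid f 0 = ⊥ := by
  simp [Fid]

lemma Fid_succ (f : Fin c → MvPolynomial (Fin n) K) {k : ℕ} (hk : k < c)
    (u : MvPolynomial (Fin n) K) :
    u ∈ Fid f (k + 1) ↔ ∃ w, u - f ⟨k, hk⟩ * w ∈ Fid f k := by
  have h1 : {j : Fin c | j.val < k + 1} = {⟨k, hk⟩} ∪ {j | j.val < k} := by
    ext j
    simp only [Set.mem_setOf_eq, Set.mem_union, Set.mem_singleton_iff, Fin.ext_iff]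
    omega
  have h2 : Fid f (k + 1) = Ideal.span {f ⟨k, hk⟩} ⊔ Fid f k := by
    rw [Fid, Fid, h1, Set.image_union, Set.image_singleton, Ideal.span_union]
  rw [h2, Ideal.mem_span_singleton_sup]
  constructor
  · rintro ⟨a, b, hb, rfl⟩
    exact ⟨a, by simpa [mul_comm] using hb⟩
  · rintro ⟨w, hw⟩
    exact ⟨w, _, hw, by ring⟩

/-- The extension of the sequence to all indices. -/
noncomputable def gSeq (f : Fin c → MvPolynomial (Fin n) K) (k : ℕ) : MvPolynomial (Fin n) K :=
  if h : k < c then f ⟨k, h⟩ else 0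

lemma gSeq_of_lt (f : Fin c → MvPolynomial (Fin n) K) {k : ℕ} (h : k < c) : gSeq f k = f ⟨k, h⟩ := by
  simp [gSeq, h]

/-- The linear form. -/
theorem exists_good_lin [Infinite K] {f : Fin c → MvPolynomial (Fin (m + 1)) K} (hf : Reg f)
    (hc : c < m + 1) :
    ∃ b : Fin (m + 1) → K, b (Fin.last m) ≠ 0 ∧
      ∀ k ≤ c, ∀ u, linF K (m + 1) b * u ∈ Fid f k → u ∈ Fid f k := by
  refine exists_linear (g := gSeq f) (Fid_zero f) ?_ ?_ hc
  · intro k hk u hu
    rw [gSeq_of_lt f hk] at hu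
    exact hf ⟨k, hk⟩ u hu
  · intro k hk u
    rw [gSeq_of_lt f hk]
    exact Fid_succ f hk u

variable {b : Fin (m + 1) → K}

lemma Fid_image (f : Fin c → MvPolynomial (Fin (m + 1)) K) (k : ℕ) :
    Fid (fun i => psi b (f i)) k = (Fid f k).map (psi b) := by
  rw [Fid, Fid, Ideal.map_span, Set.image_image]

lemma lin_mem_image (hb : b (Fin.last m) ≠ 0) {g : MvPolynomial (Fin (m + 1)) K}
    {J : Ideal (MvPolynomial (Fin (m + 1)) K)} {t : MvPolynomial (Fin m) K}
    (h : psi b g * t ∈ J.map (psi b)) :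
    ∃ (u g' w : MvPolynomial (Fin (m + 1)) K), psi b u = t ∧ g' ∈ J ∧ g * u = g' + linF K (m + 1) b * w := by
  obtain ⟨g', hg', heq⟩ := (Ideal.mem_map_iff_of_surjective (psi b) psi_surj).mp h
  have h1 : psi b (g * iota t - g') = 0 := by
    rw [map_sub, map_mul, psi_iota, heq, sub_self]
  obtain ⟨w, hw⟩ := exists_of_psi_eq_zero hb h1
  exact ⟨iota t, g', w, psi_iota t, hg', by rw [← hw]; ring⟩

/-- The images of a regular sequence under the substitution are regular. -/
theorem reg_image (hb : b (Fin.last m) ≠ 0) {f : Fin c → MvPolynomial (Fin (m + 1)) K} (hf : Reg f)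
    (hl : ∀ k ≤ c, ∀ u, linF K (m + 1) b * u ∈ Fid f k → u ∈ Fid f k) :
    Reg (fun i => psi b (f i)) := by
  intro i t ht
  have ht' : t ∈ Fid (fun i => psi b (f i)) i.val := by
    have h1 : psi b (f i) * t ∈ Fid (fun i => psi b (f i)) i.val := ht
    rw [Fid_image] at h1 ⊢
    obtain ⟨u, g', w, rfl, hg', heq⟩ := lin_mem_image hb h1
    have hfi : f i = f ⟨i.val, i.isLt⟩ := rfl
    have h2 : linF K (m + 1) b * w ∈ Fid f (i.val + 1) := by
      rw [Fid_succ f i.isLt]
      refine ⟨u, ?_⟩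
      rw [← hfi, heq]
      have h3 : linF K (m + 1) b * w - (g' + linF K (m + 1) b * w) = -g' := by ring
      rw [h3]
      exact Ideal.neg_mem_iff _ |>.mpr hg'
    have h3 := hl _ i.isLt w h2
    obtain ⟨y, hy⟩ := (Fid_succ f i.isLt w).mp h3
    rw [← hfi] at hy
    have h4 : f i * (u - linF K (m + 1) b * y) ∈ Fid f i.val := by
      have h5 : f i * (u - linF K (m + 1) b * y) = g' + linF K (m + 1) b * (w - f i * y) := by
        rw [mul_sub, heq]
        ring
      rw [h5]
      exact Ideal.add_mem _ hg' (Ideal.mul_mem_left _ _ hy)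
    have h5 : u - linF K (m + 1) b * y ∈ Fid f i.val := hf i _ h4
    have h6 : psi b u = psi b (u - linF K (m + 1) b * y) := by
      rw [map_sub, map_mul, psi_lin hb, zero_mul, sub_zero]
    rw [h6]
    exact Ideal.mem_map_of_mem _ h5
  exact ht'

/-- The box of the type `a`: the first `c` sides are the entries of `a`, the other ones are
unbounded. -/
def eT (a : Fin c → ℕ) (n : ℕ) : Fin n → ℕ∞ :=
  fun i => if h : i.val < c then ((a ⟨i.val, h⟩ : ℕ) : ℕ∞) else ⊤

lemma eT_mono {a : Fin c → ℕ} (ha : Monotone a) : Monotone (eT a n) := by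
  intro i j hij
  have hij' : i.val ≤ j.val := hij
  unfold eT
  by_cases hj : j.val < c
  · have hi : i.val < c := by omega
    simp only [hi, hj, dif_pos]
    exact_mod_cast ha (show (⟨i.val, hi⟩ : Fin c) ≤ ⟨j.val, hj⟩ from hij')
  · simp only [hj, dif_neg, not_false_eq_true]
    exact le_top

lemma eD_eT (a : Fin c → ℕ) (n : ℕ) : eD (Fin.last n) (eT a (n + 1)) = eT a n := by
  funext i
  simp [eD, eT]

lemma eT_last (a : Fin c → ℕ) {n : ℕ} (h : c ≤ n) : eT a (n + 1) (Fin.last n) = ⊤ := by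
  simp [eT, show ¬ n < c by omega]

/-- The number `q_d` for a family. -/
noncomputable def qV (e : Fin n → ℕ∞) (V : ℕ → Submodule K (MvPolynomial (Fin n) K)) (d : ℕ) : ℕ :=
  finrank K (V d) + (outN e d).card - finrank K (HH K n d)

/-- The statement for all regular sequences and all families. -/
def EghAt (K : Type u) [Field K] (c n : ℕ) (a : Fin c → ℕ) : Prop :=
  ∀ f : Fin c → MvPolynomial (Fin n) K, (∀ i, (f i).IsHomogeneous (a i)) → Reg f →
    ∀ V : ℕ → Submodule K (MvPolynomial (Fin n) K), IsLin V → (∀ i, f i ∈ V (a i)) → ∀ d,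
      finrank K (HH K n d) ≤ finrank K (V d) + (outN (eT a n) d).card ∧
      shd (eT a n) (seg (outN (eT a n) d) (qV (eT a n) V d))
        ⊆ seg (outN (eT a n) (d + 1)) (qV (eT a n) V (d + 1))

/-- The sum of differences. -/
lemma sum_tsub {ι : Type*} (s : Finset ι) (x y : ι → ℕ) (h : ∀ i ∈ s, y i ≤ x i) :
    ∑ i ∈ s, (x i - y i) = ∑ i ∈ s, x i - ∑ i ∈ s, y i := by
  have h1 : ∑ i ∈ s, (x i - y i) + ∑ i ∈ s, y i = ∑ i ∈ s, x i := by
    rw [← Finset.sum_add_distrib]
    exact Finset.sum_congr rfl fun i hi => Nat.sub_add_cancel (h i hi)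
  omega

/-- The induction step on the number of variables. -/
theorem EghAt_step [Infinite K] {a : Fin c → ℕ} (ha : Monotone a) (hc : c ≤ m + 2)
    (IH : EghAt K c (m + 2) a) : EghAt K c (m + 3) a := by
  intro f hf hreg V hV hmem d
  obtain ⟨b, hb, hl⟩ := exists_good_lin hreg (by omega : c < m + 2 + 1)
  have hreg' := reg_image hb hreg hl
  have hf' : ∀ i, (psi b (f i)).IsHomogeneous (a i) := fun i => psi_homog (hf i)
  have hIH := fun (k j : ℕ) => IH _ hf' hreg' _ (WW_isLin hV k) (fun i => mem_WW_of_mem hV (hmem i) k) j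
  set q : ℕ → ℕ → ℕ := fun k j => qV (eT a (m + 2)) (fun j => WW b V k j) j with hq
  have hWT : ∀ k j, finrank K (WW b V k j) ≤ finrank K (HH K (m + 2) j) := fun k j =>
    finrank_le (WW_le k j) (le_refl _)
  have hout : ∀ j, (outN (eT a (m + 3)) j).card
      = ∑ k ∈ Finset.range (j + 1), (outN (eT a (m + 2)) (j - k)).card := by
    intro j
    have := card_out (i := Fin.last (m + 2)) (e := eT a (m + 3)) (eT_last a hc) j
    rwa [eD_eT] at this
  have hdim : ∀ j, finrank K (HH K (m + 3) j)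
      = ∑ k ∈ Finset.range (j + 1), finrank K (HH K (m + 2) (j - k)) :=
    fun j => finrank_HH_chain hb j
  have hVd : ∀ j, finrank K (V j) = ∑ k ∈ Finset.range (j + 1), finrank K (WW b V k (j - k)) :=
    fun j => finrank_V_chain hV hb j
  have hsum : ∀ j, finrank K (V j) + (outN (eT a (m + 3)) j).card
      = ∑ k ∈ Finset.range (j + 1),
        (finrank K (WW b V k (j - k)) + (outN (eT a (m + 2)) (j - k)).card) := by
    intro j
    rw [Finset.sum_add_distrib, hVd, hout]
  have hqsum : ∀ j, qV (eT a (m + 3)) V j = ∑ k ∈ Finset.range (j + 1), q k (j - k) := by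
    intro j
    rw [qV, hsum, hdim, ← sum_tsub]
    · rfl
    · intro k _
      exact (hIH k (j - k)).1
  refine ⟨?_, ?_⟩
  · rw [hsum, hdim]
    exact Finset.sum_le_sum fun k _ => (hIH k (d - k)).1
  · rw [hqsum, hqsum]
    refine step_comb (eT a (m + 3)) (eT_mono ha) (eT_last a hc) q ?_ ?_ ?_ d
    · intro k j
      rw [eD_eT]
      have := hWT k j
      simp only [hq, qV]
      omega
    · intro k j
      have h1 : finrank K (WW b V k j) ≤ finrank K (WW b V (k + 1) j) :=
        finrank_le (WW_mono hV k j) (WW_le _ _)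
      simp only [hq, qV]
      omega
    · intro k j
      rw [eD_eT]
      exact (hIH k j).2

end Vale.Agent.Lib.P200.N
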