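import Vale.Agent.Lib.P200.N.Egh

namespace Vale.Agent.Lib.P200.N

open MvPolynomial Module

universe u

variable {K : Type u} [Field K] {n c : ℕ}

/-- The exponent vector as a finitely supported function. -/
noncomputable def mF (t : Fin n → ℕ) : Fin n →₀ ℕ := Finsupp.equivFunOnFinite.symm t

@[simp] lemma mF_apply (t : Fin n → ℕ) (i : Fin n) : mF t i = t i := rfl

lemma mF_inj : Function.Injective (mF (n := n)) := Finsupp.equivFunOnFinite.symm.injective

lemma monN_eq (t : Fin n → ℕ) : monN K t = monomial (mF t) 1 := by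
  rw [monomial_eq, C_1, one_mul, Finsupp.prod_fintype]
  · rfl
  · intro i
    rw [pow_zero]

lemma degree_mF (t : Fin n → ℕ) : (mF t).degree = ∑ i, t i := by
  rw [Finsupp.degree_eq_sum]
  rfl

lemma monN_mem {t : Fin n → ℕ} {d : ℕ} (h : ∑ i, t i = d) : monN K t ∈ HH K n d := by
  rw [monN_eq]
  exact isHomogeneous_monomial _ (by rw [degree_mF, h])

lemma X_mul_monN (i : Fin n) (t : Fin n → ℕ) : X i * monN K t = monN K (bump i t) := by
  rw [monN, monN, ← Finset.mul_prod_erase Finset.univ _ (Finset.mem_univ i),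
    ← Finset.mul_prod_erase Finset.univ (fun j => (X j : MvPolynomial (Fin n) K) ^ bump i t j)
      (Finset.mem_univ i), bump_same, pow_succ']
  rw [mul_assoc]
  congr 2
  refine Finset.prod_congr rfl fun j hj => ?_
  rw [bump_ne _ (Finset.ne_of_mem_erase hj)]

lemma monN_li : LinearIndependent K (monN K : (Fin n → ℕ) → MvPolynomial (Fin n) K) := by
  have h := (basisMonomials (Fin n) K).linearIndependent.comp _ (mF_inj (n := n))
  have e : monN K = ⇑(basisMonomials (Fin n) K) ∘ mF := by
    ext1 t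
    rw [monN_eq]
    simp
  rw [e]
  exact h

lemma finrank_span_monN (s : Finset (Fin n → ℕ)) :
    finrank K (Submodule.span K (monN K '' (s : Set (Fin n → ℕ)))) = s.card := by
  have h1 : LinearIndependent K (fun x : s => monN K x.1) :=
    (monN_li (K := K) (n := n)).comp _ Subtype.val_injective
  have h2 := finrank_span_eq_card h1
  have h3 : Set.range (fun x : s => monN K x.1) = monN K '' (s : Set (Fin n → ℕ)) := by
    ext y
    simp
  rw [h3] at h2
  rw [h2]
  simp

/-- The forms of degree `d` are spanned by the monomials of degree `d`. -/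
lemma HH_eq_span (d : ℕ) :
    HH K n d = Submodule.span K (monN K '' ((Finset.piAntidiag Finset.univ d : Finset (Fin n → ℕ)) : Set _)) := by
  apply le_antisymm
  · intro u hu
    rw [u.as_sum]
    refine Submodule.sum_mem _ fun s hs => ?_
    have h1 : s = mF (fun i => s i) := by
      ext i
      rfl
    have hcoeff : coeff s u ≠ 0 := MvPolynomial.mem_support_iff.mp hs
    have h2 : monomial s (coeff s u) = coeff s u • monN K (fun i => s i) := by
      rw [monN_eq, ← h1, smul_monomial, smul_eq_mul, mul_one]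
    rw [h2]
    refine Submodule.smul_mem _ _ (Submodule.subset_span ⟨_, ?_, rfl⟩)
    rw [Finset.mem_coe, Finset.mem_piAntidiag]
    refine ⟨?_, fun i _ => Finset.mem_univ i⟩
    have h3 := hu hcoeff
    rw [weight_one_eq] at h3
    rw [← h3, ← degree_mF, ← h1]
  · rw [Submodule.span_le]
    rintro _ ⟨t, ht, rfl⟩
    exact monN_mem (Finset.mem_piAntidiag.mp (Finset.mem_coe.mp ht)).1

lemma finrank_HH (d : ℕ) :
    finrank K (HH K n d) = (Finset.piAntidiag Finset.univ d : Finset (Fin n → ℕ)).card := by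
  rw [HH_eq_span, finrank_span_monN]

/-- The monomials of degree `d` in `P`. -/
noncomputable def inPN (e : Fin n → ℕ∞) (d : ℕ) : Finset (Fin n → ℕ) :=
  (Finset.piAntidiag Finset.univ d).filter (fun t => ¬ ∀ i, (t i : ℕ∞) < e i)

lemma mem_inPN {e : Fin n → ℕ∞} {d : ℕ} {t : Fin n → ℕ} :
    t ∈ inPN e d ↔ ∑ i, t i = d ∧ ∃ i, e i ≤ (t i : ℕ∞) := by
  simp [inPN, Finset.mem_filter, Finset.mem_piAntidiag]

lemma card_inPN (e : Fin n → ℕ∞) (d : ℕ) :
    (inPN e d).card + (outN e d).card = (Finset.piAntidiag Finset.univ d : Finset (Fin n → ℕ)).card := by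
  rw [add_comm]
  exact Finset.card_filter_add_card_filter_not _

lemma PdN_eq (e : Fin n → ℕ∞) (d : ℕ) :
    PdN K e d = Submodule.span K (monN K '' ((inPN e d : Finset _) : Set (Fin n → ℕ))) := by
  rw [PdN]
  congr 2
  ext t
  simp [mem_inPN]

lemma finrank_PdN (e : Fin n → ℕ∞) (d : ℕ) : finrank K (PdN K e d) = (inPN e d).card := by
  rw [PdN_eq, finrank_span_monN]

lemma X_mul_PdN (e : Fin n → ℕ∞) (i : Fin n) (d : ℕ) : ∀ g ∈ PdN K e d, X i * g ∈ PdN K e (d + 1) := by
  have h : PdN K e d ≤ (PdN K e (d + 1)).comap (LinearMap.mulLeft K (X i)) := by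
    rw [PdN, Submodule.span_le]
    rintro _ ⟨t, ⟨h1, j, h2⟩, rfl⟩
    show X i * monN K t ∈ PdN K e (d + 1)
    rw [X_mul_monN]
    refine Submodule.subset_span ⟨bump i t, ⟨?_, j, ?_⟩, rfl⟩
    · rw [sum_bump, h1]
    · by_cases hj : j = i
      · subst hj
        rw [bump_same]
        exact h2.trans (by exact_mod_cast Nat.le_succ _)
      · rwa [bump_ne _ hj]
  exact fun g hg => h hg

lemma X_mul_JN (e : Fin n → ℕ∞) (I : Ideal (MvPolynomial (Fin n) K)) (i : Fin n) (d : ℕ)
    (hstep : shd e (seg (outN e d) (qN e I d)) ⊆ seg (outN e (d + 1)) (qN e I (d + 1))) :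
    ∀ g ∈ JN e I d, X i * g ∈ JN e I (d + 1) := by
  have h : JN e I d ≤ (JN e I (d + 1)).comap (LinearMap.mulLeft K (X i)) := by
    refine sup_le ?_ ?_
    · intro g hg
      exact Submodule.mem_sup_left (X_mul_PdN e i d g hg)
    · rw [Submodule.span_le]
      rintro _ ⟨t, ⟨h1, h2⟩, rfl⟩
      show X i * monN K t ∈ JN e I (d + 1)
      rw [X_mul_monN]
      have hsum : ∑ j, bump i t j = d + 1 := by
        rw [sum_bump, (mem_box.mp h1).1]
      by_cases hbox : ∀ j, (bump i t j : ℕ∞) < e j
      · have h3 : bump i t ∈ shd e (seg (outN e d) (qN e I d)) :=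
          bump_mem_shd (Finset.mem_filter.mpr ⟨h1, h2⟩) i hbox
        obtain ⟨h4, h5⟩ := Finset.mem_filter.mp (hstep h3)
        exact Submodule.mem_sup_right (Submodule.subset_span ⟨_, ⟨h4, h5⟩, rfl⟩)
      · push Not at hbox
        exact Submodule.mem_sup_left (Submodule.subset_span ⟨_, ⟨hsum, hbox⟩, rfl⟩)
  exact fun g hg => h hg

/-- The sum of the `J_d` is an ideal, given the growth. -/
theorem ideal_of_stepN (e : Fin n → ℕ∞) (I : Ideal (MvPolynomial (Fin n) K))
    (hstep : ∀ d, shd e (seg (outN e d) (qN e I d)) ⊆ seg (outN e (d + 1)) (qN e I (d + 1))) :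
    ∃ 𝔍 : Ideal (MvPolynomial (Fin n) K), ∀ g, g ∈ 𝔍 ↔ g ∈ ⨆ d, JN e I d := by
  let W : Submodule K (MvPolynomial (Fin n) K) := ⨆ d, JN e I d
  have hX : ∀ (i : Fin n), ∀ g ∈ W, X i * g ∈ W := by
    intro i g hg
    induction hg using Submodule.iSup_induction' with
    | mem d x hx =>
      exact Submodule.mem_iSup_of_mem (d + 1) (X_mul_JN e I i d (hstep d) x hx)
    | zero => simp
    | add x y _ _ hx hy =>
      rw [mul_add]
      exact W.add_mem hx hy
  have hall : ∀ p : MvPolynomial (Fin n) K, ∀ g ∈ W, p * g ∈ W := by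
    intro p
    induction p using MvPolynomial.induction_on with
    | C s =>
      intro g hg
      rw [← smul_eq_C_mul]
      exact W.smul_mem s hg
    | add p q hp hq =>
      intro g hg
      rw [add_mul]
      exact W.add_mem (hp g hg) (hq g hg)
    | mul_X p i hp =>
      intro g hg
      rw [mul_assoc]
      exact hp _ (hX i g hg)
  refine ⟨{ carrier := W, add_mem' := W.add_mem, zero_mem' := W.zero_mem,
            smul_mem' := fun p g hg => hall p g hg }, fun g => Iff.rfl⟩

lemma disjoint_partsN (e : Fin n → ℕ∞) (d q : ℕ) : Disjoint (inPN e d) (seg (outN e d) q) := by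
  rw [Finset.disjoint_left]
  intro t h1 h2
  obtain ⟨_, i, h3⟩ := mem_inPN.mp h1
  obtain ⟨_, h4⟩ := mem_box.mp (seg_subset _ _ h2)
  exact absurd (h4 i) (not_lt.mpr h3)

lemma JN_eq (e : Fin n → ℕ∞) (I : Ideal (MvPolynomial (Fin n) K)) (d : ℕ) :
    JN e I d = Submodule.span K (monN K '' ((inPN e d ∪ seg (outN e d) (qN e I d) : Finset _) : Set (Fin n → ℕ))) := by
  rw [Finset.coe_union, Set.image_union, Submodule.span_union, ← PdN_eq]
  have hset : {t : Fin n → ℕ | t ∈ outN e d ∧ rankN e d t < qN e I d}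
      = ((seg (outN e d) (qN e I d) : Finset _) : Set (Fin n → ℕ)) := by
    ext t
    simp only [seg, Finset.coe_filter, Set.mem_setOf_eq]
    rfl
  rw [JN, hset]

/-- The dimensions of `J_d`. -/
lemma finrank_JN (e : Fin n → ℕ∞) {I : Ideal (MvPolynomial (Fin n) K)} {d : ℕ}
    (hF : (inPN e d).card ≤ finrank K (degPartN I d)) :
    finrank K (JN e I d) = finrank K (degPartN I d) := by
  rw [JN_eq, finrank_span_monN, Finset.card_union_of_disjoint (disjoint_partsN _ _ _), card_seg]
  have hq : qN e I d = finrank K (degPartN I d) - (inPN e d).card := by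
    rw [qN, finrank_PdN]
  have hle : finrank K (degPartN I d) ≤ finrank K (HH K n d) :=
    finrank_le (inf_le_right : degPartN I d ≤ HH K n d) (le_refl _)
  rw [finrank_HH] at hle
  have hc := card_inPN e d
  omega

/-- The degree parts of an ideal form a family. -/
lemma isLin_degPart (I : Ideal (MvPolynomial (Fin n) K)) : IsLin (fun d => degPartN I d) := by
  refine ⟨fun d => inf_le_right, fun i d u hu => ?_⟩
  obtain ⟨h1, h2⟩ := Submodule.mem_inf.mp hu
  refine Submodule.mem_inf.mpr ⟨I.mul_mem_left _ h1, ?_⟩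
  have := IsHomogeneous.mul (isHomogeneous_X K i) h2
  rwa [add_comm 1 d] at this

/-- The statement for ideals, from the statement for families. -/
theorem egh_of_EghAt {a : Fin c → ℕ} (h : EghAt K c n a) (f : Fin c → MvPolynomial (Fin n) K)
    (hf : ∀ i, (f i).IsHomogeneous (a i)) (hreg : Reg f)
    (I : Ideal (MvPolynomial (Fin n) K)) (hI : ∀ i, f i ∈ I) :
    (∃ 𝔍 : Ideal (MvPolynomial (Fin n) K), ∀ g, g ∈ 𝔍 ↔ g ∈ ⨆ d, JN (eT a n) I d) ∧
      ∀ d, finrank K (JN (eT a n) I d) = finrank K (degPartN I d) := by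
  have hV := isLin_degPart I
  have hmem : ∀ i, f i ∈ degPartN I (a i) := fun i => Submodule.mem_inf.mpr ⟨hI i, hf i⟩
  have H := h f hf hreg (fun d => degPartN I d) hV hmem
  have hcount : ∀ d, (inPN (eT a n) d).card ≤ finrank K (degPartN I d) := by
    intro d
    have h1 := (H d).1
    rw [finrank_HH] at h1
    have h2 := card_inPN (eT a n) d
    omega
  have hq : ∀ d, qN (eT a n) I d = qV (eT a n) (fun d => degPartN I d) d := by
    intro d
    have h1 := (H d).1
    rw [qN, qV, finrank_PdN, finrank_HH]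
    rw [finrank_HH] at h1
    have h2 := card_inPN (eT a n) d
    omega
  refine ⟨ideal_of_stepN _ I fun d => ?_, fun d => finrank_JN _ (hcount d)⟩
  rw [hq, hq]
  exact (H d).2

end Vale.Agent.Lib.P200.N
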