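import Vale.Agent.Lib.P200.N.Defs

namespace Vale.Agent.Lib.P200.N

open Finset

variable {n : ℕ}

lemma lexG_iff {s t : Fin n → ℕ} : lexG s t ↔ toLex t < toLex s := by
  show _ ↔ ∃ i, (∀ j, j < i → t j = s j) ∧ t i < s i
  constructor
  · rintro ⟨i, h1, h2⟩
    exact ⟨i, fun j hj => (h2 j hj).symm, h1⟩
  · rintro ⟨i, h1, h2⟩
    exact ⟨i, h2, fun j hj => (h1 j hj).symm⟩

lemma lexG_irrefl (t : Fin n → ℕ) : ¬ lexG t t := by
  rw [lexG_iff]
  exact lt_irrefl _

lemma lexG_trans {s t u : Fin n → ℕ} (h1 : lexG s t) (h2 : lexG t u) : lexG s u := by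
  rw [lexG_iff] at *
  exact h2.trans h1

lemma lexG_asymm {s t : Fin n → ℕ} (h1 : lexG s t) : ¬ lexG t s := fun h2 =>
  lexG_irrefl _ (lexG_trans h1 h2)

lemma lexG_total {s t : Fin n → ℕ} (h : s ≠ t) : lexG s t ∨ lexG t s := by
  rw [lexG_iff, lexG_iff]
  rcases lt_trichotomy (toLex t) (toLex s) with h1 | h1 | h1
  · exact Or.inl h1
  · exact absurd (toLex.injective h1).symm h
  · exact Or.inr h1

/-- The number of elements of `B` greater than `t`. -/
def rk (B : Finset (Fin n → ℕ)) (t : Fin n → ℕ) : ℕ := (B.filter (fun s => lexG s t)).card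

/-- The `q` greatest elements of `B`. -/
def seg (B : Finset (Fin n → ℕ)) (q : ℕ) : Finset (Fin n → ℕ) := B.filter (fun t => rk B t < q)

lemma seg_subset (B : Finset (Fin n → ℕ)) (q : ℕ) : seg B q ⊆ B := filter_subset _ _

lemma rk_lt {B : Finset (Fin n → ℕ)} {s t : Fin n → ℕ} (hs : s ∈ B) (h : lexG s t) : rk B s < rk B t := by
  refine card_lt_card ⟨fun u hu => ?_, fun hsub => ?_⟩
  · obtain ⟨h1, h2⟩ := mem_filter.mp hu
    exact mem_filter.mpr ⟨h1, lexG_trans h2 h⟩
  · have := hsub (mem_filter.mpr ⟨hs, h⟩)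
    exact lexG_irrefl _ (mem_filter.mp this).2

lemma card_seg (B : Finset (Fin n → ℕ)) (q : ℕ) : (seg B q).card = min q B.card := by
  induction B using Finset.strongInduction with
  | H B ih =>
    rcases B.eq_empty_or_nonempty with rfl | hne
    · simp [seg]
    obtain ⟨a, ha, hmin⟩ := B.exists_min_image toLex hne
    have hlt : ∀ b ∈ B, b ≠ a → lexG b a := by
      intro b hb hba
      rw [lexG_iff]
      exact lt_of_le_of_ne (hmin b hb) (fun h => hba (toLex.injective h).symm)
    set B' := B.erase a with hB'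
    have hcard : B.card = B'.card + 1 := by
      rw [hB', card_erase_of_mem ha]
      have := card_pos.mpr hne
      omega
    have hrk : ∀ t ∈ B', rk B t = rk B' t := by
      intro t ht
      unfold rk
      congr 1
      ext s
      simp only [mem_filter, hB', mem_erase]
      constructor
      · rintro ⟨h1, h2⟩
        refine ⟨⟨?_, h1⟩, h2⟩
        rintro rfl
        have h3 := hlt t (mem_erase.mp ht).2 (mem_erase.mp ht).1
        exact lexG_asymm h2 h3
      · rintro ⟨⟨_, h1⟩, h2⟩
        exact ⟨h1, h2⟩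
    have hrka : rk B a = B'.card := by
      unfold rk
      congr 1
      ext s
      simp only [mem_filter, hB', mem_erase]
      constructor
      · rintro ⟨h1, h2⟩
        refine ⟨?_, h1⟩
        rintro rfl
        exact lexG_irrefl _ h2
      · rintro ⟨h1, h2⟩
        exact ⟨h2, hlt s h2 h1⟩
    have hseg : seg B q = if B'.card < q then insert a (seg B' q) else seg B' q := by
      ext t
      simp only [seg]
      split_ifs with h
      · simp only [mem_filter, mem_insert]
        constructor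
        · rintro ⟨h1, h2⟩
          by_cases hta : t = a
          · exact Or.inl hta
          · have hB2 : t ∈ B' := mem_erase.mpr ⟨hta, h1⟩
            exact Or.inr ⟨hB2, by rwa [← hrk t hB2]⟩
        · rintro (rfl | ⟨h1, h2⟩)
          · exact ⟨ha, by rwa [hrka]⟩
          · exact ⟨(mem_erase.mp h1).2, by rwa [hrk t h1]⟩
      · simp only [mem_filter]
        constructor
        · rintro ⟨h1, h2⟩
          by_cases hta : t = a
          · subst hta
            rw [hrka] at h2
            exact absurd h2 h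
          · have hB2 : t ∈ B' := mem_erase.mpr ⟨hta, h1⟩
            exact ⟨hB2, by rwa [← hrk t hB2]⟩
        · rintro ⟨h1, h2⟩
          exact ⟨(mem_erase.mp h1).2, by rwa [hrk t h1]⟩
    have hih := ih B' (erase_ssubset ha)
    rw [hseg]
    split_ifs with h
    · rw [card_insert_of_notMem, hih, hcard]
      · omega
      · intro h1
        exact (mem_erase.mp (seg_subset B' q h1)).1 rfl
    · rw [hih, hcard]
      omega

/-- `S` is an initial segment of `B` for the lexicographic order. -/
structure IsInit (S B : Finset (Fin n → ℕ)) : Prop where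
  sub : S ⊆ B
  up : ∀ t ∈ S, ∀ s ∈ B, lexG s t → s ∈ S

lemma isInit_seg (B : Finset (Fin n → ℕ)) (q : ℕ) : IsInit (seg B q) B := by
  refine ⟨seg_subset B q, fun t ht s hs hst => ?_⟩
  obtain ⟨h1, h2⟩ := mem_filter.mp ht
  exact mem_filter.mpr ⟨hs, (rk_lt hs hst).trans h2⟩

lemma IsInit.subset_or {S S' B : Finset (Fin n → ℕ)} (h : IsInit S B) (h' : IsInit S' B) :
    S ⊆ S' ∨ S' ⊆ S := by
  by_contra hcon
  push Not at hcon
  obtain ⟨h1, h2⟩ := hcon
  obtain ⟨u, hu, hu'⟩ := not_subset.mp h1
  obtain ⟨v, hv, hv'⟩ := not_subset.mp h2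
  have huv : u ≠ v := by
    rintro rfl
    exact hu' hv
  rcases lexG_total huv with h3 | h3
  · exact hu' (h'.up v hv u (h.sub hu) h3)
  · exact hv' (h.up u hu v (h'.sub hv) h3)

lemma IsInit.eq_of_card {S S' B : Finset (Fin n → ℕ)} (h : IsInit S B) (h' : IsInit S' B)
    (hc : S.card = S'.card) : S = S' := by
  rcases h.subset_or h' with h1 | h1
  · exact eq_of_subset_of_card_le h1 hc.ge
  · exact (eq_of_subset_of_card_le h1 hc.le).symm

lemma IsInit.card_union {S S' B : Finset (Fin n → ℕ)} (h : IsInit S B) (h' : IsInit S' B) :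
    (S ∪ S').card ≤ max S.card S'.card := by
  rcases h.subset_or h' with h1 | h1
  · rw [union_eq_right.mpr h1]
    exact le_max_right _ _
  · rw [union_eq_left.mpr h1]
    exact le_max_left _ _

lemma isInit_of_seg_card {S B : Finset (Fin n → ℕ)} (h : IsInit S B) : S = seg B S.card := by
  refine h.eq_of_card (isInit_seg B _) ?_
  rw [card_seg, min_eq_left (card_le_card h.sub)]

/-- If `S` is an initial segment, an element is in it if and only if its rank is below the size. -/
lemma IsInit.mem_iff {S B : Finset (Fin n → ℕ)} (h : IsInit S B) {t : Fin n → ℕ} :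
    t ∈ S ↔ t ∈ B ∧ rk B t < S.card := by
  conv_lhs => rw [isInit_of_seg_card h]
  exact mem_filter

lemma seg_mono (B : Finset (Fin n → ℕ)) {q q' : ℕ} (h : q ≤ q') : seg B q ⊆ seg B q' := by
  intro t ht
  obtain ⟨h1, h2⟩ := mem_filter.mp ht
  exact mem_filter.mpr ⟨h1, by omega⟩

/-- The sum of ranks. -/
def mu (B A : Finset (Fin n → ℕ)) : ℕ := ∑ t ∈ A, rk B t

/-- Replacing a set by one of the same size whose new elements are greater than the removed ones
lowers the sum of the ranks. -/
lemma mu_lt_of {B X Y : Finset (Fin n → ℕ)} (hc : X.card = Y.card) (hne : Y ≠ X)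
    (h : ∀ u ∈ Y \ X, ∀ v ∈ X \ Y, rk B u < rk B v) : ∑ t ∈ Y, rk B t < ∑ t ∈ X, rk B t := by
  have hX := sum_sdiff (s₁ := X ∩ Y) (s₂ := X) (f := rk B) inter_subset_left
  have hY := sum_sdiff (s₁ := X ∩ Y) (s₂ := Y) (f := rk B) inter_subset_right
  have e1 : X \ (X ∩ Y) = X \ Y := by
    ext t
    simp only [mem_sdiff, mem_inter, not_and]
    tauto
  have e2 : Y \ (X ∩ Y) = Y \ X := by
    ext t
    simp only [mem_sdiff, mem_inter, not_and]
    tauto
  rw [e1] at hX
  rw [e2] at hY
  have hcd : (Y \ X).card = (X \ Y).card := by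
    have h1 := card_sdiff_add_card_inter X Y
    have h2 := card_sdiff_add_card_inter Y X
    rw [inter_comm] at h2
    omega
  have hne' : (Y \ X).Nonempty := by
    rw [nonempty_iff_ne_empty]
    intro h0
    rw [sdiff_eq_empty_iff_subset] at h0
    exact hne (eq_of_subset_of_card_le h0 hc.le)
  have hne2 : (X \ Y).Nonempty := by
    rw [nonempty_iff_ne_empty]
    intro h0
    have h1 : (Y \ X).card = 0 := by rw [hcd, h0, card_empty]
    rw [card_eq_zero] at h1
    exact hne'.ne_empty h1
  obtain ⟨u0, hu0, hmax⟩ := (Y \ X).exists_max_image (rk B) hne'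
  obtain ⟨v0, hv0, hmin⟩ := (X \ Y).exists_min_image (rk B) hne2
  have h3 : ∑ t ∈ Y \ X, rk B t ≤ (Y \ X).card • rk B u0 := sum_le_card_nsmul _ _ _ hmax
  have h4 : (X \ Y).card • rk B v0 ≤ ∑ t ∈ X \ Y, rk B t := card_nsmul_le_sum _ _ _ hmin
  have h5 := h u0 hu0 v0 hv0
  have h6 : (Y \ X).card • rk B u0 < (X \ Y).card • rk B v0 := by
    rw [hcd, smul_eq_mul, smul_eq_mul]
    exact Nat.mul_lt_mul_of_pos_left h5 (card_pos.mpr hne2)
  omega

end Vale.Agent.Lib.P200.N
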