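import Vale.Agent.Lib.P200.N.Reg

namespace Vale.Agent.Lib.P200.N

open MvPolynomial Module

universe u

variable {K : Type u} [Field K] {m n : ℕ}

/-- The forms of degree `d` in `n` variables. -/
abbrev HH (K : Type u) [Field K] (n d : ℕ) : Submodule K (MvPolynomial (Fin n) K) :=
  homogeneousSubmodule (Fin n) K d

instance HH_finite (n d : ℕ) : Module.Finite K (HH K n d) :=
  Module.Finite.iff_fg.mpr (homogeneousSubmodule_fg (Fin n) K d)

lemma fin_le {d : ℕ} {V : Submodule K (MvPolynomial (Fin n) K)} (h : V ≤ HH K n d) :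
    Module.Finite K V := Submodule.finiteDimensional_of_le h

lemma finrank_le {d : ℕ} {V W : Submodule K (MvPolynomial (Fin n) K)} (h : V ≤ W)
    (hW : W ≤ HH K n d) : finrank K V ≤ finrank K W := by
  have := fin_le hW
  exact Submodule.finrank_mono h

lemma X_mem_HH (i : Fin n) : (X i : MvPolynomial (Fin n) K) ∈ HH K n 1 := isHomogeneous_X K i

lemma linF_mem (b : Fin n → K) : linF K n b ∈ HH K n 1 := by
  refine Submodule.sum_mem _ fun i _ => Submodule.smul_mem _ _ (X_mem_HH i)

lemma weight_one_eq (s : Fin n →₀ ℕ) : Finsupp.weight (1 : Fin n → ℕ) s = s.degree := by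
  rw [Finsupp.degree_eq_weight_one]
  rfl

/-- A polynomial all of whose other homogeneous components vanish is homogeneous. -/
lemma homog_of_components {u : MvPolynomial (Fin n) K} {d : ℕ}
    (h : ∀ j, j ≠ d → homogeneousComponent j u = 0) : u.IsHomogeneous d := by
  intro s hs
  by_contra hne
  have h1 := h (Finsupp.degree s) (by
    intro h2
    exact hne (by rw [weight_one_eq]; exact h2))
  have h2 := coeff_homogeneousComponent (R := K) (φ := u) (n := Finsupp.degree s) s
  rw [h1, coeff_zero, if_pos rfl] at h2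
  exact hs h2.symm

/-- The component of a product with a form of degree one. -/
lemma component_mul {l w : MvPolynomial (Fin n) K} (hl : l.IsHomogeneous 1) (j : ℕ) :
    homogeneousComponent (j + 1) (l * w) = l * homogeneousComponent j w := by
  classical
  have hext : ∀ x : Fin n →₀ ℕ, coeff x l ≠ 0 → x.degree = 1 := by
    intro x hx
    have := hl hx
    rwa [weight_one_eq] at this
  ext s
  rw [coeff_homogeneousComponent, coeff_mul, coeff_mul]
  split_ifs with hs
  · refine Finset.sum_congr rfl fun x hx => ?_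
    have hx' : x.1 + x.2 = s := Finset.HasAntidiagonal.mem_antidiagonal.mp hx
    have hdeg : x.1.degree + x.2.degree = j + 1 := by
      rw [← map_add, hx', hs]
    rw [coeff_homogeneousComponent]
    by_cases h1 : coeff x.1 l = 0
    · simp [h1]
    · have h3 := hext x.1 h1
      have h4 : x.2.degree = j := by omega
      simp [h4]
  · refine (Finset.sum_eq_zero fun x hx => ?_).symm
    have hx' : x.1 + x.2 = s := Finset.HasAntidiagonal.mem_antidiagonal.mp hx
    have hdeg : x.1.degree + x.2.degree = s.degree := by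
      rw [← map_add, hx']
    rw [coeff_homogeneousComponent]
    by_cases h1 : coeff x.1 l = 0
    · simp [h1]
    · have h3 := hext x.1 h1
      have h4 : x.2.degree ≠ j := by omega
      simp [h4]

/-- A cofactor of a form of degree one in a form is a form. -/
lemma homog_of_lin_mul {l w : MvPolynomial (Fin n) K} (hl : l.IsHomogeneous 1) (hl0 : l ≠ 0) {d : ℕ}
    (h : (l * w).IsHomogeneous (d + 1)) : w.IsHomogeneous d := by
  refine homog_of_components fun j hj => ?_
  have h1 := component_mul (w := w) hl j
  rw [homogeneousComponent_of_mem h, if_neg (by omega)] at h1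
  exact (mul_eq_zero.mp h1.symm).resolve_left hl0

/-- The value of the substitution map on the variables. -/
noncomputable def psiVal (b : Fin (m + 1) → K) : Fin (m + 1) → MvPolynomial (Fin m) K :=
  Fin.lastCases (-(b (Fin.last m))⁻¹ • ∑ i, b i.castSucc • X i) X

/-- The substitution of the last variable. -/
noncomputable def psi (b : Fin (m + 1) → K) : MvPolynomial (Fin (m + 1)) K →ₐ[K] MvPolynomial (Fin m) K :=
  aeval (psiVal b)

/-- The inclusion of polynomial rings. -/
noncomputable def iota : MvPolynomial (Fin m) K →ₐ[K] MvPolynomial (Fin (m + 1)) K :=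
  rename Fin.castSucc

variable {b : Fin (m + 1) → K}

@[simp] lemma psi_X_cast (i : Fin m) : psi b (X i.castSucc) = X i := by
  simp [psi, psiVal]

lemma psi_X_last : psi b (X (Fin.last m)) = -(b (Fin.last m))⁻¹ • ∑ i, b i.castSucc • X i := by
  simp [psi, psiVal]

@[simp] lemma psi_iota (t : MvPolynomial (Fin m) K) : psi b (iota t) = t := by
  rw [psi, iota, aeval_rename]
  have h : psiVal b ∘ Fin.castSucc = X := by
    funext i
    simp [psiVal]
  rw [h, aeval_X_left_apply]

lemma psi_surj : Function.Surjective (psi b) := fun t => ⟨iota t, psi_iota t⟩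

lemma linF_split (b : Fin (m + 1) → K) :
    linF K (m + 1) b = ∑ i : Fin m, b i.castSucc • X i.castSucc + b (Fin.last m) • X (Fin.last m) :=
  Fin.sum_univ_castSucc _

lemma psi_lin (hb : b (Fin.last m) ≠ 0) : psi b (linF K (m + 1) b) = 0 := by
  rw [linF_split, map_add, map_sum, map_smul, psi_X_last, smul_smul, mul_neg, mul_inv_cancel₀ hb]
  simp

lemma iota_X_decomp (hb : b (Fin.last m) ≠ 0) (i : Fin (m + 1)) :
    ∃ w, (X i : MvPolynomial (Fin (m + 1)) K) = iota (psi b (X i)) + linF K (m + 1) b * w := by
  induction i using Fin.lastCases with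
  | cast j =>
    refine ⟨0, ?_⟩
    rw [psi_X_cast, mul_zero, add_zero, iota, rename_X]
  | last =>
    refine ⟨C (b (Fin.last m))⁻¹, ?_⟩
    have h1 : iota (psi b (X (Fin.last m)))
        = -(b (Fin.last m))⁻¹ • ∑ i : Fin m, b i.castSucc • (X i.castSucc : MvPolynomial (Fin (m + 1)) K) := by
      rw [psi_X_last, map_smul, map_sum]
      congr 1
      refine Finset.sum_congr rfl fun i _ => ?_
      rw [map_smul, iota, rename_X]
    rw [h1, linF_split, mul_comm, ← smul_eq_C_mul, smul_add, smul_smul, inv_mul_cancel₀ hb, one_smul,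
      neg_smul]
    abel

/-- The decomposition of a polynomial along the substitution. -/
lemma exists_decomp (hb : b (Fin.last m) ≠ 0) (u : MvPolynomial (Fin (m + 1)) K) :
    ∃ w, u = iota (psi b u) + linF K (m + 1) b * w := by
  induction u using MvPolynomial.induction_on with
  | C a =>
    refine ⟨0, ?_⟩
    rw [mul_zero, add_zero, ← algebraMap_eq, AlgHom.commutes, AlgHom.commutes]
  | add p q hp hq =>
    obtain ⟨w1, h1⟩ := hp
    obtain ⟨w2, h2⟩ := hq
    refine ⟨w1 + w2, ?_⟩
    rw [map_add, map_add, mul_add]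
    nth_rw 1 [h1, h2]
    ring
  | mul_X p i hp =>
    obtain ⟨w1, h1⟩ := hp
    obtain ⟨w2, h2⟩ := iota_X_decomp hb i
    refine ⟨w1 * iota (psi b (X i)) + iota (psi b p) * w2 + w1 * (linF K (m + 1) b * w2), ?_⟩
    rw [map_mul, map_mul]
    nth_rw 1 [h1, h2]
    ring

lemma exists_of_psi_eq_zero (hb : b (Fin.last m) ≠ 0) {u : MvPolynomial (Fin (m + 1)) K}
    (h : psi b u = 0) : ∃ w, u = linF K (m + 1) b * w := by
  obtain ⟨w, hw⟩ := exists_decomp hb u
  rw [h, map_zero, zero_add] at hw
  exact ⟨w, hw⟩

lemma psiVal_homog (b : Fin (m + 1) → K) (i : Fin (m + 1)) : (psiVal b i).IsHomogeneous 1 := by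
  induction i using Fin.lastCases with
  | cast j =>
    simpa [psiVal] using isHomogeneous_X K j
  | last =>
    simp only [psiVal, Fin.lastCases_last]
    refine Submodule.smul_mem (HH K m 1) _ (Submodule.sum_mem _ fun i _ =>
      Submodule.smul_mem _ _ (X_mem_HH i))

lemma psi_homog {u : MvPolynomial (Fin (m + 1)) K} {d : ℕ} (h : u.IsHomogeneous d) :
    (psi b u).IsHomogeneous d := by
  have := IsHomogeneous.aeval h (psiVal b) (psiVal_homog b)
  rwa [one_mul] at this

lemma iota_homog {t : MvPolynomial (Fin m) K} {d : ℕ} (h : t.IsHomogeneous d) :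
    (iota t).IsHomogeneous d := IsHomogeneous.rename_isHomogeneous h

lemma linF_ne_zero (hb : b (Fin.last m) ≠ 0) : linF K (m + 1) b ≠ 0 := by
  intro h
  have h1 := congrArg (coeff (Finsupp.single (Fin.last m) 1)) h
  rw [linF_split, coeff_add, coeff_zero, coeff_sum] at h1
  have h2 : ∑ i : Fin m, coeff (Finsupp.single (Fin.last m) 1)
      (b i.castSucc • (X i.castSucc : MvPolynomial (Fin (m + 1)) K)) = 0 := by
    refine Finset.sum_eq_zero fun i _ => ?_
    rw [coeff_smul, coeff_X', if_neg, smul_zero]
    intro h3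
    have h4 := Finsupp.single_left_injective (one_ne_zero) h3
    exact (Fin.castSucc_lt_last i).ne h4
  rw [h2, zero_add, coeff_smul, coeff_X', if_pos rfl, smul_eq_mul, mul_one] at h1
  exact hb h1

/-- The splitting of the dimension of a space of forms along the substitution. -/
theorem finrank_split (hb : b (Fin.last m) ≠ 0) {V : Submodule K (MvPolynomial (Fin (m + 1)) K)} {d : ℕ}
    (hV : V ≤ HH K (m + 1) (d + 1)) :
    finrank K V = finrank K (V.map (psi b).toLinearMap)
      + finrank K ((V.comap (LinearMap.mulLeft K (linF K (m + 1) b))) ⊓ HH K (m + 1) d : Submodule K _) := by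
  have := fin_le hV
  set C := (V.comap (LinearMap.mulLeft K (linF K (m + 1) b))) ⊓ HH K (m + 1) d with hC
  have h1 := LinearMap.finrank_range_add_finrank_ker ((psi b).toLinearMap.domRestrict V)
  rw [LinearMap.range_domRestrict, LinearMap.ker_domRestrict] at h1
  have h2 : finrank K ((LinearMap.ker (psi b).toLinearMap).comap V.subtype)
      = finrank K (V ⊓ LinearMap.ker (psi b).toLinearMap : Submodule K _) := by
    rw [← Submodule.finrank_map_subtype_eq V, Submodule.map_comap_subtype]
  have hinj : Function.Injective (LinearMap.mulLeft K (linF K (m + 1) b)) := by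
    intro x y h
    exact mul_left_cancel₀ (linF_ne_zero hb) h
  have h3 : V ⊓ LinearMap.ker (psi b).toLinearMap = C.map (LinearMap.mulLeft K (linF K (m + 1) b)) := by
    ext u
    simp only [Submodule.mem_inf, LinearMap.mem_ker, Submodule.mem_map, hC, Submodule.mem_comap,
      LinearMap.mulLeft_apply, AlgHom.toLinearMap_apply]
    constructor
    · rintro ⟨h4, h5⟩
      obtain ⟨w, rfl⟩ := exists_of_psi_eq_zero hb h5
      exact ⟨w, ⟨h4, homog_of_lin_mul (linF_mem b) (linF_ne_zero hb) (hV h4)⟩, rfl⟩
    · rintro ⟨w, ⟨h4, _⟩, rfl⟩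
      exact ⟨h4, by rw [map_mul, psi_lin hb, zero_mul]⟩
  have h4 : finrank K (C.map (LinearMap.mulLeft K (linF K (m + 1) b))) = finrank K C :=
    (LinearEquiv.finrank_eq (Submodule.equivMapOfInjective _ hinj C)).symm
  rw [h2, h3, h4] at h1
  exact h1.symm

/-- In degree zero the substitution is injective. -/
theorem finrank_split_zero {V : Submodule K (MvPolynomial (Fin (m + 1)) K)}
    (hV : V ≤ HH K (m + 1) 0) : finrank K V = finrank K (V.map (psi b).toLinearMap) := by
  have := fin_le hV
  have h1 := LinearMap.finrank_range_add_finrank_ker ((psi b).toLinearMap.domRestrict V)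
  rw [LinearMap.range_domRestrict, LinearMap.ker_domRestrict] at h1
  have h2 : finrank K ((LinearMap.ker (psi b).toLinearMap).comap V.subtype)
      = finrank K (V ⊓ LinearMap.ker (psi b).toLinearMap : Submodule K _) := by
    rw [← Submodule.finrank_map_subtype_eq V, Submodule.map_comap_subtype]
  have h3 : V ⊓ LinearMap.ker (psi b).toLinearMap = ⊥ := by
    refine (Submodule.eq_bot_iff _).mpr fun u hu => ?_
    obtain ⟨h4, h5⟩ := Submodule.mem_inf.mp hu
    have h6 : u.totalDegree = 0 := (totalDegree_zero_iff_isHomogeneous _).mpr (hV h4)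
    have h7 := totalDegree_eq_zero_iff_eq_C.mp h6
    have h8 : psi b u = 0 := h5
    rw [h7, ← algebraMap_eq, AlgHom.commutes, algebraMap_eq, C_eq_zero] at h8
    rw [h7, h8, map_zero]
  rw [h2, h3, finrank_bot, add_zero] at h1
  exact h1.symm

end Vale.Agent.Lib.P200.N
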