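import Vale.Agent.Lib.P200.N.Top
import Vale.Agent.Lib.P200.N.Alg

namespace Vale.Agent.Lib.P200.N

open MvPolynomial Module

universe u

variable {K : Type u} [Field K] {n : ℕ}

/-- The ideal that sets the form `l` equal to one. -/
noncomputable def Qd (J : Ideal (MvPolynomial (Fin n) K)) (l : MvPolynomial (Fin n) K) :
    Ideal (MvPolynomial (Fin n) K) := J ⊔ Ideal.span {l - 1}

/-- The quotient ring. -/
abbrev AQ (J : Ideal (MvPolynomial (Fin n) K)) (l : MvPolynomial (Fin n) K) := MvPolynomial (Fin n) K ⧸ Qd J l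

/-- The quotient map. -/
noncomputable abbrev piQ (J : Ideal (MvPolynomial (Fin n) K)) (l : MvPolynomial (Fin n) K) :
    MvPolynomial (Fin n) K →ₐ[K] AQ J l := Ideal.Quotient.mkₐ K (Qd J l)

variable {J : Ideal (MvPolynomial (Fin n) K)} {l : MvPolynomial (Fin n) K}

lemma piQ_eq_zero {p : MvPolynomial (Fin n) K} : piQ J l p = 0 ↔ p ∈ Qd J l := by
  rw [Ideal.Quotient.mkₐ_eq_mk]
  exact Ideal.Quotient.eq_zero_iff_mem

lemma piQ_l : piQ J l l = 1 := by
  have h : piQ J l (l - 1) = 0 := piQ_eq_zero.mpr (Ideal.mem_sup_right (Ideal.mem_span_singleton_self _))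
  rw [map_sub, map_one, sub_eq_zero] at h
  exact h

lemma piQ_of_mem {p : MvPolynomial (Fin n) K} (h : p ∈ J) : piQ J l p = 0 :=
  piQ_eq_zero.mpr (Ideal.mem_sup_left h)

lemma piQ_surj : Function.Surjective (piQ J l) := Ideal.Quotient.mkₐ_surjective K _

/-- A form that vanishes after setting `l` to one lies in `J`. -/
theorem mem_of_Qd (hl : l.IsHomogeneous 1) (hlN : ∀ u, l * u ∈ J → u ∈ J)
    (hJ : ∀ u ∈ J, ∀ d, homogeneousComponent d u ∈ J) {w : MvPolynomial (Fin n) K} {j : ℕ}
    (hw : w.IsHomogeneous j) (hQ : w ∈ Qd J l) : w ∈ J := by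
  obtain ⟨g, hg, y, hy, rfl⟩ := Submodule.mem_sup.mp hQ
  obtain ⟨v, rfl⟩ := Ideal.mem_span_singleton'.mp hy
  have hv : v * (l - 1) = l * v - v := by ring
  rw [hv] at hw ⊢
  set c : ℕ → MvPolynomial (Fin n) K := fun m => homogeneousComponent m v with hc
  have hcg : ∀ m, homogeneousComponent m g ∈ J := hJ g hg
  have e0 : homogeneousComponent 0 (g + (l * v - v)) = homogeneousComponent 0 g - c 0 := by
    rw [map_add, map_sub, component_mul_low hl (by norm_num), zero_sub, sub_eq_add_neg]
  have e1 : ∀ m, homogeneousComponent (m + 1) (g + (l * v - v)) = homogeneousComponent (m + 1) g + l * c m - c (m + 1) := by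
    intro m
    rw [map_add, map_sub, component_mul_form hl m, add_sub_assoc]
  have hzero : ∀ m, m ≠ j → homogeneousComponent m (g + (l * v - v)) = 0 := by
    intro m hm
    rw [homogeneousComponent_of_mem hw, if_neg hm]
  -- below the degree
  have hlow : ∀ m, m < j → c m ∈ J := by
    intro m
    induction m with
    | zero =>
      intro h
      have h1 := hzero 0 (by omega)
      rw [e0, sub_eq_zero] at h1
      rw [← h1]
      exact hcg 0
    | succ m ih =>
      intro h
      have h1 := hzero (m + 1) (by omega)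
      rw [e1, sub_eq_zero] at h1
      rw [← h1]
      exact Submodule.add_mem _ (hcg _) (J.mul_mem_left _ (ih (by omega)))
  -- above the degree
  have hhigh : ∀ r m, m + r = max j (totalDegree v) + 1 → j ≤ m → c m ∈ J := by
    intro r
    induction r with
    | zero =>
      intro m hm _
      have : totalDegree v < m := by
        have := le_max_right j (totalDegree v)
        omega
      have h0 : c m = 0 := homogeneousComponent_eq_zero _ _ this
      rw [h0]
      exact Submodule.zero_mem _
    | succ r ih =>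
      intro m hm hjm
      have h1 := ih (m + 1) (by omega) (by omega)
      have h2 := hzero (m + 1) (by omega)
      rw [e1] at h2
      apply hlN
      have h3 : l * c m = c (m + 1) - homogeneousComponent (m + 1) g := by
        rw [sub_eq_zero] at h2
        rw [← h2]
        ring
      rw [h3]
      exact Submodule.sub_mem _ h1 (hcg _)
  have hj : c j ∈ J := hhigh (max j (totalDegree v) + 1 - j) j (by
    have := le_max_left j (totalDegree v)
    omega) le_rfl
  have hw' : g + (l * v - v) = homogeneousComponent j (g + (l * v - v)) := by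
    rw [homogeneousComponent_of_mem hw, if_pos rfl]
  rw [hw']
  cases j with
  | zero =>
    rw [e0]
    exact Submodule.sub_mem _ (hcg 0) hj
  | succ j =>
    rw [e1]
    exact Submodule.sub_mem _ (Submodule.add_mem _ (hcg _) (J.mul_mem_left _ (hlow j (by omega)))) hj

/-- Subspaces of the quotient stable under the variables are everything. -/
lemma gen_top {D : Submodule K (AQ J l)} (h1 : (1 : AQ J l) ∈ D)
    (hX : ∀ (i : Fin n), ∀ a ∈ D, piQ J l (X i) * a ∈ D) : D = ⊤ := by
  have key : ∀ (p : MvPolynomial (Fin n) K), ∀ a ∈ D, piQ J l p * a ∈ D := by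
    intro p
    induction p using MvPolynomial.induction_on with
    | C s =>
      intro a ha
      have e : piQ J l (C s) = algebraMap K (AQ J l) s := (piQ J l).commutes s
      rw [e, ← Algebra.smul_def]
      exact Submodule.smul_mem _ _ ha
    | add p q hp hq =>
      intro a ha
      rw [map_add, add_mul]
      exact Submodule.add_mem _ (hp a ha) (hq a ha)
    | mul_X p i hp =>
      intro a ha
      rw [map_mul, mul_assoc]
      exact hp _ (hX i a ha)
  rw [eq_top_iff]
  intro b _
  obtain ⟨p, rfl⟩ := piQ_surj (J := J) (l := l) b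
  have := key p 1 h1
  rwa [mul_one] at this

/-- All classes are represented in one degree. -/
lemma rep_deg {D : ℕ} (hl : l.IsHomogeneous 1)
    (hD : ∀ u, u.IsHomogeneous (D + 1) → ∃ w, w.IsHomogeneous D ∧ u - l * w ∈ J) (a : AQ J l) :
    ∃ w, w.IsHomogeneous D ∧ piQ J l w = a := by
  let T : Submodule K (AQ J l) := (HH K n D).map (piQ J l).toLinearMap
  have hT : T = ⊤ := by
    refine gen_top (Submodule.mem_map.mpr ⟨l ^ D, ?_, ?_⟩) fun i b hb => ?_
    · have := IsHomogeneous.pow hl D
      rwa [one_mul] at this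
    · show piQ J l (l ^ D) = 1
      rw [map_pow, piQ_l, one_pow]
    · obtain ⟨w, hw, rfl⟩ := Submodule.mem_map.mp hb
      have h1 : (X i * w).IsHomogeneous (D + 1) := by
        have := IsHomogeneous.mul (isHomogeneous_X K i) hw
        rwa [add_comm 1 D] at this
      obtain ⟨w', hw', hu⟩ := hD _ h1
      refine Submodule.mem_map.mpr ⟨w', hw', ?_⟩
      have h2 := piQ_of_mem (l := l) hu
      rw [map_sub, map_mul, map_mul, piQ_l, one_mul, sub_eq_zero] at h2
      simpa using h2.symm
  have ha : a ∈ T := by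
    rw [hT]
    trivial
  obtain ⟨w, hw, rfl⟩ := Submodule.mem_map.mp ha
  exact ⟨w, hw, rfl⟩

lemma finite_AQ {D : ℕ} (hl : l.IsHomogeneous 1)
    (hD : ∀ u, u.IsHomogeneous (D + 1) → ∃ w, w.IsHomogeneous D ∧ u - l * w ∈ J) :
    FiniteDimensional K (AQ J l) := by
  have h1 : (⊤ : Submodule K (AQ J l)) = (HH K n D).map (piQ J l).toLinearMap := by
    rw [eq_comm, eq_top_iff]
    intro a _
    obtain ⟨w, hw, rfl⟩ := rep_deg hl hD a
    exact Submodule.mem_map.mpr ⟨w, hw, rfl⟩
  have hfin : Module.Finite K (HH K n D) := fin_le (le_refl _)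
  refine ⟨?_⟩
  rw [h1]
  exact Submodule.FG.map _ (Module.Finite.iff_fg.mp hfin)

/-- Multiplication by the class of a nonzerodivisor is surjective. -/
lemma mul_surj {D : ℕ} (hl : l.IsHomogeneous 1) (hlN : ∀ u, l * u ∈ J → u ∈ J)
    (hJ : ∀ u ∈ J, ∀ d, homogeneousComponent d u ∈ J)
    (hD : ∀ u, u.IsHomogeneous (D + 1) → ∃ w, w.IsHomogeneous D ∧ u - l * w ∈ J)
    {h : MvPolynomial (Fin n) K} {p : ℕ} (hh : h.IsHomogeneous p) (hN : ∀ u, h * u ∈ J → u ∈ J) (a : AQ J l) :
    ∃ b, piQ J l h * b = a := by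
  have := finite_AQ hl hD
  let L : AQ J l →ₗ[K] AQ J l := LinearMap.mulLeft K (piQ J l h)
  have hinj : Function.Injective L := by
    rw [injective_iff_map_eq_zero]
    intro b hb
    obtain ⟨w, hw, rfl⟩ := rep_deg hl hD b
    have h1 : piQ J l (h * w) = 0 := by
      rw [map_mul]
      exact hb
    have h2 := mem_of_Qd hl hlN hJ (IsHomogeneous.mul hh hw) (piQ_eq_zero.mp h1)
    exact piQ_of_mem (hN w h2)
  exact LinearMap.injective_iff_surjective.mp hinj a

/-- Nondegeneracy in the top degree. -/
theorem nondeg {D : ℕ} (hl : l.IsHomogeneous 1) (hlN : ∀ u, l * u ∈ J → u ∈ J)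
    (hJ : ∀ u ∈ J, ∀ d, homogeneousComponent d u ∈ J) {M : Ideal (MvPolynomial (Fin n) K)}
    (hM1 : ∀ (m : ℕ) (u : MvPolynomial (Fin n) K), u.IsHomogeneous m → u ∉ M →
      m ≤ D + 1 ∧ ∃ v, v.IsHomogeneous (D + 1 - m) ∧ u * v ∉ M)
    (hM2 : ∀ (m : ℕ) (u : MvPolynomial (Fin n) K), u.IsHomogeneous m → u ∈ M →
      u ∈ J ∨ ∃ m' w, m = m' + 1 ∧ w.IsHomogeneous m' ∧ u - l * w ∈ J)
    (hMJ : J ≤ M) (hMl : l ∈ M) :
    ∀ (m : ℕ) (w : MvPolynomial (Fin n) K), w.IsHomogeneous m → w ∉ J →
      ∃ b, piQ J l w * b ∉ (HH K n D).map (piQ J l).toLinearMap := by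
  intro m
  induction m using Nat.strong_induction_on with
  | _ m IH =>
    intro w hw hwJ
    by_cases hwM : w ∈ M
    · rcases hM2 m w hw hwM with h | ⟨m', w', rfl, hw', hd⟩
      · exact absurd h hwJ
      · have hw'J : w' ∉ J := by
          intro h
          apply hwJ
          have := Submodule.add_mem _ hd (J.mul_mem_left l h)
          simpa using this
        obtain ⟨b, hb⟩ := IH m' (Nat.lt_succ_self m') w' hw' hw'J
        refine ⟨b, ?_⟩
        have h2 := piQ_of_mem (l := l) hd
        rw [map_sub, map_mul, piQ_l, one_mul, sub_eq_zero] at h2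
        rwa [h2]
    · obtain ⟨hm, v, hv, hwv⟩ := hM1 m w hw hwM
      refine ⟨piQ J l v, fun hmem => hwv ?_⟩
      obtain ⟨u, hu, hue⟩ := Submodule.mem_map.mp hmem
      have h3 : piQ J l (w * v - l * u) = 0 := by
        rw [map_sub, map_mul, map_mul, piQ_l, one_mul, sub_eq_zero]
        exact hue.symm
      have h4 : (w * v).IsHomogeneous (D + 1) := by
        have := IsHomogeneous.mul hw hv
        rwa [Nat.add_sub_cancel' hm] at this
      have h5 : (l * u).IsHomogeneous (D + 1) := by
        have := IsHomogeneous.mul hl hu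
        rwa [add_comm 1 D] at this
      have h6 := mem_of_Qd hl hlN hJ (IsHomogeneous.sub h4 h5) (piQ_eq_zero.mp h3)
      have h7 := Submodule.add_mem _ (hMJ h6) (M.mul_mem_right u hMl)
      simpa using h7

end Vale.Agent.Lib.P200.N
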