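import Mathlib

namespace Vale.Agent.Lib.P200.N

open MvPolynomial Module CategoryTheory Abelian RingTheory.Sequence
open scoped Pointwise

universe u

section Ext

variable {R : Type u} [CommRing R] [Small.{u} R]

lemma ext_step {N M : ModuleCat.{u} R} {x : R} (hx : IsSMulRegular M x) {s : ℕ}
    (h : ∀ i < s + 1, Subsingleton (Ext N M i)) :
    ∀ i < s, Subsingleton (Ext N (ModuleCat.of R (QuotSMulTop x M)) i) := by
  intro i hi
  have zero1 := AddCommGrpCat.isZero_of_iff_subsingleton.mpr (h i (by omega))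
  have zero2 := AddCommGrpCat.isZero_of_iff_subsingleton.mpr (h (i + 1) (by omega))
  exact AddCommGrpCat.subsingleton_of_isZero <| ShortComplex.Exact.isZero_of_both_zeros
    ((Ext.covariant_sequence_exact₃' N hx.smulShortComplex_shortExact) i (i + 1) rfl)
    (zero1.eq_zero_of_src _) (zero2.eq_zero_of_tgt _)

/-- The induction along a sequence of ideals. -/
lemma exists_quot [IsNoetherianRing R] {N : ModuleCat.{u} R} {F : ℕ → Ideal R} {g : ℕ → R} {s c : ℕ}
    (h0 : Subsingleton (F 0)) (hs : ∀ k < c, ∀ u, g k * u ∈ F k → u ∈ F k)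
    (hF : ∀ k < c, ∀ u, u ∈ F (k + 1) ↔ ∃ w, u - g k * w ∈ F k) (hcs : c ≤ s)
    (hE : ∀ i < s, Subsingleton (Ext N (ModuleCat.of R R) i)) (k : ℕ) (hk : k ≤ c) :
    ∃ (M : ModuleCat.{u} R) (_ : Module.Finite R M) (π : R →ₗ[R] M),
      Function.Surjective π ∧ (∀ u, π u = 0 ↔ u ∈ F k) ∧ ∀ i < s - k, Subsingleton (Ext N M i) := by
  induction k with
  | zero =>
    refine ⟨ModuleCat.of R R, inferInstanceAs (Module.Finite R R), LinearMap.id, Function.surjective_id,
      fun u => ?_, hE⟩
    constructor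
    · intro h
      have h1 : u = 0 := h
      rw [h1]
      exact Submodule.zero_mem _
    · intro h
      have := congrArg Subtype.val (Subsingleton.elim (⟨u, h⟩ : F 0) ⟨0, Submodule.zero_mem _⟩)
      exact this
  | succ k ih =>
    obtain ⟨M, hfin, π, hsurj, hker, hext⟩ := ih (by omega)
    have hreg : IsSMulRegular M (g k) := by
      rw [isSMulRegular_iff_right_eq_zero_of_smul]
      intro x hx
      obtain ⟨u, rfl⟩ := hsurj x
      rw [← map_smul, smul_eq_mul, hker] at hx
      exact (hker u).mpr (hs k (by omega) u hx)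
    let π' : R →ₗ[R] ModuleCat.of R (QuotSMulTop (g k) M) :=
      (Submodule.mkQ (g k • (⊤ : Submodule R M))) ∘ₗ π
    refine ⟨ModuleCat.of R (QuotSMulTop (g k) M),
      inferInstanceAs (Module.Finite R (QuotSMulTop (g k) M)), π', ?_, ?_, ?_⟩
    · exact (Submodule.mkQ_surjective _).comp hsurj
    · intro u
      have h1 : π' u = 0 ↔ π u ∈ g k • (⊤ : Submodule R M) := by
        show (Submodule.mkQ (g k • (⊤ : Submodule R M))) (π u) = 0 ↔ _
        rw [Submodule.mkQ_apply, Submodule.Quotient.mk_eq_zero]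
      rw [h1, hF k (by omega), Submodule.mem_smul_pointwise_iff_exists]
      constructor
      · rintro ⟨v, -, hv⟩
        obtain ⟨w, rfl⟩ := hsurj v
        refine ⟨w, ?_⟩
        rw [← hker, map_sub, ← hv, ← map_smul, smul_eq_mul, sub_self]
      · rintro ⟨w, hw⟩
        refine ⟨π w, Submodule.mem_top, ?_⟩
        rw [← hker, map_sub, sub_eq_zero, ← smul_eq_mul, map_smul] at hw
        exact hw.symm
    · have hext' : ∀ i < (s - (k + 1)) + 1, Subsingleton (Ext N M i) := by
        intro i hi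
        exact hext i (by omega)
      exact ext_step hreg hext'

end Ext

variable {K : Type u} [Field K] {n : ℕ}

lemma X_mul_mem_span {s : Set (Fin n)} {j : Fin n} (hj : j ∉ s) {u : MvPolynomial (Fin n) K}
    (h : X j * u ∈ Ideal.span (X '' s)) : u ∈ Ideal.span (X '' s) := by
  rw [mem_ideal_span_X_image] at h ⊢
  intro m hm
  have h1 : m + Finsupp.single j 1 ∈ (X j * u).support := by
    rw [MvPolynomial.mem_support_iff, mul_comm, coeff_mul_X]
    simpa using hm
  obtain ⟨i, hi, hm2⟩ := h _ h1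
  refine ⟨i, hi, ?_⟩
  have hij : j ≠ i := fun h => hj (h ▸ hi)
  simpa [Finsupp.single_apply, hij] using hm2

/-- The list of variables. -/
noncomputable def varList (K : Type u) [Field K] (n : ℕ) : List (MvPolynomial (Fin n) K) :=
  List.ofFn (X : Fin n → MvPolynomial (Fin n) K)

lemma ofList_take (i : ℕ) :
    Ideal.ofList ((varList K n).take i) = Ideal.span (X '' {j : Fin n | j.val < i}) := by
  unfold Ideal.ofList
  congr 1
  ext r
  simp only [Set.mem_setOf_eq, Set.mem_image, List.mem_take_iff_getElem, varList, List.getElem_ofFn,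
    List.length_ofFn]
  constructor
  · rintro ⟨j, hj, rfl⟩
    exact ⟨⟨j, by omega⟩, by simp only []; omega, rfl⟩
  · rintro ⟨j, hj, rfl⟩
    exact ⟨j.val, by have := j.isLt; omega, rfl⟩

lemma varList_reg : IsWeaklyRegular (MvPolynomial (Fin n) K) (varList K n) := by
  refine ⟨fun i hi => ?_⟩
  rw [isSMulRegular_on_quot_iff_lsmul_comap_le]
  intro u hu
  have hi' : i < n := by simpa [varList] using hi
  simp only [smul_eq_mul, Ideal.mul_top, ofList_take, Submodule.mem_comap, LinearMap.lsmul_apply] at hu ⊢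
  have h2 : (varList K n)[i] = X ⟨i, hi'⟩ := by simp [varList]
  rw [h2] at hu
  exact X_mul_mem_span (by simp) hu

lemma one_notMem_span_X : (1 : MvPolynomial (Fin n) K) ∉ Ideal.span (Set.range (X : Fin n → MvPolynomial (Fin n) K)) := by
  rw [← Set.image_univ, mem_ideal_span_X_image]
  intro h
  obtain ⟨i, -, hi⟩ := h 0 (by
    rw [MvPolynomial.mem_support_iff, coeff_zero_one]
    exact one_ne_zero)
  simp at hi

/-- Vanishing of `Ext` from the quotient by the ideal of the variables. -/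
lemma ext_vanish :
    ∀ i < n, Subsingleton (Ext (ModuleCat.of (MvPolynomial (Fin n) K)
      (MvPolynomial (Fin n) K ⧸ Ideal.span (Set.range (X : Fin n → MvPolynomial (Fin n) K))))
      (ModuleCat.of (MvPolynomial (Fin n) K) (MvPolynomial (Fin n) K)) i) := by
  set R := MvPolynomial (Fin n) K
  set 𝔪 : Ideal R := Ideal.span (Set.range (X : Fin n → R)) with h𝔪
  have hne : 𝔪 ≠ ⊤ := fun h => one_notMem_span_X (h ▸ Submodule.mem_top)
  have hlen : (varList K n).length = n := by simp [varList]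
  have hreg : IsRegular (ModuleCat.of R R) (varList K n) := by
    refine ⟨varList_reg, ?_⟩
    intro h
    apply hne
    have h1 : Ideal.ofList (varList K n) = 𝔪 := by
      have := ofList_take (K := K) (n := n) n
      rw [show (varList K n).take n = varList K n from
        List.take_of_length_le hlen.le] at this
      rw [this, h𝔪, ← Set.image_univ]
      congr 2
      ext j
      simp
    have h3 : (Ideal.ofList (varList K n) • ⊤ : Submodule R R) = ⊤ := h.symm
    rwa [smul_eq_mul, Ideal.mul_top, h1] at h3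
  intro i hi
  refine ModuleCat.subsingleton_ext_of_exists_isRegular 𝔪 _ ?_ _ ?_ (varList K n) ?_ hreg i (by omega)
  · rw [Module.support_eq_zeroLocus, Ideal.annihilator_quotient]
  · refine lt_top_iff_ne_top.mpr fun h => ?_
    have h3 : (𝔪 • ⊤ : Submodule R R) = ⊤ := h
    rw [smul_eq_mul, Ideal.mul_top] at h3
    exact hne h3
  · intro r hr
    obtain ⟨j, rfl⟩ := (List.mem_ofFn' _ _).mp hr
    exact Ideal.subset_span ⟨j, rfl⟩

/-- The polynomial ring. -/
abbrev RR (K : Type u) [Field K] (n : ℕ) := MvPolynomial (Fin n) K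

/-- The ideal of the variables. -/
noncomputable abbrev mI (K : Type u) [Field K] (n : ℕ) : Ideal (RR K n) :=
  Ideal.span (Set.range (X : Fin n → MvPolynomial (Fin n) K))

/-- Depth: a regular element modulo the ideals of a regular sequence shorter than the number of
variables. -/
theorem exists_regular_mod {F : ℕ → Ideal (MvPolynomial (Fin n) K)}
    {g : ℕ → MvPolynomial (Fin n) K} {c : ℕ} (h0 : F 0 = ⊥)
    (hs : ∀ k < c, ∀ u, g k * u ∈ F k → u ∈ F k)
    (hF : ∀ k < c, ∀ u, u ∈ F (k + 1) ↔ ∃ w, u - g k * w ∈ F k) (hc : c < n) (k : ℕ) (hk : k ≤ c) :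
    ∃ x ∈ Ideal.span (Set.range (X : Fin n → MvPolynomial (Fin n) K)), ∀ u, x * u ∈ F k → u ∈ F k := by
  have hsub : Subsingleton (F 0) := by
    rw [h0]
    infer_instance
  obtain ⟨M, hfin, π, hsurj, hker, hext⟩ := exists_quot (N := ModuleCat.of (RR K n) (RR K n ⧸ mI K n))
    (F := F) (g := g) (s := n) (c := c) hsub hs hF hc.le ext_vanish k hk
  have h1 : Subsingleton (ModuleCat.of (RR K n) (RR K n ⧸ mI K n) ⟶ M) :=
    Ext.addEquiv₀.subsingleton_congr.mp (hext 0 (by omega))
  have h2 : Subsingleton (↑(ModuleCat.of (RR K n) (RR K n ⧸ mI K n)) →ₗ[RR K n] M) :=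
    ModuleCat.homAddEquiv.symm.subsingleton
  obtain ⟨x, hx, hreg⟩ := IsSMulRegular.subsingleton_linearMap_iff.mp h2
  rw [Ideal.annihilator_quotient] at hx
  refine ⟨x, hx, fun u hu => ?_⟩
  rw [← hker] at hu ⊢
  rw [← smul_eq_mul, map_smul] at hu
  exact (isSMulRegular_iff_right_eq_zero_of_smul.mp hreg) _ hu

/-- The linear form with coefficients `c`. -/
noncomputable def linF (K : Type u) [Field K] (n : ℕ) : (Fin n → K) →ₗ[K] MvPolynomial (Fin n) K where
  toFun c := ∑ i, c i • X i
  map_add' a b := by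
    simp only [Pi.add_apply, add_smul, Finset.sum_add_distrib]
  map_smul' r a := by
    simp only [Pi.smul_apply, smul_smul, RingHom.id_apply, Finset.smul_sum, smul_eq_mul]

lemma linF_single (i : Fin n) : linF K n (Pi.single i 1) = X i := by
  show ∑ j, (Pi.single i 1 : Fin n → K) j • X j = X i
  rw [Finset.sum_eq_single i]
  · simp
  · intro j _ hj
    simp [Pi.single_eq_of_ne hj]
  · simp

/-- Avoiding finitely many ideals by a linear form whose last coefficient does not vanish. -/
lemma exists_avoid [Infinite K] {m : ℕ} (Ps : Finset (Ideal (MvPolynomial (Fin (m + 1)) K)))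
    (hPs : ∀ 𝔭 ∈ Ps, ¬ Ideal.span (Set.range (X : Fin (m + 1) → MvPolynomial (Fin (m + 1)) K)) ≤ 𝔭) :
    ∃ c : Fin (m + 1) → K, c (Fin.last m) ≠ 0 ∧ ∀ 𝔭 ∈ Ps, linF K (m + 1) c ∉ 𝔭 := by
  classical
  let Sub : Ideal (MvPolynomial (Fin (m + 1)) K) → Submodule K (Fin (m + 1) → K) :=
    fun 𝔭 => (𝔭.restrictScalars K).comap (linF K (m + 1))
  let H : Submodule K (Fin (m + 1) → K) := LinearMap.ker (LinearMap.proj (R := K) (φ := fun _ => K) (Fin.last m))
  let s : Finset (Submodule K (Fin (m + 1) → K)) := insert H (Ps.image Sub)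
  have hs : ⊤ ∉ s := by
    intro h
    rcases Finset.mem_insert.mp h with h | h
    · have h1 : (Pi.single (Fin.last m) 1 : Fin (m + 1) → K) ∈ H := by
        rw [← h]
        exact Submodule.mem_top
      have h2 : (Pi.single (Fin.last m) 1 : Fin (m + 1) → K) (Fin.last m) = 0 := h1
      simp at h2
    · obtain ⟨𝔭, h𝔭, h2⟩ := Finset.mem_image.mp h
      apply hPs 𝔭 h𝔭
      rw [Ideal.span_le]
      rintro _ ⟨i, rfl⟩
      have h3 : (Pi.single i 1 : Fin (m + 1) → K) ∈ Sub 𝔭 := by
        rw [h2]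
        exact Submodule.mem_top
      have h4 : linF K (m + 1) (Pi.single i 1) ∈ 𝔭 := h3
      rwa [linF_single] at h4
  have h1 := Subspace.biUnion_ne_univ_of_top_notMem hs
  obtain ⟨c, hc⟩ := (Set.ne_univ_iff_exists_notMem _).mp h1
  simp only [Set.mem_iUnion, not_exists] at hc
  refine ⟨c, ?_, fun 𝔭 h𝔭 h => ?_⟩
  · intro h0
    exact hc H (Finset.mem_insert_self _ _) h0
  · exact hc (Sub 𝔭) (Finset.mem_insert_of_mem (Finset.mem_image_of_mem _ h𝔭)) h

/-- A linear form, monic in the last variable, that is a nonzerodivisor modulo all the ideals of a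
regular sequence of length less than the number of variables. -/
theorem exists_linear [Infinite K] {m : ℕ} {F : ℕ → Ideal (MvPolynomial (Fin (m + 1)) K)}
    {g : ℕ → MvPolynomial (Fin (m + 1)) K} {c : ℕ} (h0 : F 0 = ⊥)
    (hs : ∀ k < c, ∀ u, g k * u ∈ F k → u ∈ F k)
    (hF : ∀ k < c, ∀ u, u ∈ F (k + 1) ↔ ∃ w, u - g k * w ∈ F k) (hc : c < m + 1) :
    ∃ b : Fin (m + 1) → K, b (Fin.last m) ≠ 0 ∧
      ∀ k ≤ c, ∀ u, linF K (m + 1) b * u ∈ F k → u ∈ F k := by
  classical
  have hfin : ∀ k, (associatedPrimes (RR K (m + 1)) (RR K (m + 1) ⧸ F k)).Finite :=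
    fun k => associatedPrimes.finite (RR K (m + 1)) _
  let Ps : Finset (Ideal (RR K (m + 1))) := (Finset.range (c + 1)).biUnion fun k => (hfin k).toFinset
  have hPs : ∀ 𝔭 ∈ Ps, ¬ Ideal.span (Set.range (X : Fin (m + 1) → RR K (m + 1))) ≤ 𝔭 := by
    intro 𝔭 h𝔭 hle
    obtain ⟨k, hk, h2⟩ := Finset.mem_biUnion.mp h𝔭
    obtain ⟨x, hx, hreg⟩ := exists_regular_mod h0 hs hF hc k (by
      have := Finset.mem_range.mp hk
      omega)
    have h3 : IsAssociatedPrime 𝔭 (RR K (m + 1) ⧸ F k) := (hfin k).mem_toFinset.mp h2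
    rw [isAssociatedPrime_iff] at h3
    obtain ⟨-, v, hv⟩ := h3
    obtain ⟨u, rfl⟩ := Ideal.Quotient.mk_surjective v
    have h4 : x ∈ (⊥ : Submodule (RR K (m + 1)) (RR K (m + 1) ⧸ F k)).colon {Ideal.Quotient.mk (F k) u} :=
      hv ▸ hle hx
    rw [Submodule.mem_colon_singleton, Submodule.mem_bot] at h4
    have h5 : x * u ∈ F k := by
      rw [← Ideal.Quotient.eq_zero_iff_mem, map_mul]
      exact h4
    have h6 := hreg u h5
    have h7 : Ideal.Quotient.mk (F k) u = 0 := Ideal.Quotient.eq_zero_iff_mem.mpr h6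
    have h8 : (1 : RR K (m + 1)) ∈ 𝔭 := by
      rw [hv, Submodule.mem_colon_singleton, h7, smul_zero]
      exact Submodule.zero_mem _
    have h9 := (isAssociatedPrime_iff.mp ((hfin k).mem_toFinset.mp h2)).1
    exact h9.ne_top ((Ideal.eq_top_iff_one _).mpr h8)
  obtain ⟨b, hb, hb2⟩ := exists_avoid Ps hPs
  refine ⟨b, hb, fun k hk u hu => ?_⟩
  by_contra hu2
  have hne : Ideal.Quotient.mk (F k) u ≠ 0 := fun h => hu2 (Ideal.Quotient.eq_zero_iff_mem.mp h)
  obtain ⟨P, hP, hle⟩ := exists_le_isAssociatedPrime_of_isNoetherianRing (RR K (m + 1)) _ hne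
  have h1 : P ∈ Ps := Finset.mem_biUnion.mpr ⟨k, Finset.mem_range.mpr (by omega),
    (hfin k).mem_toFinset.mpr hP⟩
  refine hb2 P h1 (hle ?_)
  rw [Submodule.mem_colon_singleton, Submodule.mem_bot]
  show Ideal.Quotient.mk (F k) (linF K (m + 1) b) * Ideal.Quotient.mk (F k) u = 0
  rw [← map_mul]
  exact Ideal.Quotient.eq_zero_iff_mem.mpr hu

end Vale.Agent.Lib.P200.N
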