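import Vale.Agent.Lib.P200.N.Order

namespace Vale.Agent.Lib.P200.N

open Finset

variable {n : ℕ}

lemma mem_box {e : Fin n → ℕ∞} {d : ℕ} {t : Fin n → ℕ} :
    t ∈ outN e d ↔ ∑ i, t i = d ∧ ∀ i, (t i : ℕ∞) < e i := by
  simp [outN, mem_filter, mem_piAntidiag]

/-- Multiplication of a monomial by a variable. -/
def bump (i : Fin n) (t : Fin n → ℕ) : Fin n → ℕ := Function.update t i (t i + 1)

@[simp] lemma bump_same (i : Fin n) (t : Fin n → ℕ) : bump i t i = t i + 1 := by simp [bump]

lemma bump_ne {i j : Fin n} (t : Fin n → ℕ) (h : j ≠ i) : bump i t j = t j := by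
  simp [bump, Function.update_of_ne h]

lemma sum_update (f : Fin n → ℕ) (i : Fin n) (a : ℕ) :
    ∑ k, Function.update f i a k + f i = ∑ k, f k + a := by
  have h1 := Finset.add_sum_erase univ (Function.update f i a) (mem_univ i)
  have h2 := Finset.add_sum_erase univ f (mem_univ i)
  have h3 : ∑ k ∈ univ.erase i, Function.update f i a k = ∑ k ∈ univ.erase i, f k :=
    sum_congr rfl fun k hk => Function.update_of_ne (ne_of_mem_erase hk) _ _
  rw [Function.update_self] at h1
  omega

lemma sum_bump (i : Fin n) (t : Fin n → ℕ) : ∑ k, bump i t k = ∑ k, t k + 1 := by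
  have := sum_update t i (t i + 1)
  unfold bump
  omega

/-- The inverse of `bump`. -/
def dec (i : Fin n) (t : Fin n → ℕ) : Fin n → ℕ := Function.update t i (t i - 1)

@[simp] lemma dec_same (i : Fin n) (t : Fin n → ℕ) : dec i t i = t i - 1 := by simp [dec]

lemma dec_ne {i j : Fin n} (t : Fin n → ℕ) (h : j ≠ i) : dec i t j = t j := by
  simp [dec, Function.update_of_ne h]

lemma bump_dec {i : Fin n} {t : Fin n → ℕ} (h : 0 < t i) : bump i (dec i t) = t := by
  funext k
  by_cases hk : k = i
  · subst hk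
    simp only [bump_same, dec_same]
    omega
  · rw [bump_ne _ hk, dec_ne _ hk]

lemma dec_bump (i : Fin n) (t : Fin n → ℕ) : dec i (bump i t) = t := by
  funext k
  by_cases hk : k = i
  · subst hk
    simp
  · rw [dec_ne _ hk, bump_ne _ hk]

lemma sum_dec {i : Fin n} {t : Fin n → ℕ} (h : 0 < t i) : ∑ k, dec i t k + 1 = ∑ k, t k := by
  have := sum_bump i (dec i t)
  rw [bump_dec h] at this
  omega

lemma coe_lt_of_le {a b : ℕ} {c : ℕ∞} (hab : a ≤ b) (h : (b : ℕ∞) < c) : (a : ℕ∞) < c :=
  lt_of_le_of_lt (by exact_mod_cast hab) h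

lemma dec_box {e : Fin n → ℕ∞} {d : ℕ} {i : Fin n} {t : Fin n → ℕ} (h : t ∈ outN e (d + 1))
    (hi : 0 < t i) : dec i t ∈ outN e d := by
  obtain ⟨h1, h2⟩ := mem_box.mp h
  refine mem_box.mpr ⟨?_, fun k => ?_⟩
  · have := sum_dec hi
    omega
  · by_cases hk : k = i
    · subst hk
      rw [dec_same]
      exact coe_lt_of_le (Nat.sub_le _ _) (h2 k)
    · rw [dec_ne _ hk]
      exact h2 k

/-- The upper shadow in the box. -/
noncomputable def shd (e : Fin n → ℕ∞) (A : Finset (Fin n → ℕ)) : Finset (Fin n → ℕ) :=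
  (A.biUnion fun t => univ.image fun i => bump i t).filter (fun w => ∀ i, (w i : ℕ∞) < e i)

lemma mem_shd {e : Fin n → ℕ∞} {A : Finset (Fin n → ℕ)} {w : Fin n → ℕ} :
    w ∈ shd e A ↔ (∃ t ∈ A, ∃ i, w = bump i t) ∧ ∀ i, (w i : ℕ∞) < e i := by
  simp only [shd, mem_filter, mem_biUnion, mem_image, mem_univ, true_and]
  constructor
  · rintro ⟨⟨t, ht, i, rfl⟩, h⟩
    exact ⟨⟨t, ht, i, rfl⟩, h⟩
  · rintro ⟨⟨t, ht, i, rfl⟩, h⟩
    exact ⟨⟨t, ht, i, rfl⟩, h⟩

lemma shd_sub {e : Fin n → ℕ∞} {A : Finset (Fin n → ℕ)} {d : ℕ} (h : A ⊆ outN e d) :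
    shd e A ⊆ outN e (d + 1) := by
  intro w hw
  obtain ⟨⟨t, ht, i, rfl⟩, h2⟩ := mem_shd.mp hw
  refine mem_box.mpr ⟨?_, h2⟩
  rw [sum_bump, (mem_box.mp (h ht)).1]

lemma shd_mono {e : Fin n → ℕ∞} {A A' : Finset (Fin n → ℕ)} (h : A ⊆ A') : shd e A ⊆ shd e A' := by
  intro w hw
  obtain ⟨⟨t, ht, i, rfl⟩, h2⟩ := mem_shd.mp hw
  exact mem_shd.mpr ⟨⟨t, h ht, i, rfl⟩, h2⟩

lemma bump_mem_shd {e : Fin n → ℕ∞} {A : Finset (Fin n → ℕ)} {t : Fin n → ℕ} (ht : t ∈ A) (i : Fin n)
    (h : ∀ k, (bump i t k : ℕ∞) < e k) : bump i t ∈ shd e A :=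
  mem_shd.mpr ⟨⟨t, ht, i, rfl⟩, h⟩

/-- The shadow of an initial segment is an initial segment. -/
theorem IsInit.shd {e : Fin n → ℕ∞} {d : ℕ} {L : Finset (Fin n → ℕ)} (hL : IsInit L (outN e d)) :
    IsInit (shd e L) (outN e (d + 1)) := by
  refine ⟨shd_sub hL.sub, fun w hw w' hw' hlex => ?_⟩
  obtain ⟨⟨t, ht, i, rfl⟩, hbox⟩ := mem_shd.mp hw
  obtain ⟨p, hp1, hp2⟩ := hlex
  have hpos : 0 < w' p := by omega
  obtain ⟨j, hj, hjmax⟩ := (univ.filter (fun k => 0 < w' k)).exists_max_image id
    ⟨p, mem_filter.mpr ⟨mem_univ _, hpos⟩⟩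
  have hj0 : 0 < w' j := (mem_filter.mp hj).2
  have hjm : ∀ k, 0 < w' k → k ≤ j := fun k hk => hjmax k (mem_filter.mpr ⟨mem_univ _, hk⟩)
  have hpj : p ≤ j := hjm p hpos
  have ht'box : dec j w' ∈ outN e d := dec_box hw' hj0
  have htbox := hL.sub ht
  have hw'eq : bump j (dec j w') = w' := bump_dec hj0
  refine mem_shd.mpr ⟨⟨dec j w', ?_, j, hw'eq.symm⟩, (mem_box.mp hw').2⟩
  have key : dec j w' = t ∨ lexG (dec j w') t := by
    by_cases hip : i < p
    · right
      refine ⟨i, ?_, fun k hk => ?_⟩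
      · have hij : i ≠ j := (lt_of_lt_of_le hip hpj).ne
        rw [dec_ne _ hij, hp2 i hip, bump_same]
        omega
      · have hkj : k ≠ j := (lt_of_lt_of_le (hk.trans hip) hpj).ne
        have hki : k ≠ i := hk.ne
        rw [dec_ne _ hkj, hp2 k (hk.trans hip), bump_ne _ hki]
    · have hpi : p ≤ i := not_lt.mp hip
      have hlow : ∀ k, k < p → dec j w' k = t k := by
        intro k hk
        have hkj : k ≠ j := (lt_of_lt_of_le hk hpj).ne
        have hki : k ≠ i := (lt_of_lt_of_le hk hpi).ne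
        rw [dec_ne _ hkj, hp2 k hk, bump_ne _ hki]
      have htp : t p ≤ bump i t p := by
        by_cases h : p = i
        · subst h
          simp
        · rw [bump_ne _ h]
      by_cases hlt : t p < dec j w' p
      · exact Or.inr ⟨p, hlt, hlow⟩
      · left
        have hjp : j = p := by
          by_contra hne
          rw [dec_ne _ (Ne.symm hne)] at hlt
          omega
        subst hjp
        rw [dec_same] at hlt
        have hjeq : dec j w' j = t j := by
          rw [dec_same]
          omega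
        have hle : ∀ k ∈ univ, dec j w' k ≤ t k := by
          intro k _
          rcases lt_trichotomy k j with hk | hk | hk
          · exact (hlow k hk).le
          · rw [hk, hjeq]
          · have : ¬ 0 < w' k := fun h => absurd (hjm k h) (not_le.mpr hk)
            rw [dec_ne _ hk.ne']
            omega
        have hsum : ∑ k, dec j w' k = ∑ k, t k := by
          rw [(mem_box.mp ht'box).1, (mem_box.mp htbox).1]
        funext k
        exact (sum_eq_sum_iff_of_le hle).mp hsum k (mem_univ k)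
  rcases key with h | h
  · rw [h]
    exact ht
  · exact hL.up t ht _ ht'box h

section Two

variable {e : Fin 2 → ℕ∞} {d : ℕ}

lemma ext_two {s t : Fin 2 → ℕ} (h0 : s 0 = t 0) (h1 : s 1 = t 1) : s = t := by
  funext i
  fin_cases i
  · exact h0
  · exact h1

lemma bump_zero_one (t : Fin 2 → ℕ) : bump 0 t 1 = t 1 := bump_ne _ (by decide)

lemma bump_one_zero (t : Fin 2 → ℕ) : bump 1 t 0 = t 0 := bump_ne _ (by decide)

lemma lt_e_of_cases {t : Fin 2 → ℕ} (h0 : (t 0 : ℕ∞) < e 0) (h1 : (t 1 : ℕ∞) < e 1) :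
    ∀ k, (t k : ℕ∞) < e k := by
  intro k
  fin_cases k
  · exact h0
  · exact h1

/-- Everything outside a point: the lower bound for the shadow. -/
lemma card_le_shd_of_gap {A : Finset (Fin 2 → ℕ)} (hA : A ⊆ outN e d) {g : Fin 2 → ℕ}
    (hg : g ∈ outN e d) (hgA : g ∉ A) : A.card ≤ (shd e A).card := by
  obtain ⟨hg1, hg2⟩ := mem_box.mp hg
  rw [Fin.sum_univ_two] at hg1
  let ρ : (Fin 2 → ℕ) → (Fin 2 → ℕ) := fun t => if t 0 < g 0 then bump 0 t else bump 1 t
  refine card_le_card_of_injOn ρ ?_ ?_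
  · intro t ht
    have ht' : t ∈ A := ht
    obtain ⟨h1, h2⟩ := mem_box.mp (hA ht')
    rw [Fin.sum_univ_two] at h1
    have hne : t 0 ≠ g 0 := by
      intro h
      apply hgA
      have : g = t := ext_two h.symm (by omega)
      rwa [this]
    show ρ t ∈ shd e A
    by_cases hlt : t 0 < g 0
    · simp only [ρ, if_pos hlt]
      refine bump_mem_shd ht' 0 (lt_e_of_cases ?_ ?_)
      · rw [bump_same]
        exact coe_lt_of_le hlt (hg2 0)
      · rw [bump_zero_one]
        exact h2 1
    · simp only [ρ, if_neg hlt]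
      refine bump_mem_shd ht' 1 (lt_e_of_cases ?_ ?_)
      · rw [bump_one_zero]
        exact h2 0
      · rw [bump_same]
        exact coe_lt_of_le (by omega) (hg2 1)
  · intro s hs t ht hst
    have hs' : s ∈ A := hs
    have ht' : t ∈ A := ht
    have h1 := (mem_box.mp (hA hs')).1
    have h2 := (mem_box.mp (hA ht')).1
    rw [Fin.sum_univ_two] at h1 h2
    have h3 : ρ s 0 = ρ t 0 := congrFun hst 0
    have hng : ∀ u ∈ A, u 0 ≠ g 0 := by
      intro u hu h
      apply hgA
      have h6 := (mem_box.mp (hA hu)).1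
      rw [Fin.sum_univ_two] at h6
      have : g = u := ext_two h.symm (by omega)
      rwa [this]
    have hsg := hng s hs'
    have htg := hng t ht'
    have h0 : s 0 = t 0 := by
      simp only [ρ] at h3
      split_ifs at h3 with h4 h5 h5
      · simp only [bump_same] at h3
        omega
      · rw [bump_same, bump_one_zero] at h3
        omega
      · rw [bump_same, bump_one_zero] at h3
        omega
      · rwa [bump_one_zero, bump_one_zero] at h3
    exact ext_two h0 (by omega)

/-- The upper bound for the shadow of an initial segment, second form. -/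
lemma shd_init_sub {L : Finset (Fin 2 → ℕ)} (hL : IsInit L (outN e d)) {w : Fin 2 → ℕ}
    (hw : w ∈ shd e L) : w ∈ L.image (bump 1) ∨ w 1 = 0 := by
  obtain ⟨⟨t, ht, i, rfl⟩, h2⟩ := mem_shd.mp hw
  fin_cases i
  · show bump 0 t ∈ L.image (bump 1) ∨ bump 0 t 1 = 0
    rw [bump_zero_one]
    by_cases h0 : t 1 = 0
    · exact Or.inr h0
    left
    have hpos : 0 < t 1 := Nat.pos_of_ne_zero h0
    have hbox := mem_box.mp (hL.sub ht)
    have hb2 : bump 0 t ∈ outN e (d + 1) := mem_box.mpr ⟨by rw [sum_bump, hbox.1], h2⟩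
    have h3 : dec 1 (bump 0 t) ∈ outN e d := dec_box hb2 (by rwa [bump_zero_one])
    have h4 : lexG (dec 1 (bump 0 t)) t := by
      refine ⟨0, ?_, fun j hj => absurd hj (Fin.not_lt_zero j)⟩
      rw [dec_ne _ (by decide), bump_same]
      omega
    have h5 := hL.up t ht _ h3 h4
    refine mem_image.mpr ⟨_, h5, ?_⟩
    exact bump_dec (by rwa [bump_zero_one])
  · exact Or.inl (mem_image.mpr ⟨t, ht, rfl⟩)

lemma card_shd_le {L : Finset (Fin 2 → ℕ)} (hL : IsInit L (outN e d)) :
    (shd e L).card ≤ L.card + 1 := by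
  have hsub : shd e L ⊆ L.image (bump 1) ∪ {![d + 1, 0]} := by
    intro w hw
    rcases shd_init_sub hL hw with h | h
    · exact mem_union_left _ h
    · refine mem_union_right _ (mem_singleton.mpr ?_)
      have hbox := (mem_box.mp (shd_sub hL.sub hw)).1
      rw [Fin.sum_univ_two] at hbox
      exact ext_two (by simp; omega) (by simpa using h)
  calc (shd e L).card ≤ (L.image (bump 1) ∪ {![d + 1, 0]}).card := card_le_card hsub
    _ ≤ (L.image (bump 1)).card + 1 := by
        simpa using card_union_le (L.image (bump 1)) {![d + 1, 0]}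
    _ ≤ L.card + 1 := by
        have := card_image_le (s := L) (f := bump 1)
        omega

lemma card_shd_le' {L : Finset (Fin 2 → ℕ)} (hL : IsInit L (outN e d)) (hd : ¬ ((d + 1 : ℕ) : ℕ∞) < e 0) :
    (shd e L).card ≤ L.card := by
  have hsub : shd e L ⊆ L.image (bump 1) := by
    intro w hw
    rcases shd_init_sub hL hw with h | h
    · exact h
    · exfalso
      have hbox := mem_box.mp (shd_sub hL.sub hw)
      have h1 := hbox.1
      rw [Fin.sum_univ_two] at h1
      apply hd
      have h2 := hbox.2 0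
      rwa [show w 0 = d + 1 by omega] at h2
  exact (card_le_card hsub).trans card_image_le

/-- The Clements-Lindström theorem in two variables. -/
theorem cl_two (he : e 0 ≤ e 1) {A L : Finset (Fin 2 → ℕ)} (hA : A ⊆ outN e d)
    (hL : IsInit L (outN e d)) (hc : L.card = A.card) : (shd e L).card ≤ (shd e A).card := by
  rcases A.eq_empty_or_nonempty with rfl | hne
  · have : L = ∅ := by
      rw [card_empty] at hc
      exact card_eq_zero.mp hc
    rw [this]
  by_cases hd : ((d + 1 : ℕ) : ℕ∞) < e 0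
  · -- no cut at all
    have h1 := card_shd_le hL
    obtain ⟨a, ha, hmax⟩ := A.exists_max_image (fun t => t 0) hne
    have hval : ∀ t ∈ A, t 0 ≤ d ∧ t 1 ≤ d := by
      intro t ht
      have := (mem_box.mp (hA ht)).1
      rw [Fin.sum_univ_two] at this
      omega
    have hsub : A.image (bump 1) ∪ {bump 0 a} ⊆ shd e A := by
      intro w hw
      rcases mem_union.mp hw with h | h
      · obtain ⟨t, ht, rfl⟩ := mem_image.mp h
        refine bump_mem_shd ht 1 (lt_e_of_cases ?_ ?_)
        · rw [bump_one_zero]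
          exact (mem_box.mp (hA ht)).2 0
        · rw [bump_same]
          exact lt_of_lt_of_le (coe_lt_of_le (by have := (hval t ht).2; omega) hd) he
      · rw [mem_singleton.mp h]
        refine bump_mem_shd ha 0 (lt_e_of_cases ?_ ?_)
        · rw [bump_same]
          exact coe_lt_of_le (by have := (hval a ha).1; omega) hd
        · rw [bump_zero_one]
          exact (mem_box.mp (hA ha)).2 1
    have hnot : bump 0 a ∉ A.image (bump 1) := by
      intro h
      obtain ⟨t, ht, h3⟩ := mem_image.mp h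
      have h4 := congrFun h3 0
      rw [bump_one_zero, bump_same] at h4
      have : t 0 ≤ a 0 := hmax t ht
      omega
    have hinj : Set.InjOn (bump (1 : Fin 2)) (A : Set (Fin 2 → ℕ)) := by
      intro s _ t _ hst
      have := congrArg (dec 1) hst
      rwa [dec_bump, dec_bump] at this
    have h2 := card_le_card hsub
    rw [card_union_of_disjoint (disjoint_singleton_right.mpr hnot), card_image_of_injOn hinj,
      card_singleton] at h2
    omega
  · by_cases hg : ∃ g ∈ outN e d, g ∉ A
    · obtain ⟨g, hg1, hg2⟩ := hg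
      have h1 := card_shd_le' hL hd
      have h2 := card_le_shd_of_gap hA hg1 hg2
      omega
    · push Not at hg
      have hAeq : A = outN e d := Subset.antisymm hA hg
      have hLeq : L = outN e d := eq_of_subset_of_card_le hL.sub (by rw [hc, hAeq])
      rw [hAeq, hLeq]

end Two

end Vale.Agent.Lib.P200.N
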