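import Vale.Agent.Lib.P200.N.Hilb

namespace Vale.Agent.Lib.P200.N

open MvPolynomial Module

universe u

variable {K : Type u} [Field K] {n c : ℕ}

/-- The first forms of the sequence. -/
def fInit (f : Fin (c + 1) → MvPolynomial (Fin n) K) : Fin c → MvPolynomial (Fin n) K :=
  fun i => f i.castSucc

lemma Fid_init (f : Fin (c + 1) → MvPolynomial (Fin n) K) {k : ℕ} (hk : k ≤ c) :
    Fid (fInit f) k = Fid f k := by
  unfold Fid
  congr 1
  ext y
  constructor
  · rintro ⟨j, hj, rfl⟩
    exact ⟨j.castSucc, hj, rfl⟩
  · rintro ⟨j, hj, rfl⟩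
    have hj' : j.val < k := hj
    exact ⟨⟨j.val, by omega⟩, hj, rfl⟩

lemma Reg.init {f : Fin (c + 1) → MvPolynomial (Fin n) K} (h : Reg f) : Reg (fInit f) := by
  intro i u hu
  have e : Ideal.span (fInit f '' {j | j < i}) = Ideal.span (f '' {j | j < i.castSucc}) := by
    have h1 := Fid_init f (k := i.val) i.isLt.le
    exact h1
  rw [e] at hu ⊢
  exact h i.castSucc u hu

lemma Reg.last {f : Fin (c + 1) → MvPolynomial (Fin n) K} (h : Reg f) (u : MvPolynomial (Fin n) K)
    (hu : f (Fin.last c) * u ∈ Fid (fInit f) c) : u ∈ Fid (fInit f) c := by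
  rw [Fid_init f le_rfl] at hu ⊢
  exact h (Fin.last c) u hu

lemma mem_Fid_last {f : Fin (c + 1) → MvPolynomial (Fin n) K} {u : MvPolynomial (Fin n) K} :
    u ∈ Fid f (c + 1) ↔ ∃ w, u - f (Fin.last c) * w ∈ Fid (fInit f) c := by
  rw [Fid_init f le_rfl]
  exact Fid_succ f (Nat.lt_succ_self c) u

/-- The socle of a complete intersection sits in the top degree. -/
theorem socle_deg [Infinite K] : ∀ (n : ℕ) (f : Fin n → MvPolynomial (Fin n) K) (a : Fin n → ℕ),
    (∀ i, (f i).IsHomogeneous (a i)) → (∀ i, 1 ≤ a i) → Reg f →
    ∀ (u : MvPolynomial (Fin n) K) (d : ℕ), u.IsHomogeneous d → (∀ i, X i * u ∈ Fid f n) → u ∉ Fid f n →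
      d = ∑ i, (a i - 1) := by
  intro n
  induction n with
  | zero =>
    intro f a _ _ _ u d hu _ hne
    have h0 : u ≠ 0 := fun h => hne (h ▸ Submodule.zero_mem _)
    obtain ⟨s, hs⟩ := (support_nonempty (p := u)).mpr h0
    have h1 := hu (MvPolynomial.mem_support_iff.mp hs)
    rw [weight_one_eq] at h1
    have h2 : s.degree = 0 := by
      rw [Finsupp.degree_eq_sum]
      simp
    simp
    omega
  | succ m ih =>
    intro f a hf ha hreg u d hu hX hne
    have hreg' := hreg.init
    obtain ⟨b, hb, hl⟩ := exists_good_lin hreg' (Nat.lt_succ_self m)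
    set F := Fid (fInit f) m with hF
    set x := f (Fin.last m) with hx
    have hFle : F ≤ Fid f (m + 1) := by
      rw [hF, Fid_init f le_rfl]
      exact Fid_mono f (Nat.le_succ m)
    have hlm := hl m le_rfl
    have hxN : ∀ v, x * v ∈ F → v ∈ F := hreg.last
    have hufree : u ∉ F := fun h => hne (hFle h)
    choose w hw using fun i => (mem_Fid_last.mp (hX i))
    set W := ∑ i, b i • w i with hW
    set l := linF K (m + 1) b with hl'
    have hg : l * u - x * W ∈ F := by
      have h1 : l * u - x * W = ∑ i, b i • (X i * u - x * w i) := by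
        rw [hW, hl', linF]
        simp only [LinearMap.coe_mk, AddHom.coe_mk, smul_sub, Finset.sum_sub_distrib, Finset.sum_mul,
          Finset.mul_sum, mul_smul_comm, smul_mul_assoc]
      rw [h1]
      refine Submodule.sum_mem _ fun i _ => ?_
      rw [smul_eq_C_mul]
      exact Ideal.mul_mem_left _ _ (hw i)
    have hlu : (l * u).IsHomogeneous (d + 1) := by
      have := IsHomogeneous.mul (linF_mem b) hu
      rwa [add_comm 1 d] at this
    have hcomp : homogeneousComponent (d + 1) (l * u) = l * u := by
      rw [homogeneousComponent_of_mem hlu, if_pos rfl]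
    have hsplit : l * u = homogeneousComponent (d + 1) (l * u - x * W)
        + homogeneousComponent (d + 1) (x * W) := by
      rw [← map_add, sub_add_cancel, hcomp]
    have hgF : homogeneousComponent (d + 1) (l * u - x * W) ∈ F :=
      component_mem (fun i => hf i.castSucc) hg _
    have hAd : a (Fin.last m) ≤ d + 1 := by
      by_contra hcon
      rw [component_mul_low (hf _) (by omega), add_zero] at hsplit
      rw [← hsplit] at hgF
      exact hufree (hlm u hgF)
    set j := d + 1 - a (Fin.last m) with hj
    have hjA : j + a (Fin.last m) = d + 1 := by omega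
    have hmul := component_mul_form (w := W) (hf (Fin.last m)) j
    rw [hjA] at hmul
    set w0 := homogeneousComponent j W with hw0def
    set g0 := homogeneousComponent (d + 1) (l * u - x * W) with hg0def
    have hsplit2 : l * u = g0 + x * w0 := by
      rw [← hmul]
      exact hsplit
    have hw0 : w0.IsHomogeneous j := homogeneousComponent_mem _ _
    have hclaim : ∀ i, X i * w0 - l * w i ∈ F := by
      intro i
      apply hxN
      have h1 : x * (X i * w0 - l * w i) = l * (X i * u - x * w i) - X i * g0 := by
        linear_combination (-(X i)) * hsplit2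
      rw [h1]
      exact Submodule.sub_mem _ (Ideal.mul_mem_left _ _ (hw i)) (Ideal.mul_mem_left _ _ hgF)
    have hreg2 := reg_image hb hreg' hl
    have hj2 := ih (fun i => psi b (fInit f i)) (fun i => a i.castSucc) (fun i => psi_homog (hf i.castSucc))
      (fun i => ha _) hreg2 (psi b w0) j (psi_homog hw0) ?_ ?_
    · rw [Fin.sum_univ_castSucc, ← hj2]
      have := ha (Fin.last m)
      omega
    · intro i
      rw [Fid_image]
      have h1 : X i * psi b w0 = psi b (X i.castSucc * w0 - l * w i.castSucc) := by
        rw [map_sub, map_mul, map_mul, psi_X_cast, hl', psi_lin hb, zero_mul, sub_zero]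
      rw [h1]
      exact Ideal.mem_map_of_mem _ (hclaim _)
    · intro h
      rw [Fid_image] at h
      obtain ⟨g', hg', he⟩ := (Ideal.mem_map_iff_of_surjective _ psi_surj).mp h
      have h1 : psi b (w0 - g') = 0 := by
        rw [map_sub, he, sub_self]
      obtain ⟨y, hy⟩ := exists_of_psi_eq_zero hb h1
      have h2 : l * (u - x * y) = g0 + x * g' := by
        have h3 : w0 = g' + l * y := by
          rw [← hl'] at hy
          linear_combination hy
        rw [h3] at hsplit2
        linear_combination hsplit2
      have h3 : u - x * y ∈ F := hlm _ (by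
        rw [h2]
        exact Submodule.add_mem _ hgF (Ideal.mul_mem_left _ _ hg'))
      exact hne (mem_Fid_last.mpr ⟨y, h3⟩)

end Vale.Agent.Lib.P200.N
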