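import Vale.Agent.Lib.P200.N.Shadow

namespace Vale.Agent.Lib.P200.N

open Finset

lemma exists_lower {ι : Type*} [DecidableEq ι] (S : Finset ι) (u : ι → ℕ) (D : ℕ)
    (hD : D ≤ ∑ k ∈ S, u k) :
    ∃ w : ι → ℕ, (∀ k, k ∉ S → w k = u k) ∧ (∀ k ∈ S, w k ≤ u k) ∧ ∑ k ∈ S, w k = D := by
  induction S using Finset.induction_on generalizing D with
  | empty =>
    simp only [sum_empty, nonpos_iff_eq_zero] at hD
    exact ⟨u, fun _ _ => rfl, by simp, by simp [hD]⟩
  | insert a S ha ih =>
    rw [sum_insert ha] at hD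
    set c := min (u a) D with hc
    obtain ⟨w, h1, h2, h3⟩ := ih (D - c) (by omega)
    refine ⟨Function.update w a c, fun k hk => ?_, fun k hk => ?_, ?_⟩
    · have hk1 : k ≠ a := fun h => hk (h ▸ mem_insert_self _ _)
      have hk2 : k ∉ S := fun h => hk (mem_insert_of_mem h)
      rw [Function.update_of_ne hk1, h1 k hk2]
    · by_cases hka : k = a
      · subst hka
        rw [Function.update_self]
        omega
      · rw [Function.update_of_ne hka]
        exact h2 k ((mem_insert.mp hk).resolve_left hka)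
    · rw [sum_insert ha, Function.update_self]
      have h4 : ∑ k ∈ S, Function.update w a c k = ∑ k ∈ S, w k :=
        sum_congr rfl fun k hk => Function.update_of_ne (fun h : k = a => ha (h ▸ hk)) _ _
      rw [h4, h3]
      omega

variable {m : ℕ} {e : Fin (m + 3) → ℕ∞} {d : ℕ}

lemma zero_ne_one' : (0 : Fin (m + 3)) ≠ 1 := by
  simp [Fin.ext_iff]

lemma zero_ne_last : (0 : Fin (m + 3)) ≠ Fin.last (m + 2) := by
  simp [Fin.ext_iff]

lemma one_ne_last : (1 : Fin (m + 3)) ≠ Fin.last (m + 2) := by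
  simp [Fin.ext_iff]

/-- The indices other than `0`, `1` and the last. -/
def rest (m : ℕ) : Finset (Fin (m + 3)) :=
  ((univ.erase 0).erase 1).erase (Fin.last (m + 2))

lemma sum_split (f : Fin (m + 3) → ℕ) :
    ∑ k, f k = f 0 + f 1 + f (Fin.last (m + 2)) + ∑ k ∈ rest m, f k := by
  have h0 := add_sum_erase univ f (mem_univ (0 : Fin (m + 3)))
  have h1 := add_sum_erase (univ.erase (0 : Fin (m + 3))) f
    (mem_erase.mpr ⟨zero_ne_one'.symm, mem_univ _⟩)
  have h2 := add_sum_erase ((univ.erase (0 : Fin (m + 3))).erase 1) f (a := Fin.last (m + 2))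
    (mem_erase.mpr ⟨one_ne_last.symm, mem_erase.mpr ⟨zero_ne_last.symm, mem_univ _⟩⟩)
  unfold rest
  omega

lemma mem_rest {k : Fin (m + 3)} : k ∈ rest m ↔ k ≠ 0 ∧ k ≠ 1 ∧ k ≠ Fin.last (m + 2) := by
  simp only [rest, mem_erase, mem_univ, and_true]
  tauto

lemma sum_S01 (f : Fin (m + 3) → ℕ) :
    ∑ k, f k = f 0 + f 1 + ∑ k ∈ (univ.erase (0 : Fin (m + 3))).erase 1, f k := by
  have h1 := add_sum_erase univ f (mem_univ (0 : Fin (m + 3)))
  have h2 := add_sum_erase (univ.erase (0 : Fin (m + 3))) f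
    (mem_erase.mpr ⟨zero_ne_one'.symm, mem_univ _⟩)
  omega

section Core

variable {A : Finset (Fin (m + 3) → ℕ)} {x y : Fin (m + 3) → ℕ}

/-- The common hypotheses of the exchange. -/
structure Ex (e : Fin (m + 3) → ℕ∞) (d : ℕ) (A : Finset (Fin (m + 3) → ℕ))
    (x y : Fin (m + 3) → ℕ) : Prop where
  hA : A ⊆ outN e d
  hcomp : ∀ i, ∀ t ∈ A, ∀ s ∈ outN e d, s i = t i → lexG s t → s ∈ A
  hxA : x ∈ A
  hyB : y ∈ outN e d
  hyA : y ∉ A
  hlex : lexG y x
  hy : ∀ u ∈ outN e d, lexG u y → u ∈ A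
  hx : ∀ u ∈ A, ¬ lexG x u

variable (E : Ex e d A x y)

include E

lemma Ex.diff (k : Fin (m + 3)) : x k ≠ y k := fun h =>
  E.hyA (E.hcomp k x E.hxA y E.hyB h.symm E.hlex)

lemma Ex.forbid (k l : Fin (m + 3)) {z : Fin (m + 3) → ℕ} (hz : z ∈ outN e d) (h1 : z k = x k)
    (h2 : z l = y l) (h3 : lexG z x) (h4 : lexG y z) : False := by
  have hzA := E.hcomp k x E.hxA z hz h1 h3
  exact E.hyA (E.hcomp l z hzA y E.hyB h2.symm h4)

lemma Ex.zero_lt : x 0 < y 0 := by
  obtain ⟨p, hp1, hp2⟩ := E.hlex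
  by_cases hp : p = 0
  · rwa [hp] at hp1
  · have h0 : (0 : Fin (m + 3)) < p := Fin.pos_of_ne_zero hp
    exact absurd (hp2 0 h0).symm (E.diff 0)

lemma Ex.sums : ∑ k, x k = d ∧ ∑ k, y k = d :=
  ⟨(mem_box.mp (E.hA E.hxA)).1, (mem_box.mp E.hyB).1⟩

lemma Ex.one_lt : y 1 < x 1 := by
  by_contra hcon
  have hlt : x 1 < y 1 := lt_of_le_of_ne (not_lt.mp hcon) (E.diff 1)
  have h0 := E.zero_lt
  obtain ⟨hsx, hsy⟩ := E.sums
  rw [sum_S01] at hsx hsy
  set S := (univ.erase (0 : Fin (m + 3))).erase 1 with hS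
  obtain ⟨w, h1, h2, h3⟩ := exists_lower S x (∑ k ∈ S, x k - (y 1 - x 1)) (Nat.sub_le _ _)
  have h0S : (0 : Fin (m + 3)) ∉ S := by simp [hS]
  have h1S : (1 : Fin (m + 3)) ∉ S := by simp [hS]
  let z := Function.update w 1 (y 1)
  have hz0 : z 0 = x 0 := by
    simp only [z]
    rw [Function.update_of_ne zero_ne_one', h1 0 h0S]
  have hz1 : z 1 = y 1 := by simp [z]
  have hzS : ∀ k ∈ S, z k = w k := fun k hk =>
    Function.update_of_ne (fun h : k = 1 => h1S (h ▸ hk)) _ _
  have hzsum : ∑ k, z k = d := by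
    rw [sum_S01, hz0, hz1, ← hS, sum_congr rfl hzS, h3]
    omega
  have hbx := (mem_box.mp (E.hA E.hxA)).2
  have hby := (mem_box.mp E.hyB).2
  have hzbox : z ∈ outN e d := by
    refine mem_box.mpr ⟨hzsum, fun k => ?_⟩
    by_cases hk0 : k = 0
    · rw [hk0, hz0]
      exact hbx 0
    by_cases hk1 : k = 1
    · rw [hk1, hz1]
      exact hby 1
    have hkS : k ∈ S := by simp [hS, hk0, hk1]
    rw [hzS k hkS]
    exact coe_lt_of_le (h2 k hkS) (hbx k)
  have hzx : lexG z x := by
    refine ⟨1, by rw [hz1]; exact hlt, fun j hj => ?_⟩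
    have : j = 0 := by
      rw [Fin.ext_iff]
      have h5 : j.val < (1 : Fin (m + 3)).val := hj
      simp only [Fin.val_one] at h5
      simpa using h5
    rw [this, hz0]
  have hyz : lexG y z := ⟨0, by rw [hz0]; exact h0, fun j hj => absurd hj (Fin.not_lt_zero j)⟩
  exact E.forbid 0 1 hzbox hz0 hz1 hzx hyz

lemma Ex.last_lt : x (Fin.last (m + 2)) < y (Fin.last (m + 2)) := by
  by_contra hcon
  set l := Fin.last (m + 2) with hl
  have hlt : y l < x l := lt_of_le_of_ne (not_lt.mp hcon) (E.diff l).symm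
  have h0 := E.zero_lt
  have h1lt := E.one_lt
  obtain ⟨hsx, hsy⟩ := E.sums
  have hbx := (mem_box.mp (E.hA E.hxA)).2
  have hby := (mem_box.mp E.hyB).2
  have hsx' := hsx
  have hsy' := hsy
  rw [sum_split] at hsx' hsy'
  rw [← hl] at hsx' hsy'
  have h1rest : (1 : Fin (m + 3)) ∉ rest m := by simp [mem_rest]
  by_cases hcase : x l ≤ y 1 + ∑ k ∈ rest m, y k + y l
  · -- first case: keep the first coordinate of `y`
    set S := insert (1 : Fin (m + 3)) (rest m) with hS
    have hSsum : ∀ f : Fin (m + 3) → ℕ, ∑ k ∈ S, f k = f 1 + ∑ k ∈ rest m, f k := fun f =>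
      sum_insert h1rest
    have hmemS : ∀ k, k ∈ S ↔ k ≠ 0 ∧ k ≠ l := by
      intro k
      rw [hS, mem_insert, mem_rest]
      constructor
      · rintro (rfl | ⟨h1, _, h3⟩)
        · exact ⟨zero_ne_one'.symm, one_ne_last⟩
        · exact ⟨h1, h3⟩
      · rintro ⟨h1, h2⟩
        by_cases h3 : k = 1
        · exact Or.inl h3
        · exact Or.inr ⟨h1, h3, h2⟩
    obtain ⟨w, h1, h2, h3⟩ := exists_lower S y (∑ k ∈ S, y k - (x l - y l)) (Nat.sub_le _ _)
    let z := Function.update w l (x l)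
    have hz0 : z 0 = y 0 := by
      simp only [z]
      rw [Function.update_of_ne zero_ne_last, h1 0 (by simp [hmemS])]
    have hzl : z l = x l := by simp [z]
    have hzS : ∀ k ∈ S, z k = w k := fun k hk =>
      Function.update_of_ne ((hmemS k).mp hk).2 _ _
    have hSy := hSsum y
    have hzS2 : ∑ k ∈ S, z k = ∑ k ∈ S, y k - (x l - y l) := by
      rw [sum_congr rfl hzS, h3]
    have hzsum : ∑ k, z k = d := by
      rw [sum_split, ← hl, hz0, hzl]
      have h4 := hSsum z
      rw [hzS2] at h4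
      omega
    have hzbox : z ∈ outN e d := by
      refine mem_box.mpr ⟨hzsum, fun k => ?_⟩
      by_cases hk0 : k = 0
      · rw [hk0, hz0]
        exact hby 0
      by_cases hkl : k = l
      · rw [hkl, hzl]
        exact hbx l
      have hkS : k ∈ S := (hmemS k).mpr ⟨hk0, hkl⟩
      rw [hzS k hkS]
      exact coe_lt_of_le (h2 k hkS) (hby k)
    have hzx : lexG z x := ⟨0, by rw [hz0]; exact h0, fun j hj => absurd hj (Fin.not_lt_zero j)⟩
    have hne : y ≠ z := by
      intro h
      have h4 : y l = x l := by rw [h, hzl]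
      omega
    have hyz : lexG y z := by
      refine (lexG_total hne).resolve_right ?_
      rintro ⟨p, hp1, hp2⟩
      by_cases hp0 : p = 0
      · rw [hp0, hz0] at hp1
        omega
      by_cases hpl : p = l
      · -- all coordinates before the last agree
        have h4 : ∀ k ∈ S, z k = y k := fun k hk =>
          hp2 k (by rw [hpl, hl, Fin.lt_last_iff_ne_last]; exact ((hmemS k).mp hk).2)
        have h5 : ∑ k ∈ S, z k = ∑ k ∈ S, y k := sum_congr rfl h4
        omega
      · have hpS : p ∈ S := (hmemS p).mpr ⟨hp0, hpl⟩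
        rw [hzS p hpS] at hp1
        have := h2 p hpS
        omega
    exact E.forbid l 0 hzbox hzl hz0 hzx hyz
  · -- second case
    let z : Fin (m + 3) → ℕ := fun k =>
      if k = 1 then y 1 else if k = l then x l else if k = 0 then d - y 1 - x l else 0
    have hz1 : z 1 = y 1 := by simp [z]
    have hzl : z l = x l := by
      show (if l = 1 then y 1 else if l = l then x l else if l = 0 then d - y 1 - x l else 0) = x l
      rw [if_neg one_ne_last.symm, if_pos rfl]
    have hz0 : z 0 = d - y 1 - x l := by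
      show (if (0 : Fin (m + 3)) = 1 then y 1 else if (0 : Fin (m + 3)) = l then x l
        else if (0 : Fin (m + 3)) = 0 then d - y 1 - x l else 0) = d - y 1 - x l
      rw [if_neg zero_ne_one', if_neg zero_ne_last, if_pos rfl]
    have hzr : ∀ k ∈ rest m, z k = 0 := by
      intro k hk
      obtain ⟨h1, h2, h3⟩ := mem_rest.mp hk
      show (if k = 1 then y 1 else if k = l then x l else if k = 0 then d - y 1 - x l else 0) = 0
      rw [if_neg h2, if_neg h3, if_neg h1]
    have hzsum : ∑ k, z k = d := by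
      rw [sum_split, ← hl, hz0, hz1, hzl, sum_eq_zero hzr]
      omega
    have hzbox : z ∈ outN e d := by
      refine mem_box.mpr ⟨hzsum, fun k => ?_⟩
      by_cases hk1 : k = 1
      · rw [hk1, hz1]
        exact hby 1
      by_cases hkl : k = l
      · rw [hkl, hzl]
        exact hbx l
      by_cases hk0 : k = 0
      · rw [hk0, hz0]
        exact coe_lt_of_le (by omega) (hby 0)
      · rw [hzr k (mem_rest.mpr ⟨hk0, hk1, hkl⟩)]
        exact coe_lt_of_le (Nat.zero_le _) (hbx k)
    have hzx : lexG z x := ⟨0, by rw [hz0]; omega, fun j hj => absurd hj (Fin.not_lt_zero j)⟩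
    have hyz : lexG y z := ⟨0, by rw [hz0]; omega, fun j hj => absurd hj (Fin.not_lt_zero j)⟩
    exact E.forbid l 1 hzbox hzl hz1 hzx hyz

/-- The exchange: replacing `x` by `y` does not increase the shadow. -/
theorem Ex.swap : (shd e (insert y (A.erase x))).card ≤ (shd e A).card := by
  set l := Fin.last (m + 2) with hl
  have hxy : x l < y l := E.last_lt
  have hbx := (mem_box.mp (E.hA E.hxA)).2
  have hby := (mem_box.mp E.hyB).2
  set v := bump l x with hv
  have hv1 : v ∈ shd e A := by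
    refine bump_mem_shd E.hxA l fun k => ?_
    by_cases hk : k = l
    · subst hk
      rw [bump_same]
      exact coe_lt_of_le hxy (hby _)
    · rw [bump_ne _ hk]
      exact hbx k
  have hv2 : v ∉ shd e (A.erase x) := by
    intro h
    obtain ⟨⟨t, ht, j, hj⟩, _⟩ := mem_shd.mp h
    obtain ⟨hne, htA⟩ := mem_erase.mp ht
    by_cases hjl : j = l
    · rw [hjl] at hj
      have h1 := congrArg (dec l) hj
      rw [hv, dec_bump, dec_bump] at h1
      exact hne h1.symm
    · have hjlt : j < l := by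
        rw [hl, Fin.lt_last_iff_ne_last]
        exact hjl
      refine E.hx t htA ⟨j, ?_, fun k hk => ?_⟩
      · have h1 := congrFun hj j
        rw [hv, bump_ne _ hjl, bump_same] at h1
        omega
      · have h1 := congrFun hj k
        rw [hv, bump_ne _ (hk.trans hjlt).ne, bump_ne _ hk.ne] at h1
        exact h1
  have hsub : shd e (insert y (A.erase x)) ⊆ insert (bump l y) ((shd e A).erase v) := by
    intro w hw
    obtain ⟨⟨t, ht, j, rfl⟩, hwbox⟩ := mem_shd.mp hw
    rcases mem_insert.mp ht with rfl | ht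
    · by_cases hjl : j = l
      · rw [hjl]
        exact mem_insert_self _ _
      · refine mem_insert_of_mem ?_
        have hjlt : j < l := by
          rw [hl, Fin.lt_last_iff_ne_last]
          exact hjl
        have hwb : bump j t ∈ outN e (d + 1) :=
          mem_box.mpr ⟨by rw [sum_bump, (mem_box.mp E.hyB).1], hwbox⟩
        have hwl : 0 < bump j t l := by
          rw [bump_ne _ (Ne.symm hjl)]
          omega
        have hu := dec_box hwb hwl
        have hulex : lexG (dec l (bump j t)) t := by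
          refine ⟨j, ?_, fun k hk => ?_⟩
          · rw [dec_ne _ hjl, bump_same]
            omega
          · rw [dec_ne _ (hk.trans hjlt).ne, bump_ne _ hk.ne]
        have huA := E.hy _ hu hulex
        have hune : dec l (bump j t) ≠ x := by
          intro h
          rw [h] at hulex
          exact lexG_asymm hulex E.hlex
        have hmem : bump j t ∈ shd e (A.erase x) := by
          refine mem_shd.mpr ⟨⟨_, mem_erase.mpr ⟨hune, huA⟩, l, ?_⟩, hwbox⟩
          exact (bump_dec hwl).symm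
        refine mem_erase.mpr ⟨fun h => hv2 (h ▸ hmem), ?_⟩
        exact shd_mono (erase_subset _ _) hmem
    · refine mem_insert_of_mem ?_
      have hmem : bump j t ∈ shd e (A.erase x) := mem_shd.mpr ⟨⟨t, ht, j, rfl⟩, hwbox⟩
      refine mem_erase.mpr ⟨fun h => hv2 (h ▸ hmem), ?_⟩
      exact shd_mono (erase_subset _ _) hmem
  calc (shd e (insert y (A.erase x))).card ≤ (insert (bump l y) ((shd e A).erase v)).card :=
        card_le_card hsub
    _ ≤ ((shd e A).erase v).card + 1 := card_insert_le _ _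
    _ = (shd e A).card := by
        rw [card_erase_of_mem hv1]
        have := card_pos.mpr ⟨v, hv1⟩
        omega

lemma Ex.card_swap : (insert y (A.erase x)).card = A.card := by
  rw [card_insert_of_notMem (fun h => E.hyA (mem_of_mem_erase h)), card_erase_of_mem E.hxA]
  have := card_pos.mpr ⟨x, E.hxA⟩
  omega

lemma Ex.sub_swap : insert y (A.erase x) ⊆ outN e d := by
  intro t ht
  rcases mem_insert.mp ht with rfl | ht
  · exact E.hyB
  · exact E.hA (mem_of_mem_erase ht)

lemma Ex.mu_swap : mu (outN e d) (insert y (A.erase x)) < mu (outN e d) A := by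
  unfold mu
  rw [sum_insert (fun h => E.hyA (mem_of_mem_erase h))]
  have h1 := add_sum_erase A (rk (outN e d)) E.hxA
  have h2 := rk_lt E.hyB E.hlex
  omega

end Core

/-- A set which is not an initial segment has an exchange pair, when it is compressed. -/
lemma exists_ex {A : Finset (Fin (m + 3) → ℕ)} (hA : A ⊆ outN e d)
    (hcomp : ∀ i, ∀ t ∈ A, ∀ s ∈ outN e d, s i = t i → lexG s t → s ∈ A)
    (hnot : ¬ IsInit A (outN e d)) : ∃ x y, Ex e d A x y := by
  have h1 : ∃ t ∈ A, ∃ s ∈ outN e d, lexG s t ∧ s ∉ A := by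
    by_contra hcon
    push Not at hcon
    exact hnot ⟨hA, fun t ht s hs hst => hcon t ht s hs hst⟩
  obtain ⟨t, ht, s, hs, hst, hsA⟩ := h1
  obtain ⟨x, hx, hxmin⟩ := A.exists_min_image toLex ⟨t, ht⟩
  obtain ⟨y, hy, hymax⟩ := ((outN e d) \ A).exists_max_image toLex ⟨s, mem_sdiff.mpr ⟨hs, hsA⟩⟩
  obtain ⟨hy1, hy2⟩ := mem_sdiff.mp hy
  refine ⟨x, y, hA, hcomp, hx, hy1, hy2, ?_, ?_, ?_⟩
  · rw [lexG_iff] at hst ⊢
    exact lt_of_le_of_lt (hxmin t ht) (lt_of_lt_of_le hst (hymax s (mem_sdiff.mpr ⟨hs, hsA⟩)))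
  · intro u hu huy
    by_contra huA
    have := hymax u (mem_sdiff.mpr ⟨hu, huA⟩)
    rw [lexG_iff] at huy
    exact absurd huy (not_lt.mpr this)
  · intro u hu hxu
    rw [lexG_iff] at hxu
    exact absurd hxu (not_lt.mpr (hxmin u hu))

end Vale.Agent.Lib.P200.N
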