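import Vale.Agent.Lib.P200.N.Dual

namespace Vale.Agent.Lib.P200.N

open MvPolynomial Module

universe u

variable {K : Type u} [Field K] {n c : ℕ}

section Stable

variable {J : Ideal (MvPolynomial (Fin n) K)} {l x : MvPolynomial (Fin n) K} {d : ℕ}

lemma pow_nzd (hlN : ∀ u, l * u ∈ J → u ∈ J) (k : ℕ) (u : MvPolynomial (Fin n) K) (h : l ^ k * u ∈ J) : u ∈ J := by
  induction k with
  | zero => simpa using h
  | succ k ih =>
    apply ih
    apply hlN
    rw [pow_succ', mul_assoc] at h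
    exact h

/-- The spaces spanned by the multiples. -/
noncomputable def Jk (J : Ideal (MvPolynomial (Fin n) K)) (l : MvPolynomial (Fin n) K)
    (U : Submodule K (MvPolynomial (Fin n) K)) (d k : ℕ) : Submodule K (MvPolynomial (Fin n) K) :=
  U.map (LinearMap.mulLeft K (l ^ k)) ⊔ degPartN J (d + k)

lemma Jk_step {U : Submodule K (MvPolynomial (Fin n) K)} (hl : l.IsHomogeneous 1)
    (hstab : ∀ (i : Fin n), ∀ u ∈ U, X i * u ∈ U.map (LinearMap.mulLeft K l) ⊔ degPartN J (d + 1))
    (i : Fin n) (k : ℕ) {y : MvPolynomial (Fin n) K} (hy : y ∈ Jk J l U d k) : X i * y ∈ Jk J l U d (k + 1) := by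
  obtain ⟨p, hp, g, hg, rfl⟩ := Submodule.mem_sup.mp hy
  obtain ⟨u, hu, rfl⟩ := Submodule.mem_map.mp hp
  rw [mul_add]
  refine Submodule.add_mem _ ?_ ?_
  · simp only [LinearMap.mulLeft_apply]
    obtain ⟨p', hp', g', hg', hsum⟩ := Submodule.mem_sup.mp (hstab i u hu)
    obtain ⟨u', hu', rfl⟩ := Submodule.mem_map.mp hp'
    simp only [LinearMap.mulLeft_apply] at hsum
    have h1 : X i * (l ^ k * u) = l ^ (k + 1) * u' + l ^ k * g' := by
      calc X i * (l ^ k * u) = l ^ k * (X i * u) := by ring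
        _ = l ^ k * (l * u' + g') := by rw [hsum]
        _ = l ^ (k + 1) * u' + l ^ k * g' := by ring
    rw [h1]
    refine Submodule.add_mem_sup (Submodule.mem_map.mpr ⟨u', hu', rfl⟩) ?_
    obtain ⟨h2, h3⟩ := Submodule.mem_inf.mp hg'
    refine Submodule.mem_inf.mpr ⟨J.mul_mem_left _ h2, ?_⟩
    have := IsHomogeneous.mul (IsHomogeneous.pow hl k) h3
    rwa [show 1 * k + (d + 1) = d + (k + 1) by omega] at this
  · refine Submodule.mem_sup_right ?_
    obtain ⟨h2, h3⟩ := Submodule.mem_inf.mp hg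
    refine Submodule.mem_inf.mpr ⟨J.mul_mem_left _ h2, ?_⟩
    have := IsHomogeneous.mul (isHomogeneous_X K i) h3
    rwa [show 1 + (d + k) = d + (k + 1) by omega] at this

lemma mono_mul_mem {U : Submodule K (MvPolynomial (Fin n) K)} (hl : l.IsHomogeneous 1)
    (hstab : ∀ (i : Fin n), ∀ u ∈ U, X i * u ∈ U.map (LinearMap.mulLeft K l) ⊔ degPartN J (d + 1))
    (hxU : x ∈ Jk J l U d 1) (j : ℕ) : ∀ (t : Fin n → ℕ), ∑ i, t i = j → monN K t * x ∈ Jk J l U d (j + 1) := by
  induction j with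
  | zero =>
    intro t ht
    have h0 : t = fun _ => 0 := by
      funext i
      exact (Finset.sum_eq_zero_iff.mp ht) i (Finset.mem_univ i)
    subst h0
    simpa [monN] using hxU
  | succ j ih =>
    intro t ht
    have hex : ∃ i, 0 < t i := by
      by_contra hcon
      push Not at hcon
      have : ∑ i, t i = 0 := Finset.sum_eq_zero fun i _ => by
        have := hcon i
        omega
      omega
    obtain ⟨i, hi⟩ := hex
    have h1 := X_mul_monN (K := K) i (dec i t)
    rw [bump_dec hi] at h1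
    rw [← h1, mul_assoc]
    refine Jk_step hl hstab i _ (ih _ ?_)
    have := sum_dec hi
    omega

/-- A family that does not grow cannot contain a nonzerodivisor. -/
theorem stable_contra (hl : l.IsHomogeneous 1) (hl0 : l ≠ 0) (hlN : ∀ u, l * u ∈ J → u ∈ J)
    (hx : x.IsHomogeneous (d + 1)) (hx0 : x ≠ 0) (hxN : ∀ u, x * u ∈ J → u ∈ J)
    {U : Submodule K (MvPolynomial (Fin n) K)} (hU : U ≤ HH K n d) (hJU : degPartN J d ≤ U)
    (hstab : ∀ (i : Fin n), ∀ u ∈ U, X i * u ∈ U.map (LinearMap.mulLeft K l) ⊔ degPartN J (d + 1))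
    (hxU : x ∈ U.map (LinearMap.mulLeft K l) ⊔ degPartN J (d + 1)) : finrank K (HH K n d) ≤ finrank K U := by
  have hxU' : x ∈ Jk J l U d 1 := by
    simpa [Jk] using hxU
  have hall : ∀ y ∈ HH K n d, y * x ∈ Jk J l U d (d + 1) := by
    intro y hy
    rw [HH_eq_span] at hy
    induction hy using Submodule.span_induction with
    | mem y hy =>
      obtain ⟨t, ht, rfl⟩ := hy
      exact mono_mul_mem hl hstab hxU' d t (Finset.mem_piAntidiag.mp (Finset.mem_coe.mp ht)).1
    | zero =>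
      rw [zero_mul]
      exact Submodule.zero_mem _
    | add a b _ _ ha hb =>
      rw [add_mul]
      exact Submodule.add_mem _ ha hb
    | smul r a _ ha =>
      rw [smul_mul_assoc]
      exact Submodule.smul_mem _ _ ha
  have h1 := finrank_mul_sup hx0 hx hxN (le_refl (HH K n d)) (inf_le_right : degPartN J d ≤ HH K n d)
  have hlp : (l ^ (d + 1)).IsHomogeneous (d + 1) := by
    have := IsHomogeneous.pow hl (d + 1)
    rwa [one_mul] at this
  have h2 := finrank_mul_sup (pow_ne_zero (d + 1) hl0) hlp (pow_nzd hlN (d + 1)) hU hJU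
  have h3 : (HH K n d).map (LinearMap.mulLeft K x) ⊔ degPartN J (d + (d + 1)) ≤ Jk J l U d (d + 1) := by
    refine sup_le ?_ le_sup_right
    rw [Submodule.map_le_iff_le_comap]
    intro y hy
    have := hall y hy
    rw [mul_comm] at this
    exact this
  have h4 : Jk J l U d (d + 1) ≤ HH K n (d + (d + 1)) := by
    refine sup_le ?_ inf_le_right
    rw [Submodule.map_le_iff_le_comap]
    intro y hy
    have := IsHomogeneous.mul hlp (hU hy)
    rwa [add_comm (d + 1) d] at this
  have h5 := finrank_le h3 h4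
  have h6 : finrank K (U.map (LinearMap.mulLeft K (l ^ (d + 1))) ⊔ degPartN J (d + (d + 1)) : Submodule K _)
      = finrank K (Jk J l U d (d + 1)) := rfl
  omega

end Stable

section Box

variable {a : Fin (c + 1) → ℕ}

/-- The initial part of the type. -/
def aI (a : Fin (c + 1) → ℕ) : Fin c → ℕ := fun i => a i.castSucc

lemma eF_eq_update (a : Fin (c + 1) → ℕ) :
    eF a = Function.update (eT (aI a) (c + 1)) (Fin.last c) ((a (Fin.last c) : ℕ) : ℕ∞) := by
  funext i
  induction i using Fin.lastCases with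
  | last => simp [eF]
  | cast j =>
    rw [Function.update_of_ne (Fin.castSucc_lt_last j).ne]
    simp [eF, eT, aI]

lemma eT_init_last (a : Fin (c + 1) → ℕ) : eT (aI a) (c + 1) (Fin.last c) = ⊤ := eT_last _ le_rfl

lemma lt_eF_iff {a : Fin (c + 1) → ℕ} {t : Fin (c + 1) → ℕ} :
    (∀ i, (t i : ℕ∞) < eF a i) ↔ (∀ i, (t i : ℕ∞) < eT (aI a) (c + 1) i) ∧ t (Fin.last c) < a (Fin.last c) := by
  rw [eF_eq_update]
  constructor
  · intro h
    refine ⟨fun i => ?_, ?_⟩
    · by_cases hi : i = Fin.last c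
      · subst hi
        rw [eT_init_last]
        exact ENat.coe_lt_top _
      · have := h i
        rwa [Function.update_of_ne hi] at this
    · have := h (Fin.last c)
      rw [Function.update_self] at this
      exact_mod_cast this
  · rintro ⟨h1, h2⟩ i
    by_cases hi : i = Fin.last c
    · subst hi
      rw [Function.update_self]
      exact_mod_cast h2
    · rw [Function.update_of_ne hi]
      exact h1 i

lemma last_le_of_sum {t : Fin (c + 1) → ℕ} {d : ℕ} (h : ∑ i, t i = d) : t (Fin.last c) ≤ d := by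
  have := Finset.single_le_sum (f := t) (fun i _ => Nat.zero_le (t i)) (Finset.mem_univ (Fin.last c))
  omega

lemma out_low {d : ℕ} (hd : d < a (Fin.last c)) : outN (eF a) d = outN (eT (aI a) (c + 1)) d := by
  ext t
  rw [mem_box, mem_box, lt_eF_iff]
  constructor
  · rintro ⟨h1, h2, _⟩
    exact ⟨h1, h2⟩
  · rintro ⟨h1, h2⟩
    have := last_le_of_sum h1
    exact ⟨h1, h2, by omega⟩

lemma shd_low {L : Finset (Fin (c + 1) → ℕ)} {d : ℕ} (hL : L ⊆ outN (eT (aI a) (c + 1)) d)
    (hd : d + 1 < a (Fin.last c)) : shd (eF a) L = shd (eT (aI a) (c + 1)) L := by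
  ext w
  rw [mem_shd, mem_shd, lt_eF_iff]
  constructor
  · rintro ⟨h1, h2, _⟩
    exact ⟨h1, h2⟩
  · rintro ⟨⟨t, ht, i, rfl⟩, h2⟩
    have h3 := (mem_box.mp (hL ht)).1
    have h4 : ∑ k, bump i t k = d + 1 := by rw [sum_bump, h3]
    have := last_le_of_sum h4
    exact ⟨⟨t, ht, i, rfl⟩, h2, by omega⟩

lemma card_out_zero' {e : Fin n → ℕ∞} (h : ∀ i, (0 : ℕ∞) < e i) : (outN e 0).card = 1 := by
  rw [Finset.card_eq_one]
  refine ⟨fun _ => 0, ?_⟩
  ext t
  rw [mem_box, Finset.mem_singleton]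
  constructor
  · rintro ⟨h1, _⟩
    funext i
    exact (Finset.sum_eq_zero_iff.mp h1) i (Finset.mem_univ i)
  · rintro rfl
    refine ⟨by simp, fun i => ?_⟩
    simpa using h i

lemma eT_pos {a : Fin c → ℕ} (ha : ∀ i, 1 ≤ a i) (m : ℕ) (i : Fin m) : (0 : ℕ∞) < eT a m i := by
  unfold eT
  split_ifs with h
  · have := ha ⟨i.val, h⟩
    exact_mod_cast this
  · exact ENat.top_pos

lemma card_out_A {a : Fin (c + 1) → ℕ} (ha1 : ∀ i, 1 ≤ a i) :
    (outN (eT (aI a) (c + 1)) (a (Fin.last c))).card = (outN (eF a) (a (Fin.last c))).card + 1 := by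
  have h := card_cut (eT_init_last a) (a (Fin.last c)) (a (Fin.last c))
  have h0 : (outN (eT (aI a) (c + 1)) 0).card = 1 :=
    card_out_zero' (eT_pos (a := aI a) (fun i => ha1 _) _)
  rw [← eF_eq_update, if_pos le_rfl, Nat.sub_self, h0] at h
  exact h

/-- The sum of the exponents in the first variables is bounded. -/
lemma sum_init_le {a : Fin (c + 1) → ℕ} {w : Fin (c + 1) → ℕ} (hw : ∀ i, w i < a i) :
    ∑ j : Fin c, w j.castSucc ≤ ∑ j : Fin c, (aI a j - 1) := by
  refine Finset.sum_le_sum fun j _ => ?_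
  have := hw j.castSucc
  simp only [aI]
  omega

/-- In the stable range, the shadow of an initial segment is not larger than the segment. -/
lemma shd_stable {a : Fin (c + 1) → ℕ} {d : ℕ} (hS : ∑ j : Fin c, (aI a j - 1) ≤ d)
    {L : Finset (Fin (c + 1) → ℕ)} (hL : IsInit L (outN (eT (aI a) (c + 1)) d)) :
    (shd (eF a) L).card ≤ L.card := by
  have hpos : ∀ w ∈ shd (eF a) L, 0 < w (Fin.last c) := by
    intro w hw
    obtain ⟨⟨t, ht, i, rfl⟩, h2⟩ := mem_shd.mp hw
    have h3 := (mem_box.mp (hL.sub ht)).1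
    have h4 : ∑ k, bump i t k = d + 1 := by rw [sum_bump, h3]
    rw [Fin.sum_univ_castSucc] at h4
    have h5 := sum_init_le (a := a) (w := bump i t) (fun k => by
      have := h2 k
      simpa [eF] using this)
    omega
  refine Finset.card_le_card_of_injOn (dec (Fin.last c)) ?_ ?_
  · intro w hw
    have hw' := Finset.mem_coe.mp hw
    have hp := hpos w hw'
    obtain ⟨⟨t, ht, i, rfl⟩, h2⟩ := mem_shd.mp hw'
    refine Finset.mem_coe.mpr ?_
    by_cases hi : i = Fin.last c
    · subst hi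
      rw [dec_bump]
      exact ht
    · have h3 := (lt_eF_iff.mp h2).1
      have hbox : bump i t ∈ outN (eT (aI a) (c + 1)) (d + 1) := by
        refine mem_box.mpr ⟨?_, h3⟩
        rw [sum_bump, (mem_box.mp (hL.sub ht)).1]
      refine hL.up t ht _ (dec_box hbox hp) ⟨i, ?_, fun j hj => ?_⟩
      · rw [dec_ne _ hi, bump_same]
        omega
      · have hj1 : j ≠ Fin.last c := fun h => by
          subst h
          exact absurd hj (not_lt.mpr (Fin.le_last i))
        rw [dec_ne _ hj1, bump_ne _ hj.ne]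
  · intro w hw v hv h
    have h1 := bump_dec (hpos w (Finset.mem_coe.mp hw))
    have h2 := bump_dec (hpos v (Finset.mem_coe.mp hv))
    rw [← h1, ← h2, h]

end Box

section Main

variable [Infinite K] {a : Fin (c + 1) → ℕ}

lemma qV_low {V : ℕ → Submodule K (MvPolynomial (Fin (c + 1)) K)} {d : ℕ} (hd : d < a (Fin.last c)) :
    qV (eF a) V d = qV (eT (aI a) (c + 1)) V d := by
  rw [qV, qV, out_low hd]

/-- The growth one form lower gives a strict gain in the critical degree. -/
lemma crit_gain {f : Fin (c + 1) → MvPolynomial (Fin (c + 1)) K} (hf : ∀ i, (f i).IsHomogeneous (a i))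
    (ha1 : ∀ i, 1 ≤ a i) (hreg : Reg f) {V : ℕ → Submodule K (MvPolynomial (Fin (c + 1)) K)} (hV : IsLin V)
    (hmem : ∀ i, f i ∈ V (a i)) {d : ℕ} (hd : d + 1 = a (Fin.last c))
    (hq : qV (eT (aI a) (c + 1)) V d < (outN (eT (aI a) (c + 1)) d).card) :
    qV (eT (aI a) (c + 1)) V d + 1 ≤ qV (eT (aI a) (c + 1)) V (d + 1) := by
  have hreg' := hreg.init
  have hf' : ∀ i, (fInit f i).IsHomogeneous (aI a i) := fun i => hf i.castSucc
  have ha1' : ∀ i, 1 ≤ aI a i := fun i => ha1 _
  obtain ⟨b, hb, hl⟩ := exists_good_lin hreg' (Nat.lt_succ_self c)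
  have hlN := hl c le_rfl
  have hGV : ∀ j, degPartN (Fid (fInit f) c) j ≤ V j := fun j u hu =>
    mem_of_fam hV (a := aI a) (fun i _ => hmem i.castSucc) (mem_Fd.mp hu).1 (mem_Fd.mp hu).2
  have hG : ∀ j, finrank K (degPartN (Fid (fInit f) c) j) + (outN (eT (aI a) (c + 1)) j).card = finrank K (HH K (c + 1) j) := by
    intro j
    have := hilb hf' ha1' hreg' (Nat.le_succ c) c le_rfl j
    rwa [eK_self] at this
  by_contra hcon
  have h1 := finrank_mul_sup (linF_ne_zero hb) (linF_mem b) hlN (hV.le d) (hGV d)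
  have hWle : (V d).map (LinearMap.mulLeft K (linF K (c + 1) b)) ⊔ degPartN (Fid (fInit f) c) (d + 1) ≤ V (d + 1) := by
    refine sup_le ?_ (hGV _)
    rw [Submodule.map_le_iff_le_comap]
    intro u hu
    exact hV.lin_mul b hu
  have hfr := finrank_le hWle (hV.le (d + 1))
  have hVd : finrank K (V d) ≤ finrank K (HH K (c + 1) d) := finrank_le (hV.le d) (le_refl _)
  have hleG := finrank_le (hGV d) (hV.le d)
  have hleG1 := finrank_le (hGV (d + 1)) (hV.le (d + 1))
  have hG0 := hG d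
  have hG1 := hG (d + 1)
  have hfin := fin_le (hV.le (d + 1))
  have heq : (V d).map (LinearMap.mulLeft K (linF K (c + 1) b)) ⊔ degPartN (Fid (fInit f) c) (d + 1) = V (d + 1) := by
    refine Submodule.eq_of_le_of_finrank_le hWle ?_
    simp only [qV] at hcon hq
    omega
  have hx0 : f (Fin.last c) ≠ 0 := hreg.ne_zero hf ha1 (Nat.lt_succ_self c)
  have hxd : (f (Fin.last c)).IsHomogeneous (d + 1) := by
    rw [hd]
    exact hf _
  have hstab : ∀ (i : Fin (c + 1)), ∀ u ∈ V d, X i * u ∈ (V d).map (LinearMap.mulLeft K (linF K (c + 1) b))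
      ⊔ degPartN (Fid (fInit f) c) (d + 1) := by
    intro i u hu
    rw [heq]
    exact hV.mul i d u hu
  have hxU : f (Fin.last c) ∈ (V d).map (LinearMap.mulLeft K (linF K (c + 1) b))
      ⊔ degPartN (Fid (fInit f) c) (d + 1) := by
    rw [heq, hd]
    exact hmem _
  have hfinal := stable_contra (linF_mem b) (linF_ne_zero hb) hlN hxd hx0 hreg.last (hV.le d) (hGV d) hstab hxU
  simp only [qV] at hq
  omega

/-- The critical degree. -/
lemma crit_step {f : Fin (c + 1) → MvPolynomial (Fin (c + 1)) K} (hf : ∀ i, (f i).IsHomogeneous (a i))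
    (ha1 : ∀ i, 1 ≤ a i) (hS : ∑ j : Fin c, (aI a j - 1) < a (Fin.last c)) (hreg : Reg f)
    {V : ℕ → Submodule K (MvPolynomial (Fin (c + 1)) K)} (hV : IsLin V)
    (hmem : ∀ i, f i ∈ V (a i)) {d : ℕ} (hd : d + 1 = a (Fin.last c))
    (hP1 : finrank K (HH K (c + 1) (d + 1)) ≤ finrank K (V (d + 1)) + (outN (eF a) (d + 1)).card)
    (hE2 : shd (eT (aI a) (c + 1)) (seg (outN (eT (aI a) (c + 1)) d) (qV (eT (aI a) (c + 1)) V d))
      ⊆ seg (outN (eT (aI a) (c + 1)) (d + 1)) (qV (eT (aI a) (c + 1)) V (d + 1))) :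
    shd (eF a) (seg (outN (eF a) d) (qV (eF a) V d)) ⊆ seg (outN (eF a) (d + 1)) (qV (eF a) V (d + 1)) := by
  have hdA : d < a (Fin.last c) := by omega
  rw [qV_low hdA, out_low hdA]
  set q := qV (eT (aI a) (c + 1)) V d with hq
  set L := seg (outN (eT (aI a) (c + 1)) d) q with hL
  have hLi : IsInit L (outN (eT (aI a) (c + 1)) d) := isInit_seg _ _
  have hLsub : L ⊆ outN (eF a) d := by
    rw [out_low hdA]
    exact hLi.sub
  have hinit : IsInit (shd (eF a) L) (outN (eF a) (d + 1)) := by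
    have h1 : IsInit L (outN (eF a) d) := by
      rw [out_low hdA]
      exact hLi
    exact h1.shd
  rw [isInit_of_seg_card hinit]
  refine seg_mono _ ?_
  have hcard := card_out_A (a := a) ha1
  rw [← hd] at hcard
  have hq' : qV (eF a) V (d + 1) + 1 = qV (eT (aI a) (c + 1)) V (d + 1) := by
    simp only [qV]
    omega
  by_cases hlt : q < (outN (eT (aI a) (c + 1)) d).card
  · have h1 := crit_gain hf ha1 hreg hV hmem hd hlt
    have h2 := shd_stable (a := a) (d := d) (by omega) hLi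
    have h3 : L.card ≤ q := by
      rw [hL, card_seg]
      exact min_le_left _ _
    omega
  · have hLall : outN (eT (aI a) (c + 1)) d ⊆ L := by
      intro t ht
      refine Finset.mem_filter.mpr ⟨ht, ?_⟩
      have h5 : rk (outN (eT (aI a) (c + 1)) d) t < (outN (eT (aI a) (c + 1)) d).card := by
        refine Finset.card_lt_card ⟨Finset.filter_subset _ _, fun h6 => ?_⟩
        exact lexG_irrefl t (Finset.mem_filter.mp (h6 ht)).2
      omega
    have hE3 : outN (eT (aI a) (c + 1)) (d + 1) ⊆ seg (outN (eT (aI a) (c + 1)) (d + 1)) (qV (eT (aI a) (c + 1)) V (d + 1)) := by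
      intro w hw
      apply hE2
      obtain ⟨h6, h7⟩ := mem_box.mp hw
      have hex : ∃ i, 0 < w i := by
        by_contra hcon
        push Not at hcon
        have : ∑ i, w i = 0 := Finset.sum_eq_zero fun i _ => by
          have := hcon i
          omega
        omega
      obtain ⟨i, hi⟩ := hex
      exact mem_shd.mpr ⟨⟨dec i w, hLall (dec_box hw hi), i, (bump_dec hi).symm⟩, h7⟩
    have h8 := Finset.card_le_card hE3
    rw [card_seg] at h8
    have h9 := Finset.card_le_card (shd_sub hLsub (e := eF a))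
    have h10 : min (qV (eT (aI a) (c + 1)) V (d + 1)) (outN (eT (aI a) (c + 1)) (d + 1)).card
        ≤ qV (eT (aI a) (c + 1)) V (d + 1) := min_le_left _ _
    omega

/-- The multiples of the forms are orthogonal to everything of complementary degree. -/
lemma Fd_le_perp {f : Fin (c + 1) → MvPolynomial (Fin (c + 1)) K}
    {l : MvPolynomial (Fin (c + 1)) K →ₗ[K] K}
    (hl : ∀ g ∈ HH K (c + 1) (∑ i, (a i - 1)), l g = 0 ↔ g ∈ Fd f (c + 1) (∑ i, (a i - 1)))
    {d e : ℕ} (hde : d + e = ∑ i, (a i - 1)) {W : Submodule K (MvPolynomial (Fin (c + 1)) K)}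
    (hW : W ≤ HH K (c + 1) d) : Fd (fInit f) c e ≤ perpN l W e := by
  intro v hv
  obtain ⟨hv1, hv2⟩ := mem_Fd.mp hv
  refine mem_perpN.mpr ⟨hv2, fun u hu => ?_⟩
  have h2 : u * v ∈ HH K (c + 1) (∑ i, (a i - 1)) := by
    have := IsHomogeneous.mul (hW hu) hv2
    rwa [hde] at this
  refine (hl _ h2).mpr (mem_Fd.mpr ⟨?_, h2⟩)
  rw [Fid_init f le_rfl] at hv1
  exact Ideal.mul_mem_left _ _ (Fid_mono f (Nat.le_succ c) hv1)

/-- The family used in the high range. -/
noncomputable def famG (f : Fin (c + 1) → MvPolynomial (Fin (c + 1)) K)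
    (T Z : Submodule K (MvPolynomial (Fin (c + 1)) K)) (j₀ j : ℕ) :
    Submodule K (MvPolynomial (Fin (c + 1)) K) :=
  if j < j₀ then Fd (fInit f) c j else if j = j₀ then T else if j = j₀ + 1 then Z else HH K (c + 1) j

lemma famG_lt {f : Fin (c + 1) → MvPolynomial (Fin (c + 1)) K}
    {T Z : Submodule K (MvPolynomial (Fin (c + 1)) K)} {j₀ j : ℕ} (h : j < j₀) :
    famG f T Z j₀ j = Fd (fInit f) c j := by
  simp [famG, h]

lemma famG_eq {f : Fin (c + 1) → MvPolynomial (Fin (c + 1)) K}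
    {T Z : Submodule K (MvPolynomial (Fin (c + 1)) K)} {j₀ : ℕ} :
    famG f T Z j₀ j₀ = T := by
  simp [famG]

lemma famG_succ {f : Fin (c + 1) → MvPolynomial (Fin (c + 1)) K}
    {T Z : Submodule K (MvPolynomial (Fin (c + 1)) K)} {j₀ : ℕ} :
    famG f T Z j₀ (j₀ + 1) = Z := by
  simp [famG]

lemma famG_gt {f : Fin (c + 1) → MvPolynomial (Fin (c + 1)) K}
    {T Z : Submodule K (MvPolynomial (Fin (c + 1)) K)} {j₀ j : ℕ} (h : j₀ + 1 < j) :
    famG f T Z j₀ j = HH K (c + 1) j := by
  simp [famG, show ¬ j < j₀ by omega, show j ≠ j₀ by omega, show j ≠ j₀ + 1 by omega]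

lemma famG_isLin {f : Fin (c + 1) → MvPolynomial (Fin (c + 1)) K}
    {T Z : Submodule K (MvPolynomial (Fin (c + 1)) K)} {j₀ : ℕ}
    (hT : T ≤ HH K (c + 1) j₀) (hZ : Z ≤ HH K (c + 1) (j₀ + 1)) (hFT : Fd (fInit f) c j₀ ≤ T)
    (hTZ : ∀ (i : Fin (c + 1)), ∀ u ∈ T, X i * u ∈ Z) : IsLin (famG f T Z j₀) := by
  have hF : ∀ (i : Fin (c + 1)) (j : ℕ), ∀ u ∈ Fd (fInit f) c j, X i * u ∈ Fd (fInit f) c (j + 1) := by
    intro i j u hu
    obtain ⟨hu1, hu2⟩ := mem_Fd.mp hu
    refine mem_Fd.mpr ⟨Ideal.mul_mem_left _ _ hu1, ?_⟩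
    have := IsHomogeneous.mul (isHomogeneous_X K i) hu2
    rwa [add_comm 1 j] at this
  have hH : ∀ (i : Fin (c + 1)) (j : ℕ) (u : MvPolynomial (Fin (c + 1)) K), u ∈ HH K (c + 1) j → X i * u ∈ HH K (c + 1) (j + 1) :=
    fun i j u hu => isLin_HH.mul i j u hu
  refine ⟨fun j => ?_, fun i j u hu => ?_⟩
  · rcases lt_trichotomy j j₀ with h | h | h
    · rw [famG_lt h]
      exact inf_le_right
    · rw [h, famG_eq]
      exact hT
    · rcases Nat.lt_or_ge (j₀ + 1) j with h' | h'
      · rw [famG_gt h']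
      · have : j = j₀ + 1 := by omega
        rw [this, famG_succ]
        exact hZ
  · rcases Nat.lt_or_ge (j + 1) j₀ with h | h
    · rw [famG_lt h]
      rw [famG_lt (by omega)] at hu
      exact hF i j u hu
    · rcases Nat.lt_or_ge j j₀ with h1 | h1
      · have h2 : j + 1 = j₀ := by omega
        rw [famG_lt h1] at hu
        rw [h2, famG_eq]
        apply hFT
        rw [← h2]
        exact hF i j u hu
      · rcases Nat.lt_or_ge j₀ j with h3 | h3
        · rw [famG_gt (by omega)]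
          rcases Nat.lt_or_ge (j₀ + 1) j with h4 | h4
          · rw [famG_gt h4] at hu
            exact hH i j u hu
          · have h5 : j = j₀ + 1 := by omega
            subst h5
            rw [famG_succ] at hu
            exact hH i _ u (hZ hu)
        · have h5 : j = j₀ := by omega
          subst h5
          rw [famG_eq] at hu
          rw [famG_succ]
          exact hTZ i u hu

lemma famG_mem {f : Fin (c + 1) → MvPolynomial (Fin (c + 1)) K} (hf : ∀ i, (f i).IsHomogeneous (a i))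
    {T Z : Submodule K (MvPolynomial (Fin (c + 1)) K)} {j₀ : ℕ}
    (hFT : Fd (fInit f) c j₀ ≤ T) (hFZ : Fd (fInit f) c (j₀ + 1) ≤ Z) (i : Fin c) :
    fInit f i ∈ famG f T Z j₀ (aI a i) := by
  have hm : ∀ j, aI a i = j → fInit f i ∈ Fd (fInit f) c j := by
    rintro j rfl
    refine mem_Fd.mpr ⟨Ideal.subset_span ⟨i, i.isLt, rfl⟩, hf i.castSucc⟩
  rcases Nat.lt_or_ge (aI a i) j₀ with h | h
  · rw [famG_lt h]
    exact hm _ rfl
  · rcases Nat.lt_or_ge j₀ (aI a i) with h1 | h1
    · rcases Nat.lt_or_ge (j₀ + 1) (aI a i) with h2 | h2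
      · rw [famG_gt h2]
        exact hf i.castSucc
      · have h3 : aI a i = j₀ + 1 := by omega
        rw [h3, famG_succ]
        exact hFZ (hm _ h3)
    · have h3 : aI a i = j₀ := by omega
      rw [h3, famG_eq]
      exact hFT (hm _ h3)

/-- The range above the last degree, by duality. -/
lemma high_step {f : Fin (c + 1) → MvPolynomial (Fin (c + 1)) K} (hf : ∀ i, (f i).IsHomogeneous (a i))
    (ha1 : ∀ i, 1 ≤ a i) (hS : ∑ j : Fin c, (aI a j - 1) ≤ a (Fin.last c)) (hreg : Reg f)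
    (IH : EghAt K c (c + 1) (aI a))
    {V : ℕ → Submodule K (MvPolynomial (Fin (c + 1)) K)} (hV : IsLin V)
    (hmem : ∀ i, f i ∈ V (a i)) {d : ℕ} (hd : a (Fin.last c) ≤ d)
    (hP0 : ∀ j, finrank K (Fd f (c + 1) j) ≤ finrank K (V j)) :
    shd (eF a) (seg (outN (eF a) d) (qV (eF a) V d)) ⊆ seg (outN (eF a) (d + 1)) (qV (eF a) V (d + 1)) := by
  have hsum : ∑ i, (a i - 1) = ∑ j : Fin c, (aI a j - 1) + (a (Fin.last c) - 1) := by
    rw [Fin.sum_univ_castSucc]
    rfl
  by_cases hσ : ∑ i, (a i - 1) ≤ d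
  · intro w hw
    exfalso
    have h1 := bump_lt_of_shd hw
    obtain ⟨⟨t, ht, i, rfl⟩, h2⟩ := mem_shd.mp hw
    have h3 := (mem_eF.mp (seg_subset _ _ ht)).1
    have h4 : ∑ k, bump i t k = d + 1 := by rw [sum_bump, h3]
    have h5 : ∑ k, bump i t k ≤ ∑ k, (a k - 1) := Finset.sum_le_sum fun k _ => by
      have := h1 k
      omega
    omega
  obtain ⟨j₀, hj₀⟩ : ∃ j₀, j₀ + 1 + d = ∑ i, (a i - 1) := ⟨∑ i, (a i - 1) - d - 1, by omega⟩
  have hj₀A : j₀ + 1 < a (Fin.last c) := by omega
  obtain ⟨l, hl⟩ := exists_l hf ha1 hreg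
  have hFV : ∀ j, Fd f (c + 1) j ≤ V j := fun j u hu =>
    mem_of_fam hV (a := a) (fun i _ => hmem i) (mem_Fd.mp hu).1 (mem_Fd.mp hu).2
  set T := perpN l (V (d + 1)) j₀ with hT
  set Z := perpN l (V d) (j₀ + 1) with hZ
  have hTle : T ≤ HH K (c + 1) j₀ := fun v hv => hv.1
  have hZle : Z ≤ HH K (c + 1) (j₀ + 1) := fun v hv => hv.1
  have hFT : Fd (fInit f) c j₀ ≤ T := Fd_le_perp hl (by omega) (hV.le _)
  have hFZ : Fd (fInit f) c (j₀ + 1) ≤ Z := Fd_le_perp hl (by omega) (hV.le _)
  have hTZ : ∀ (i : Fin (c + 1)), ∀ u ∈ T, X i * u ∈ Z := by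
    intro i u hu
    refine mem_perpN.mpr ⟨isLin_HH.mul i _ u hu.1, fun w hw => ?_⟩
    have := hu.2 _ (hV.mul i d w hw)
    rwa [show X i * w * u = w * (X i * u) by ring] at this
  have hG : IsLin (famG f T Z j₀) := famG_isLin hTle hZle hFT hTZ
  have hf' : ∀ i, (fInit f i).IsHomogeneous (aI a i) := fun i => hf i.castSucc
  have hH := (IH (fInit f) hf' hreg.init _ hG (famG_mem hf hFT hFZ) j₀).2
  have hq0 : qV (eT (aI a) (c + 1)) (famG f T Z j₀) j₀
      = finrank K T + (outN (eF a) j₀).card - finrank K (HH K (c + 1) j₀) := by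
    rw [qV, famG_eq, out_low (by omega)]
  have hq1 : qV (eT (aI a) (c + 1)) (famG f T Z j₀) (j₀ + 1)
      = finrank K Z + (outN (eF a) (j₀ + 1)).card - finrank K (HH K (c + 1) (j₀ + 1)) := by
    rw [qV, famG_succ, out_low hj₀A]
  rw [hq0, hq1, ← out_low (by omega), ← out_low hj₀A, ← shd_low (by rw [out_low (by omega)]; exact seg_subset _ _) hj₀A] at hH
  have hhilb : ∀ j, finrank K (Fd f (c + 1) j) + (outN (eF a) j).card = finrank K (HH K (c + 1) j) := by
    intro j
    have := hilb hf ha1 hreg le_rfl (c + 1) le_rfl j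
    rwa [eK_self, eT_self] at this
  have hpT : finrank K T + finrank K (V (d + 1)) = finrank K (HH K (c + 1) j₀) + finrank K (Fd f (c + 1) (d + 1)) :=
    finrank_perpN hf ha1 hreg hl (d := d + 1) (e := j₀) (by omega) (hV.le _) (hFV _)
  have hpZ : finrank K Z + finrank K (V d) = finrank K (HH K (c + 1) (j₀ + 1)) + finrank K (Fd f (c + 1) d) :=
    finrank_perpN hf ha1 hreg hl (d := d) (e := j₀ + 1) (by omega) (hV.le _) (hFV _)
  have hc1 : (outN (eF a) (d + 1)).card = (outN (eF a) j₀).card := card_cmpl (a := a) (by omega)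
  have hc2 : (outN (eF a) d).card = (outN (eF a) (j₀ + 1)).card := card_cmpl (a := a) (by omega)
  have hTle' : finrank K T ≤ finrank K (HH K (c + 1) j₀) := finrank_le hTle (le_refl _)
  have hZle' : finrank K Z ≤ finrank K (HH K (c + 1) (j₀ + 1)) := finrank_le hZle (le_refl _)
  have hc := comb_dual (a := a) hj₀ (t := finrank K T + (outN (eF a) j₀).card - finrank K (HH K (c + 1) j₀)) (by omega) hH
  have e1 : (outN (eF a) d).card - (finrank K Z + (outN (eF a) (j₀ + 1)).card - finrank K (HH K (c + 1) (j₀ + 1)))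
      = qV (eF a) V d := by
    have h1 := hhilb d
    have h2 := hP0 d
    have h3 : finrank K (V d) ≤ finrank K (HH K (c + 1) d) := finrank_le (hV.le d) (le_refl _)
    simp only [qV]
    omega
  have e2 : (outN (eF a) (d + 1)).card - (finrank K T + (outN (eF a) j₀).card - finrank K (HH K (c + 1) j₀))
      = qV (eF a) V (d + 1) := by
    have h1 := hhilb (d + 1)
    have h2 := hP0 (d + 1)
    have h3 : finrank K (V (d + 1)) ≤ finrank K (HH K (c + 1) (d + 1)) := finrank_le (hV.le _) (le_refl _)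
    simp only [qV]
    omega
  rwa [e1, e2] at hc

/-- The induction on the number of forms in as many variables as forms. -/
theorem EghAt_top (ha1 : ∀ i, 1 ≤ a i) (hS : ∑ j : Fin c, (aI a j - 1) < a (Fin.last c))
    (IH : EghAt K c (c + 1) (aI a)) : EghAt K (c + 1) (c + 1) a := by
  intro f hf hreg V hV hmem d
  rw [eT_self]
  have hFV : ∀ j, Fd f (c + 1) j ≤ V j := fun j u hu =>
    mem_of_fam hV (a := a) (fun i _ => hmem i) (mem_Fd.mp hu).1 (mem_Fd.mp hu).2
  have hhilb : ∀ j, finrank K (Fd f (c + 1) j) + (outN (eF a) j).card = finrank K (HH K (c + 1) j) := by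
    intro j
    have := hilb hf ha1 hreg le_rfl (c + 1) le_rfl j
    rwa [eK_self, eT_self] at this
  have hP0 : ∀ j, finrank K (Fd f (c + 1) j) ≤ finrank K (V j) := fun j =>
    finrank_le (hFV j) (hV.le j)
  have hP1 : ∀ j, finrank K (HH K (c + 1) j) ≤ finrank K (V j) + (outN (eF a) j).card := by
    intro j
    have h1 := hP0 j
    have h2 := hhilb j
    omega
  refine ⟨hP1 d, ?_⟩
  have hf' : ∀ i, (fInit f i).IsHomogeneous (aI a i) := fun i => hf i.castSucc
  have H' := IH (fInit f) hf' hreg.init V hV (fun i => hmem i.castSucc) d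
  rcases lt_trichotomy (d + 1) (a (Fin.last c)) with h | h | h
  · rw [qV_low (by omega), qV_low h, out_low (by omega), out_low h,
      shd_low (by exact seg_subset _ _) h]
    exact H'.2
  · exact crit_step hf ha1 hS hreg hV hmem h (hP1 _) H'.2
  · exact high_step hf ha1 hS.le hreg IH hV hmem (by omega) hP0

end Main

end Vale.Agent.Lib.P200.N
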