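import Vale.Agent.Lib.P200.N.Base
import Vale.Agent.Lib.P200.N.Top

namespace Vale.Agent.Lib.P200.N

open MvPolynomial Module

universe u

variable {K : Type u} [Field K]

/-- From the fourth entry on, each entry exceeds the sum of the earlier entries minus one. -/
def Tail {c : ℕ} (a : Fin c → ℕ) : Prop :=
  ∀ i : Fin c, 3 ≤ i.val → ∑ j ∈ Finset.univ.filter (fun j => j < i), (a j - 1) < a i

lemma Tail.init {c : ℕ} {a : Fin (c + 1) → ℕ} (h : Tail a) : Tail (aI a) := by
  intro i hi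
  have h1 := h i.castSucc (by simpa using hi)
  rw [Finset.sum_filter, Fin.sum_univ_castSucc] at h1
  rw [Finset.sum_filter]
  have h2 : ¬ (Fin.last c < i.castSucc) := not_lt.mpr (Fin.le_last _)
  rw [if_neg h2, add_zero] at h1
  simp only [Fin.castSucc_lt_castSucc_iff] at h1
  exact h1

lemma Tail.last {c : ℕ} {a : Fin (c + 1) → ℕ} (h : Tail a) (hc : 3 ≤ c) :
    ∑ j : Fin c, (aI a j - 1) < a (Fin.last c) := by
  have h1 := h (Fin.last c) (by simpa using hc)
  rw [Finset.sum_filter, Fin.sum_univ_castSucc] at h1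
  rw [if_neg (lt_irrefl _), add_zero] at h1
  simpa [Fin.castSucc_lt_last, aI] using h1

lemma aI_mono {c : ℕ} {a : Fin (c + 1) → ℕ} (h : Monotone a) : Monotone (aI a) := fun _ _ hij =>
  h (Fin.castSucc_le_castSucc_iff.mpr hij)

/-- More variables. -/
theorem EghAt_up [Infinite K] {c : ℕ} {a : Fin c → ℕ} (ha : Monotone a) (hc : 2 ≤ c) {n : ℕ} (hcn : c ≤ n)
    (h : EghAt K c c a) : EghAt K c n a := by
  induction n, hcn using Nat.le_induction with
  | base => exact h
  | succ n hn ih =>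
    obtain ⟨m, rfl⟩ : ∃ m, n = m + 2 := ⟨n - 2, by omega⟩
    exact EghAt_step ha hn ih

/-- The statement over infinite fields. -/
theorem EghAt_tail [Infinite K] {c : ℕ} (hc : 3 ≤ c) :
    ∀ (a : Fin c → ℕ), (∀ i, 2 ≤ a i) → Monotone a → Tail a → ∀ n, c ≤ n → EghAt K c n a := by
  induction c, hc using Nat.le_induction with
  | base =>
    intro a h2 ha _ n hn
    obtain ⟨m, rfl⟩ : ∃ m, n = m + 3 := ⟨n - 3, by omega⟩
    exact EghAt_infinite (h2 0) ha m
  | succ c hc ih =>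
    intro a h2 ha hT n hn
    refine EghAt_up ha (by omega) hn ?_
    refine EghAt_top (fun i => by have := h2 i; omega) (hT.last hc) ?_
    exact ih (aI a) (fun i => h2 _) (aI_mono ha) hT.init (c + 1) (Nat.le_succ c)

/-- The statement over all fields. -/
theorem EghAt_tail_all {c : ℕ} (hc : 3 ≤ c) {a : Fin c → ℕ} (h2 : ∀ i, 2 ≤ a i) (ha : Monotone a) (hT : Tail a)
    {n : ℕ} (hn : c ≤ n) : EghAt K c n a :=
  EghAt_descent (L := AlgebraicClosure K) (EghAt_tail hc a h2 ha hT n hn)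

/-- The Eisenbud-Green-Harris statement for fast growing tails. -/
theorem egh_tail {c n : ℕ} (hc : 3 ≤ c) (hn : c ≤ n) {a : Fin c → ℕ} (h2 : ∀ i, 2 ≤ a i) (ha : Monotone a)
    (hT : Tail a) (f : Fin c → MvPolynomial (Fin n) K) (hf : ∀ i, (f i).IsHomogeneous (a i)) (hreg : Reg f)
    (I : Ideal (MvPolynomial (Fin n) K)) (hI : ∀ i, f i ∈ I) :
    (∃ 𝔍 : Ideal (MvPolynomial (Fin n) K), ∀ g, g ∈ 𝔍 ↔ g ∈ ⨆ d, JN (eT a n) I d) ∧
      ∀ d, finrank K (JN (eT a n) I d) = finrank K (degPartN I d) :=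
  egh_of_EghAt (EghAt_tail_all hc h2 ha hT hn) f hf hreg I hI

end Vale.Agent.Lib.P200.N
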